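import Vale.Agent.P159.T1.S.H711.RHc

/-!
P159: covariance and height differences in elementary terms.
-/

open Filter Topology

namespace Vale.Agent.P159.T1.S.Hv

open Vale.Agent.P159 Vale.Agent.P159.T1.D

lemma dd_cast (x y : ℤ × ℤ) : (max |(x - y).1| |(x - y).2| : ℤ) = ((dd x y : ℕ) : ℤ) := by
  unfold dd
  rw [Nat.cast_max, ← Int.abs_eq_natAbs, ← Int.abs_eq_natAbs]
  simp only [Prod.fst_sub, Prod.snd_sub]

/-- **The covariance of the heights in a box** -/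
theorem cov_log' (b : ℝ) (hb : bCrit ≤ b) (ε : ℝ) (hε : 0 < ε) : ∃ C : ℝ, ∀ n : ℕ, 1 ≤ n →
    ∀ x y : ℤ × ℤ, 2 * max |x.1| |x.2| ≤ n → 2 * max |y.1| |y.2| ≤ n →
      |hMean b (Finset.Icc (-(n : ℤ), -(n : ℤ)) ((n : ℤ), (n : ℤ)))
          (fun h => (h x : ℝ) * h y) -
        helicity b / (2 * Real.pi) *
          Real.log (n / (max 1 ((max |(x - y).1| |(x - y).2| : ℤ) : ℝ)))| ≤
        ε * Real.log n + C := by
  have hb0 : 0 < b := (T1.H934.pos_of_ge b hb).1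
  obtain ⟨C, hC⟩ := cov_box b hb ε hε
  refine ⟨C, fun n hn x y hx hy => ?_⟩
  have e : bx 0 n = Finset.Icc (-(n : ℤ), -(n : ℤ)) ((n : ℤ), (n : ℤ)) := by
    unfold bx
    rw [zero_add, zero_sub]
    rfl
  have key : ∀ x : ℤ × ℤ, 2 * max |x.1| |x.2| ≤ (n : ℤ) → x ∈ bx 0 (n / 2) := by
    intro x hx
    rw [mem_bx0]
    have h1 : |x.1| ≤ max |x.1| |x.2| := le_max_left _ _
    have h2 : |x.2| ≤ max |x.1| |x.2| := le_max_right _ _
    have h3 := abs_le.1 (le_refl |x.1|)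
    have h4 := abs_le.1 (le_refl |x.2|)
    omega
  have h := hC n hn x y (key x hx) (key y hy)
  rw [← e, hMean_eq hb0.le, dd_cast, Int.cast_natCast]
  have hn' : (1 : ℝ) ≤ n := by exact_mod_cast hn
  rw [Real.log_div (by positivity) (by positivity)]
  exact h

/-- **The mean square height difference**, uniformly in the domain -/
theorem height_diff2' (b : ℝ) (hb : bCrit ≤ b) (ε : ℝ) (hε : 0 < ε) : ∃ C : ℝ,
    ∀ x y : ℤ × ℤ, x ≠ y → ∀ U : Finset (ℤ × ℤ),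
      (∀ z : ℤ × ℤ, 2 * max |(z - x).1| |(z - x).2| ≤ max |(x - y).1| |(x - y).2| ∨
        2 * max |(z - y).1| |(z - y).2| ≤ max |(x - y).1| |(x - y).2| → z ∈ U) →
      |hMean b U (fun h => ((h x : ℝ) - h y) ^ 2) -
        helicity b / Real.pi * Real.log ((max |(x - y).1| |(x - y).2| : ℤ) : ℝ)| ≤
        ε * Real.log ((max |(x - y).1| |(x - y).2| : ℤ) : ℝ) + C := by
  have hb0 : 0 < b := (T1.H934.pos_of_ge b hb).1
  obtain ⟨C, hC⟩ := height_diff2 b hb ε hε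
  refine ⟨C, fun x y hxy U hU => ?_⟩
  have hd' := dd_cast x y
  have hd : ((max |(x - y).1| |(x - y).2| : ℤ) : ℝ) = (dd x y : ℝ) := by
    rw [hd', Int.cast_natCast]
  have key : ∀ w : ℤ × ℤ, (∀ z : ℤ × ℤ, 2 * max |(z - w).1| |(z - w).2| ≤
      max |(x - y).1| |(x - y).2| → z ∈ U) → bx w (dd x y / 2) ⊆ U := by
    intro w hw z hz
    refine hw z ?_
    rw [mem_bx] at hz
    rw [hd']
    simp only [Prod.fst_sub, Prod.snd_sub]
    have h1 : |z.1 - w.1| ≤ ((dd x y / 2 : ℕ) : ℤ) := abs_le.2 hz.1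
    have h2 : |z.2 - w.2| ≤ ((dd x y / 2 : ℕ) : ℤ) := abs_le.2 hz.2
    have h3 : max |z.1 - w.1| |z.2 - w.2| ≤ ((dd x y / 2 : ℕ) : ℤ) := max_le h1 h2
    omega
  rw [hd, hMean_eq hb0.le]
  exact hC x y hxy U (key x fun z hz => hU z (Or.inl hz)) (key y fun z hz => hU z (Or.inr hz))

end Vale.Agent.P159.T1.S.Hv
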