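import Vale.Agent.P159.T1.S.H711.Hv1
import Vale.Agent.P159.T1.H910.Sym

/-!
P159: boxes, translation invariance, and the form of the recursion which is iterated.
-/

open Filter Topology

namespace Vale.Agent.P159.T1.S.Hv

open Vale.Agent.P159 Vale.Agent.P159.T1.D

variable {b : ℝ} {U W : Finset Z2}

/-- the box with centre `c` and radius `n` -/
noncomputable def bx (c : Z2) (n : ℕ) : Finset Z2 := Finset.Icc (c - ((n : ℤ), (n : ℤ))) (c + ((n : ℤ), (n : ℤ)))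

lemma mem_bx {c f : Z2} {n : ℕ} : f ∈ bx c n ↔
    (-(n : ℤ) ≤ f.1 - c.1 ∧ f.1 - c.1 ≤ n) ∧ (-(n : ℤ) ≤ f.2 - c.2 ∧ f.2 - c.2 ≤ n) := by
  unfold bx
  rw [Finset.mem_Icc, Prod.le_def, Prod.le_def]
  simp only [Prod.fst_sub, Prod.snd_sub, Prod.fst_add, Prod.snd_add]
  constructor
  · rintro ⟨⟨h1, h2⟩, h3, h4⟩
    refine ⟨⟨?_, ?_⟩, ?_, ?_⟩ <;> linarith
  · rintro ⟨⟨h1, h2⟩, h3, h4⟩
    refine ⟨⟨?_, ?_⟩, ?_, ?_⟩ <;> linarith

lemma mem_bx0 {f : Z2} {n : ℕ} : f ∈ bx 0 n ↔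
    (-(n : ℤ) ≤ f.1 ∧ f.1 ≤ n) ∧ (-(n : ℤ) ≤ f.2 ∧ f.2 ≤ n) := by
  rw [mem_bx]; simp

open H910 in
theorem hv_symm {σ : Z2 ≃ Z2} {τ : Bnd ≃ Bnd} (hs : IsSym σ τ) (b : ℝ) (U : Finset Z2) (x : Z2) :
    hv b (U.map σ.toEmbedding) (σ x) = hv b U x := by
  unfold hv
  rw [E_eq, E_eq, hs.bd, FF_symm hs, FF_symm hs]
  congr 1
  refine FF_congr fun h => ?_
  simp

lemma bx_map (c u : Z2) (n : ℕ) : (bx c n).map (H910.trF u).toEmbedding = bx (c + u) n := by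
  ext f
  rw [Finset.mem_map, mem_bx]
  constructor
  · rintro ⟨g, hg, rfl⟩
    rw [mem_bx] at hg
    simpa [H910.trF] using hg
  · intro h
    refine ⟨f - u, ?_, by simp [H910.trF]⟩
    rw [mem_bx]
    simp only [Prod.fst_sub, Prod.snd_sub, Prod.fst_add, Prod.snd_add] at h ⊢
    refine ⟨⟨?_, ?_⟩, ?_, ?_⟩ <;> linarith [h.1.1, h.1.2, h.2.1, h.2.2]

/-- the second moment of the height at the centre of the box of radius `n` -/
noncomputable def vn (b : ℝ) (n : ℕ) : ℝ := hv b (bx 0 n) 0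

lemma hv_bx (b : ℝ) (c : Z2) (n : ℕ) : hv b (bx c n) c = vn b n := by
  have h := hv_symm (H910.isSym_tr c) b (bx 0 n) 0
  rw [bx_map, zero_add] at h
  have e : (H910.trF c) 0 = c := by simp [H910.trF]
  rw [e] at h
  exact h

lemma vn_mono (hb : 0 ≤ b) {m n : ℕ} (h : m ≤ n) : vn b m ≤ vn b n := by
  refine hv_mono hb ?_ 0
  intro f hf
  rw [mem_bx0] at hf ⊢
  have : (m : ℤ) ≤ n := by exact_mod_cast h
  refine ⟨⟨?_, ?_⟩, ?_, ?_⟩ <;> linarith [hf.1.1, hf.1.2, hf.2.1, hf.2.2]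

lemma vn_nonneg (hb : 0 ≤ b) (n : ℕ) : 0 ≤ vn b n := hv_nonneg hb _ _

/-- the recursion: `A` lies in the box of radius `a`, `κ` vanishes on the box of radius `2 a` -/
theorem step (hb : 0 ≤ b) {a N : ℕ} (haN : 2 * a ≤ N) {A : Finset Z2} (hA : A ⊆ bx 0 a)
    {w : Z2 → ℝ} (hw : ∀ x ∈ A, 0 ≤ w x) (hw1 : ∑ x ∈ A, w x = 1) {κ : Z2 → ℝ}
    (hκ : ∀ f ∈ bx 0 (2 * a), κ f = 0) :
    vn b a + (V b (bx 0 N) (fun f => if f ∈ A then w f else 0) -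
      V b (bx 0 N) (fun f => (if f ∈ A then w f else 0) - κ f)) ≤ vn b (N + a) := by
  have hsub : bx 0 (2 * a) ⊆ bx 0 N := by
    intro f hf
    rw [mem_bx0] at hf ⊢
    have : ((2 * a : ℕ) : ℤ) ≤ N := by exact_mod_cast haN
    refine ⟨⟨?_, ?_⟩, ?_, ?_⟩ <;> linarith [hf.1.1, hf.1.2, hf.2.1, hf.2.2]
  have hA2 : A ⊆ bx 0 (2 * a) := by
    intro f hf
    have := hA hf
    rw [mem_bx0] at this ⊢
    push_cast
    refine ⟨⟨?_, ?_⟩, ?_, ?_⟩ <;> linarith [this.1.1, this.1.2, this.2.1, this.2.2]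
  have h := star hb hsub hA2 hw hw1 hκ
  have h1 : ∀ x ∈ A, vn b a ≤ hv b (bx 0 (2 * a)) x := by
    intro x hx
    rw [← hv_bx b x a]
    refine hv_mono hb ?_ x
    intro f hf
    have h2 := hA hx
    rw [mem_bx0] at h2 ⊢
    rw [mem_bx] at hf
    push_cast
    refine ⟨⟨?_, ?_⟩, ?_, ?_⟩ <;>
      linarith [hf.1.1, hf.1.2, hf.2.1, hf.2.2, h2.1.1, h2.1.2, h2.2.1, h2.2.2]
  have h3 : ∀ x ∈ A, hv b (bx 0 N) x ≤ vn b (N + a) := by
    intro x hx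
    rw [← hv_bx b x (N + a)]
    refine hv_mono hb ?_ x
    intro f hf
    have h2 := hA hx
    rw [mem_bx0] at h2 hf
    rw [mem_bx]
    push_cast
    refine ⟨⟨?_, ?_⟩, ?_, ?_⟩ <;>
      linarith [hf.1.1, hf.1.2, hf.2.1, hf.2.2, h2.1.1, h2.1.2, h2.2.1, h2.2.2]
  have h4 : vn b a ≤ ∑ x ∈ A, w x * hv b (bx 0 (2 * a)) x := by
    calc vn b a = ∑ x ∈ A, w x * vn b a := by rw [← Finset.sum_mul, hw1, one_mul]
      _ ≤ _ := Finset.sum_le_sum fun x hx => mul_le_mul_of_nonneg_left (h1 x hx) (hw x hx)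
  have h5 : ∑ x ∈ A, w x * hv b (bx 0 N) x ≤ vn b (N + a) := by
    calc ∑ x ∈ A, w x * hv b (bx 0 N) x ≤ ∑ x ∈ A, w x * vn b (N + a) :=
          Finset.sum_le_sum fun x hx => mul_le_mul_of_nonneg_left (h3 x hx) (hw x hx)
      _ = vn b (N + a) := by rw [← Finset.sum_mul, hw1, one_mul]
  linarith

end Vale.Agent.P159.T1.S.Hv
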