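import Vale.Agent.P159.T1.S.H711.Hv14
import Vale.Agent.P159.R2.H254.Link

/-!
P159: the two theorems on the dual heights in elementary terms.
-/

open Filter Topology

namespace Vale.Agent.P159.T1.S.Hv

open Vale.Agent.P159 Vale.Agent.P159.T1.D
open Vale.Agent.P159.R2.H254 (bes bes_eq)
open Vale.Agent.P159.T1.H910 (mem_bd)
open Vale.Agent.P159.H353 (wI wI_zero_pos)

/-- integer heights on the plane which vanish outside `U` -/
abbrev Hts (U : Finset (ℤ × ℤ)) : Type := {h : ℤ × ℤ → ℤ // ∀ x, x ∉ U → h x = 0}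

/-- the sites whose right or upper bond may touch `U` -/
noncomputable def nbh (U : Finset (ℤ × ℤ)) : Finset (ℤ × ℤ) :=
  U ∪ U.image (fun x => (x.1 - 1, x.2)) ∪ U.image (fun x => (x.1, x.2 - 1))

/-- weight of the heights: the product of `I_{h(x)-h(y)}(b)` over the nearest-neighbour pairs -/
noncomputable def hWt (b : ℝ) (U : Finset (ℤ × ℤ)) (h : ℤ × ℤ → ℤ) : ℝ :=
  ∏ x ∈ nbh U, bes b (h (x.1 + 1, x.2) - h x) * bes b (h (x.1, x.2 + 1) - h x)

/-- mean of `F` with respect to the probability weights proportional to `hWt` -/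
noncomputable def hMean (b : ℝ) (U : Finset (ℤ × ℤ)) (F : (ℤ × ℤ → ℤ) → ℝ) : ℝ :=
  (∑' h : Hts U, hWt b U h.1 * F h.1) / ∑' h : Hts U, hWt b U h.1

lemma hWt_eq {b : ℝ} (hb : 0 ≤ b) (U : Finset (ℤ × ℤ)) :
    ∃ c : ℝ, 0 < c ∧ ∀ h : Hts U, hWt b U h.1 = c * wt b U 0 h.1 := by
  classical
  set S : Finset Bnd := (nbh U).image (fun x => (((x.1 + 1, x.2) : Z2), true)) ∪
    (nbh U).image (fun x => (((x.1, x.2 + 1) : Z2), false)) with hS
  have hsub : bd U ⊆ S := by
    intro e he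
    obtain ⟨⟨i, j⟩, d⟩ := e
    rw [mem_bd] at he
    rw [hS, Finset.mem_union, Finset.mem_image, Finset.mem_image]
    cases d
    · right
      simp only [rt, lf, Bool.false_eq_true, if_false] at he
      refine ⟨(i, j - 1), ?_, by simp⟩
      unfold nbh
      rw [Finset.mem_union, Finset.mem_union]
      rcases he with h1 | h1
      · exact Or.inl (Or.inl h1)
      · exact Or.inr (Finset.mem_image.2 ⟨(i, j), h1, rfl⟩)
    · left
      simp only [rt, lf, if_true] at he
      refine ⟨(i - 1, j), ?_, by simp⟩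
      unfold nbh
      rw [Finset.mem_union, Finset.mem_union]
      rcases he with h1 | h1
      · exact Or.inl (Or.inr (Finset.mem_image.2 ⟨(i, j), h1, rfl⟩))
      · exact Or.inl (Or.inl h1)
  refine ⟨wI b 0 ^ (S \ bd U).card, pow_pos (wI_zero_pos hb) _, fun h => ?_⟩
  have h1 : hWt b U h.1 = ∏ e ∈ S, wI b (dh h.1 e) := by
    unfold hWt
    rw [Finset.prod_mul_distrib, hS, Finset.prod_union, Finset.prod_image, Finset.prod_image]
    · congr 1
      · refine Finset.prod_congr rfl fun x _ => ?_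
        rw [bes_eq hb, ← H353.wI_neg]
        congr 1
        unfold dh
        simp [rt, lf]
      · refine Finset.prod_congr rfl fun x _ => ?_
        rw [bes_eq hb]
        congr 1
        unfold dh
        simp [rt, lf]
    · intro x _ y _ hxy
      simpa [Prod.ext_iff] using hxy
    · intro x _ y _ hxy
      simpa [Prod.ext_iff] using hxy
    · rw [Finset.disjoint_left]
      intro e he he'
      obtain ⟨x, _, rfl⟩ := Finset.mem_image.1 he
      obtain ⟨y, _, hy⟩ := Finset.mem_image.1 he'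
      simp at hy
  have h2 : ∏ e ∈ S \ bd U, wI b (dh h.1 e) = wI b 0 ^ (S \ bd U).card := by
    rw [Finset.prod_congr rfl (g := fun _ => wI b 0), Finset.prod_const]
    intro e he
    have he' := (Finset.mem_sdiff.1 he).2
    rw [mem_bd, not_or] at he'
    unfold dh
    rw [h.2 _ he'.1, h.2 _ he'.2, sub_self]
  have h3 : wt b U 0 h.1 = ∏ e ∈ bd U, wI b (dh h.1 e) := by
    unfold wt
    simp
  rw [h1, ← Finset.prod_sdiff hsub, h2, h3]

theorem hMean_eq {b : ℝ} (hb : 0 ≤ b) (U : Finset (ℤ × ℤ)) (F : (ℤ × ℤ → ℤ) → ℝ) :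
    hMean b U F = E b U F := by
  obtain ⟨c, hc, h⟩ := hWt_eq hb U
  unfold hMean D.E D.Z
  have e1 : ∑' h : Hts U, hWt b U h.1 * F h.1 = c * ∑' h : Ht U, wt b U 0 h.1 * F h.1 := by
    rw [← tsum_mul_left]
    exact tsum_congr fun g => by rw [h g]; ring
  have e2 : ∑' h : Hts U, hWt b U h.1 = c * ∑' h : Ht U, wt b U 0 h.1 := by
    rw [← tsum_mul_left]
    exact tsum_congr fun g => h g
  rw [e1, e2, mul_div_mul_left _ _ hc.ne']

/-- **The variance of the height at the centre of a box**, exact logarithmic growth -/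
theorem height_log' (b : ℝ) (hb : bCrit ≤ b) :
    Tendsto (fun n : ℕ => hMean b (Finset.Icc (-(n : ℤ), -(n : ℤ)) ((n : ℤ), (n : ℤ)))
      (fun h => (h 0 : ℝ) ^ 2) / Real.log n) atTop (𝓝 (helicity b / (2 * Real.pi))) := by
  have hb0 : 0 < b := (T1.H934.pos_of_ge b hb).1
  rw [Metric.tendsto_atTop]
  intro ε hε
  obtain ⟨C, hC⟩ := height_log b hb (ε / 2) (by positivity)
  have hlog : Tendsto (fun n : ℕ => Real.log n) atTop atTop :=
    Real.tendsto_log_atTop.comp tendsto_natCast_atTop_atTop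
  obtain ⟨n0, hn0⟩ := (hlog.eventually_ge_atTop (2 * |C| / ε + 1)).exists_forall_of_atTop
  refine ⟨max n0 1, fun n hn => ?_⟩
  have h1 := hC n (le_trans (le_max_right _ _) hn)
  have h2 := hn0 n (le_trans (le_max_left _ _) hn)
  have hl : 0 < Real.log n := lt_of_lt_of_le (by positivity) h2
  have e0 : hMean b (Finset.Icc (-(n : ℤ), -(n : ℤ)) ((n : ℤ), (n : ℤ)))
      (fun h => (h 0 : ℝ) ^ 2) = vn b n := by
    have e : bx 0 n = Finset.Icc (-(n : ℤ), -(n : ℤ)) ((n : ℤ), (n : ℤ)) := by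
      unfold bx
      rw [zero_add, zero_sub]
      rfl
    rw [hMean_eq hb0.le, ← e]
    rfl
  rw [e0, Real.dist_eq]
  have e1 : vn b n / Real.log n - helicity b / (2 * Real.pi) =
      (vn b n - helicity b / (2 * Real.pi) * Real.log n) / Real.log n := by
    field_simp
  rw [e1, abs_div, abs_of_pos hl, div_lt_iff₀ hl]
  have h3 : |C| < ε / 2 * Real.log n := by
    have h4 := mul_le_mul_of_nonneg_left h2 (by positivity : 0 ≤ ε / 2)
    have h5 : ε / 2 * (2 * |C| / ε + 1) = |C| + ε / 2 := by field_simp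
    linarith
  have h4 := le_abs_self C
  linarith

/-- **The mean square height difference**, exact logarithmic growth, uniformly in the domain -/
theorem height_diff' (b : ℝ) (hb : bCrit ≤ b) (ε : ℝ) (hε : 0 < ε) : ∃ C : ℝ,
    ∀ x y : ℤ × ℤ, x ≠ y → ∀ U : Finset (ℤ × ℤ),
      (∀ z : ℤ × ℤ, max |(z - x).1| |(z - x).2| ≤ max |(x - y).1| |(x - y).2| ∨
        max |(z - y).1| |(z - y).2| ≤ max |(x - y).1| |(x - y).2| → z ∈ U) →
      |hMean b U (fun h => ((h x : ℝ) - h y) ^ 2) -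
        helicity b / Real.pi * Real.log ((max |(x - y).1| |(x - y).2| : ℤ) : ℝ)| ≤
        ε * Real.log ((max |(x - y).1| |(x - y).2| : ℤ) : ℝ) + C := by
  have hb0 : 0 < b := (T1.H934.pos_of_ge b hb).1
  obtain ⟨C, hC⟩ := height_diff b hb ε hε
  refine ⟨C, fun x y hxy U hU => ?_⟩
  have hd : ((max |(x - y).1| |(x - y).2| : ℤ) : ℝ) = (dd x y : ℝ) := by
    have : (max |(x - y).1| |(x - y).2| : ℤ) = ((dd x y : ℕ) : ℤ) := by
      unfold dd
      rw [Nat.cast_max, ← Int.abs_eq_natAbs, ← Int.abs_eq_natAbs]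
      simp only [Prod.fst_sub, Prod.snd_sub]
    rw [this]
    simp
  have hd' : (max |(x - y).1| |(x - y).2| : ℤ) = ((dd x y : ℕ) : ℤ) := by exact_mod_cast hd
  have h1 : bx x (dd x y) ⊆ U := by
    intro z hz
    refine hU z (Or.inl ?_)
    rw [mem_bx] at hz
    rw [hd']
    simp only [Prod.fst_sub, Prod.snd_sub]
    exact max_le (abs_le.2 hz.1) (abs_le.2 hz.2)
  have h2 : bx y (dd x y) ⊆ U := by
    intro z hz
    refine hU z (Or.inr ?_)
    rw [mem_bx] at hz
    rw [hd']
    simp only [Prod.fst_sub, Prod.snd_sub]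
    exact max_le (abs_le.2 hz.1) (abs_le.2 hz.2)
  rw [hd, hMean_eq hb0.le]
  exact hC x y hxy U h1 h2

end Vale.Agent.P159.T1.S.Hv
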