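import Vale.Agent.P159.T1.H315.Dict
import Vale.Agent.P159.T1.D.H469.Tri
import Vale.Agent.P159.T1.H910.DKit2

/-!
P159: the variance of the height at a face; the recursive lower bound.

`V b U ρ` is the variance of the pairing of the heights on `U` with the charges `ρ`.
-/

open Filter Topology

namespace Vale.Agent.P159.T1.S.Hv

open Vale.Agent.P159 Vale.Agent.P159.T1.D
open Vale.Agent.P159.T1.H315 (Cv)

variable {b : ℝ} {U W : Finset Z2}

/-- the variance of the pairing with the charges `ρ` -/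
noncomputable def V (b : ℝ) (U : Finset Z2) (ρ : Z2 → ℝ) : ℝ := Cv b U ρ ρ

/-- unit charge at `x` -/
noncomputable def dl (x : Z2) : Z2 → ℝ := fun f => if f = x then 1 else 0

/-- second moment of the height at `x` -/
noncomputable def hv (b : ℝ) (U : Finset Z2) (x : Z2) : ℝ := E b U fun h => (h x : ℝ) ^ 2

lemma Vr_of_div {B : Bnd → ℝ} {ρ : Z2 → ℝ} (hB : IsDiv U B ρ) (b : ℝ) :
    Vr b U B = V b U ρ := by
  unfold Vr V Cv D.E
  congr 1
  refine tsum_congr fun h => ?_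
  simp only
  rw [H910.pr_isDiv hB h, pow_two]

lemma V_eq_lft (b : ℝ) (U : Finset Z2) (ρ : Z2 → ℝ) : V b U ρ = Vr b U (H469.lft U ρ) :=
  (Vr_of_div (H469.isDiv_lft U ρ) b).symm

lemma V_congr {ρ ρ' : Z2 → ℝ} (h : ∀ f ∈ U, ρ f = ρ' f) : V b U ρ = V b U ρ' :=
  H315.Cv_congr h h

lemma V_nonneg (hb : 0 ≤ b) (U : Finset Z2) (ρ : Z2 → ℝ) : 0 ≤ V b U ρ :=
  H315.Cv_self_nonneg hb ρ

lemma Cv_add_l (hb : 0 ≤ b) (f g k : Z2 → ℝ) :
    Cv b U (fun x => g x + k x) f = Cv b U g f + Cv b U k f := by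
  rw [H315.Cv_comm, H315.Cv_add hb, H315.Cv_comm b U f g, H315.Cv_comm b U f k]

lemma Cv_sub_l (hb : 0 ≤ b) (f g k : Z2 → ℝ) :
    Cv b U (fun x => g x - k x) f = Cv b U g f - Cv b U k f := by
  rw [H315.Cv_comm, H315.Cv_sub hb, H315.Cv_comm b U f g, H315.Cv_comm b U f k]

lemma Cv_smul_l (b : ℝ) (c : ℝ) (f g : Z2 → ℝ) :
    Cv b U (fun x => c * g x) f = c * Cv b U g f := by
  rw [H315.Cv_comm, H315.Cv_smul, H315.Cv_comm]

lemma V_add (hb : 0 ≤ b) (f g : Z2 → ℝ) :
    V b U (fun x => f x + g x) = V b U f + 2 * Cv b U f g + V b U g := by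
  unfold V
  rw [H315.Cv_add hb, Cv_add_l hb, Cv_add_l hb, H315.Cv_comm b U g f]
  ring

lemma V_sub (hb : 0 ≤ b) (f g : Z2 → ℝ) :
    V b U (fun x => f x - g x) = V b U f - 2 * Cv b U f g + V b U g := by
  unfold V
  rw [H315.Cv_sub hb, Cv_sub_l hb, Cv_sub_l hb, H315.Cv_comm b U g f]
  ring

lemma V_smul (b : ℝ) (U : Finset Z2) (c : ℝ) (f : Z2 → ℝ) :
    V b U (fun x => c * f x) = c ^ 2 * V b U f := by
  unfold V
  rw [H315.Cv_smul, Cv_smul_l]
  ring

lemma Cv_sq_le (hb : 0 ≤ b) (f g : Z2 → ℝ) : Cv b U f g ^ 2 ≤ V b U f * V b U g := by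
  refine H469.disc fun x => ?_
  have h := V_nonneg hb U (fun y => f y + x * g y)
  rw [V_add hb, V_smul, H315.Cv_smul] at h
  linarith

/-- triangle inequality -/
theorem sqrt_add (hb : 0 ≤ b) (f g : Z2 → ℝ) :
    Real.sqrt (V b U fun x => f x + g x) ≤ Real.sqrt (V b U f) + Real.sqrt (V b U g) :=
  H469.sqrt_add_le' (V_nonneg hb U f) (V_nonneg hb U g) (V_add hb f g) (Cv_sq_le hb f g)

/-- the variance increases with the domain -/
theorem V_mono (hb : 0 ≤ b) (h : W ⊆ U) (ρ : Z2 → ℝ) : V b W ρ ≤ V b U ρ := by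
  have h1 : IsDiv W (H469.lft U ρ) ρ := fun f hf => H469.isDiv_lft U ρ f (h hf)
  rw [← Vr_of_div h1, ← Vr_of_div (H469.isDiv_lft U ρ)]
  exact H910.Vr_mono hb h _

/-- trivial upper bound -/
theorem V_le (hb : 0 ≤ b) {B : Bnd → ℝ} {ρ : Z2 → ℝ} (hB : IsDiv U B ρ) :
    V b U ρ ≤ b * ∑ e ∈ bd U, B e ^ 2 := by
  rw [← Vr_of_div hB]
  exact H910.Vr_le hb U B

lemma ch_dl {x : Z2} (hx : x ∈ U) (h : Z2 → ℤ) : ch U (dl x) h = h x := by
  unfold ch dl
  rw [Finset.sum_eq_single x]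
  · rw [if_pos rfl, one_mul]
  · intro f _ hf
    rw [if_neg hf, zero_mul]
  · exact fun h' => absurd hx h'

lemma hv_eq {x : Z2} (hx : x ∈ U) (b : ℝ) : hv b U x = V b U (dl x) := by
  unfold hv V Cv D.E
  congr 1
  refine tsum_congr fun h => ?_
  simp only
  rw [ch_dl hx, pow_two]

lemma hv_off {x : Z2} (hx : x ∉ U) (b : ℝ) : hv b U x = 0 := by
  unfold hv D.E
  rw [div_eq_zero_iff]
  left
  rw [← tsum_zero (α := ℝ) (β := Ht U)]
  refine tsum_congr fun h => ?_
  show wt b U 0 h.1 * (h.1 x : ℝ) ^ 2 = 0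
  rw [h.2 x hx]
  simp

lemma hv_nonneg (hb : 0 ≤ b) (U : Finset Z2) (x : Z2) : 0 ≤ hv b U x := by
  by_cases hx : x ∈ U
  · rw [hv_eq hx]; exact V_nonneg hb U _
  · rw [hv_off hx]

lemma hv_mono (hb : 0 ≤ b) (h : W ⊆ U) (x : Z2) : hv b W x ≤ hv b U x := by
  by_cases hx : x ∈ W
  · rw [hv_eq hx, hv_eq (h hx)]
    exact V_mono hb h _
  · rw [hv_off hx]
    exact hv_nonneg hb U x

/-- **the recursive lower bound** : `ν` is an average of unit charges at the points of `A ⊆ W`,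
`κ` vanishes on `W` -/
theorem star (hb : 0 ≤ b) (hWU : W ⊆ U) {A : Finset Z2} (hA : A ⊆ W) {w : Z2 → ℝ}
    (hw : ∀ x ∈ A, 0 ≤ w x) (hw1 : ∑ x ∈ A, w x = 1) {κ : Z2 → ℝ} (hκ : ∀ f ∈ W, κ f = 0) :
    ∑ x ∈ A, w x * hv b W x +
        (V b U (fun f => if f ∈ A then w f else 0) -
          V b U (fun f => (if f ∈ A then w f else 0) - κ f)) ≤
      ∑ x ∈ A, w x * hv b U x := by
  classical
  set ν : Z2 → ℝ := fun f => if f ∈ A then w f else 0 with hν
  have hsum : ∀ g : Z2 → ℝ, Cv b U ν g = ∑ x ∈ A, w x * Cv b U (dl x) g := by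
    intro g
    have key : ∀ T : Finset Z2, Cv b U (fun f => if f ∈ T then w f else 0) g =
        ∑ x ∈ T, w x * Cv b U (dl x) g := by
      intro T
      induction T using Finset.induction_on with
      | empty =>
        simp only [Finset.notMem_empty, if_false, Finset.sum_empty]
        have := Cv_smul_l (U := U) b 0 g g
        simp only [zero_mul] at this
        exact this
      | insert a T ha ih =>
        rw [Finset.sum_insert ha, ← ih]
        have e : (fun f => if f ∈ insert a T then w f else 0) =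
            fun f => w a * dl a f + (if f ∈ T then w f else 0) := by
          funext f
          unfold dl
          by_cases h1 : f = a
          · subst h1
            simp [ha]
          · simp [h1]
        rw [e, Cv_add_l hb, Cv_smul_l]
    exact key A
  have h1 : ∀ x ∈ A, hv b W x ≤ V b U (dl x) - 2 * Cv b U (dl x) κ + V b U κ := by
    intro x hx
    rw [hv_eq (hA hx), ← V_sub hb]
    refine le_trans (le_of_eq ?_) (V_mono hb hWU _)
    refine V_congr fun f hf => ?_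
    rw [hκ f hf, sub_zero]
  have h2 : ∑ x ∈ A, w x * hv b W x ≤
      ∑ x ∈ A, w x * (V b U (dl x) - 2 * Cv b U (dl x) κ + V b U κ) :=
    Finset.sum_le_sum fun x hx => mul_le_mul_of_nonneg_left (h1 x hx) (hw x hx)
  have h3 : ∑ x ∈ A, w x * (V b U (dl x) - 2 * Cv b U (dl x) κ + V b U κ) =
      ∑ x ∈ A, w x * hv b U x - 2 * Cv b U ν κ + V b U κ := by
    rw [hsum, Finset.mul_sum]
    have e : ∀ x ∈ A, w x * (V b U (dl x) - 2 * Cv b U (dl x) κ + V b U κ) =
        w x * hv b U x - 2 * (w x * Cv b U (dl x) κ) + w x * V b U κ := by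
      intro x hx
      rw [hv_eq (hWU (hA hx))]
      ring
    rw [Finset.sum_congr rfl e, Finset.sum_add_distrib, Finset.sum_sub_distrib, ← Finset.sum_mul,
      hw1, one_mul]
  have h4 : V b U (fun f => ν f - κ f) = V b U ν - 2 * Cv b U ν κ + V b U κ := V_sub hb ν κ
  have h5 : V b U (fun f => (if f ∈ A then w f else 0) - κ f) =
      V b U ν - 2 * Cv b U ν κ + V b U κ := h4
  rw [h5]
  linarith

end Vale.Agent.P159.T1.S.Hv
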