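import Vale.Agent.P159.T1.S.H711.Hv9

/-!
P159: the variance of the height at a face grows exactly like `Υ(b) / (2 π) log n`.
-/

open Filter Topology

namespace Vale.Agent.P159.T1.S.Hv

open Vale.Agent.P159 Vale.Agent.P159.T1.D

lemma choose_gain {Y ε g : ℝ} (hε : 0 < ε) (hg : 0 < g)
    (hgY : g = Y / (2 * Real.pi) - ε) : ∃ δ : ℝ, 0 < δ ∧
      g * (2 * Real.pi + δ) ^ 2 < 2 * Real.pi * Y := by
  have hp := Real.pi_gt_three
  have hδ : 0 < min 1 (ε / (g + 1)) := lt_min one_pos (by positivity)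
  refine ⟨min 1 (ε / (g + 1)), hδ, ?_⟩
  set δ := min 1 (ε / (g + 1)) with hδdef
  have h1 : δ ≤ 1 := min_le_left _ _
  have h2 : δ ≤ ε / (g + 1) := min_le_right _ _
  have h3 : g * δ ≤ ε := by
    rw [le_div_iff₀ (by linarith)] at h2
    nlinarith
  have hY : Y = 2 * Real.pi * (g + ε) := by
    rw [hgY]; field_simp; ring
  rw [hY]
  have h4 : g * (2 * Real.pi + δ) ^ 2 = 4 * Real.pi ^ 2 * g + g * δ * (4 * Real.pi + δ) := by ring
  have h5 : g * δ * (4 * Real.pi + δ) ≤ ε * (4 * Real.pi + 1) :=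
    mul_le_mul h3 (by linarith) (by positivity) hε.le
  have h6 : ε * (4 * Real.pi + 1) < ε * (4 * Real.pi ^ 2) := by
    refine mul_lt_mul_of_pos_left ?_ hε
    nlinarith
  nlinarith

/-- **lower bound for the variance of the height at a face** -/
theorem lowerB (b : ℝ) (hb : bCrit ≤ b) (ε : ℝ) (hε : 0 < ε) : ∃ C : ℝ, ∀ n : ℕ, 1 ≤ n →
    (helicity b / (2 * Real.pi) - ε) * Real.log n - C ≤ vn b n := by
  have hYb := T1.H934.pos_of_ge b hb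
  have hb0 : 0 < b := hYb.1
  have hp := Real.pi_pos
  have hY0 : 0 < helicity b := lt_of_lt_of_le (by positivity) hYb.2
  obtain ⟨g, hgdef⟩ : ∃ g : ℝ, g = helicity b / (2 * Real.pi) - ε := ⟨_, rfl⟩
  rw [← hgdef]
  rcases le_or_gt g 0 with hg | hg
  · refine ⟨0, fun n hn => ?_⟩
    have hn' : (1 : ℝ) ≤ n := by exact_mod_cast hn
    have h1 : g * Real.log n ≤ 0 := mul_nonpos_of_nonpos_of_nonneg hg (Real.log_nonneg hn')
    linarith [vn_nonneg hb0.le n]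
  obtain ⟨δ, hδ, hδ1⟩ := choose_gain hε hg hgdef
  obtain ⟨C0, hC0, H⟩ := recur b hb
  obtain ⟨c1, hc1⟩ : ∃ c1 : ℝ, c1 = 2 * Real.pi * helicity b := ⟨_, rfl⟩
  obtain ⟨P, hP⟩ : ∃ P : ℝ, P = 2 * Real.pi + δ := ⟨_, rfl⟩
  have hP0 : 0 < P := by rw [hP]; positivity
  have hc10 : 0 < c1 := by rw [hc1]; positivity
  rw [← hc1, ← hP] at hδ1
  obtain ⟨d, hd⟩ : ∃ d : ℝ, d = c1 - g * P ^ 2 := ⟨_, rfl⟩
  have hd0 : 0 < d := by rw [hd]; linarith
  obtain ⟨θ, hθ⟩ : ∃ θ : ℝ, θ = d / (2 * c1) := ⟨_, rfl⟩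
  have hθ0 : 0 < θ := by rw [hθ]; positivity
  obtain ⟨T, hT⟩ : ∃ T : ℝ, T = max ((2 / d) * (2 * c1 + 1 + C0 ^ 2 / θ))
    ((2 * c1 + 1 + 4 * C0 ^ 2) / c1) := ⟨_, rfl⟩
  obtain ⟨K, hK⟩ : ∃ K : ℕ, K = ⌈Real.exp T⌉₊ + 2 := ⟨_, rfl⟩
  have hK2 : 2 ≤ K := by omega
  have hK2' : (2 : ℝ) ≤ K := by exact_mod_cast hK2
  obtain ⟨t, ht⟩ : ∃ t : ℝ, t = Real.log (32 * K) := ⟨_, rfl⟩
  have htT : T ≤ t := by
    rw [ht, Real.le_log_iff_exp_le (by positivity)]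
    have h1 : Real.exp T ≤ ⌈Real.exp T⌉₊ := Nat.le_ceil _
    have h2 : (K : ℝ) = ⌈Real.exp T⌉₊ + 2 := by rw [hK]; push_cast; ring
    nlinarith
  have hT1 : (2 / d) * (2 * c1 + 1 + C0 ^ 2 / θ) ≤ t := le_trans (by rw [hT]; exact le_max_left _ _) htT
  have hT2 : (2 * c1 + 1 + 4 * C0 ^ 2) / c1 ≤ t := le_trans (by rw [hT]; exact le_max_right _ _) htT
  obtain ⟨L, hL⟩ : ∃ L : ℝ, L = c1 * t - (2 * c1 + 1) := ⟨_, rfl⟩
  have hL' : L = helicity b * (2 * Real.pi * (Real.log (32 * K) - 2)) - 1 := by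
    rw [hL, ht, hc1]; ring
  have hLC : 4 * C0 ^ 2 ≤ L := by
    rw [div_le_iff₀ hc10] at hT2
    rw [hL]; linarith
  have hsq : 2 * C0 ≤ Real.sqrt L := by
    refine Real.le_sqrt_of_sq_le ?_
    nlinarith
  have hL0 : 0 ≤ L := le_trans (by positivity) hLC
  obtain ⟨w, hw⟩ : ∃ w : ℝ, w = Real.sqrt L := ⟨_, rfl⟩
  have hw2 : w ^ 2 = L := by rw [hw]; exact Real.sq_sqrt hL0
  have hAM : 2 * C0 * w ≤ θ * w ^ 2 + C0 ^ 2 / θ := by
    have h1 : 0 ≤ (θ * w - C0) ^ 2 / θ := by positivity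
    have h2 : (θ * w - C0) ^ 2 / θ = θ * w ^ 2 - 2 * C0 * w + C0 ^ 2 / θ := by
      field_simp
      ring
    linarith
  have hθw : θ * w ^ 2 ≤ d / 2 * t := by
    rw [hw2, hθ, hL]
    have h1 : d / (2 * c1) * (c1 * t - (2 * c1 + 1)) ≤ d / (2 * c1) * (c1 * t) :=
      mul_le_mul_of_nonneg_left (by linarith) (by positivity)
    have h2 : d / (2 * c1) * (c1 * t) = d / 2 * t := by field_simp
    linarith
  have hmain : g * P ^ 2 * t ≤ L - 2 * C0 * w := by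
    have h1 : 2 * c1 + 1 + C0 ^ 2 / θ ≤ d / 2 * t := by
      have h2 := mul_le_mul_of_nonneg_left hT1 (by positivity : 0 ≤ d / 2)
      have h3 : d / 2 * ((2 / d) * (2 * c1 + 1 + C0 ^ 2 / θ)) = 2 * c1 + 1 + C0 ^ 2 / θ := by
        field_simp
      linarith
    have h2 : g * P ^ 2 * t = c1 * t - d * t := by rw [hd]; ring
    rw [h2, hL]
    linarith
  have hgain : g * Real.log ((8 * K + 1 : ℕ) : ℝ) ≤ (L - 2 * C0 * w) / P ^ 2 := by
    rw [le_div_iff₀ (by positivity)]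
    have h1 : Real.log ((8 * K + 1 : ℕ) : ℝ) ≤ t := by
      rw [ht]
      refine Real.log_le_log (by positivity) ?_
      push_cast
      linarith
    calc g * Real.log ((8 * K + 1 : ℕ) : ℝ) * P ^ 2 ≤ g * t * P ^ 2 := by gcongr
      _ = g * P ^ 2 * t := by ring
      _ ≤ _ := hmain
  obtain ⟨a0, ha0⟩ := H K hK2 L hL' hsq δ hδ
  rw [← hP, ← hw] at ha0
  exact iterate (fun m n h => vn_mono hb0.le h) (vn_nonneg hb0.le) (q := 8 * K + 1) (a0 := a0)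
    (by omega) hg.le fun a ha => le_trans (by linarith) (ha0 a ha)

/-- **the variance of the height at the centre of a box grows exactly like
`Υ(b) / (2 π) log n`** -/
theorem height_log (b : ℝ) (hb : bCrit ≤ b) (ε : ℝ) (hε : 0 < ε) : ∃ C : ℝ, ∀ n : ℕ, 1 ≤ n →
    |vn b n - helicity b / (2 * Real.pi) * Real.log n| ≤ ε * Real.log n + C := by
  obtain ⟨C1, h1⟩ := lowerB b hb ε hε
  obtain ⟨C2, h2⟩ := upper b hb ε hε
  refine ⟨max C1 C2, fun n hn => ?_⟩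
  have a1 := h1 n hn
  have a2 := h2 n hn
  have m1 : C1 ≤ max C1 C2 := le_max_left _ _
  have m2 : C2 ≤ max C1 C2 := le_max_right _ _
  rw [abs_le]
  constructor <;> nlinarith

end Vale.Agent.P159.T1.S.Hv
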