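import Vale.Agent.P159.T1.S.H711.Hv10

/-!
P159: the height difference of two faces, lower bound.
-/

open Filter Topology

namespace Vale.Agent.P159.T1.S.Hv

open Vale.Agent.P159 Vale.Agent.P159.T1.D
open Vale.Agent.P159.H353 (wI_neg)
open Vale.Agent.P159.T1.H910 (dv mem_bd)
open Vale.Agent.P159.T1.H315 (Cv)

variable {b : ℝ} {U W : Finset Z2}

/-- second moment of the height difference -/
noncomputable def v2 (b : ℝ) (U : Finset Z2) (f g : Z2) : ℝ := E b U fun h => ((h f : ℝ) - h g) ^ 2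

lemma v2_eq {f g : Z2} (hf : f ∈ U) (hg : g ∈ U) (b : ℝ) :
    v2 b U f g = V b U fun x => dl f x - dl g x := by
  unfold v2 V Cv D.E
  congr 1
  refine tsum_congr fun h => ?_
  have e : ch U (fun x => dl f x - dl g x) h.1 = (h.1 f : ℝ) - h.1 g := by
    have e1 : ch U (fun x => dl f x - dl g x) h.1 = ch U (dl f) h.1 - ch U (dl g) h.1 := by
      unfold ch
      rw [← Finset.sum_sub_distrib]
      exact Finset.sum_congr rfl fun x _ => by ring
    rw [e1, ch_dl hf, ch_dl hg]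
  simp only [e]
  rw [pow_two]

/-- change of sign on `W` -/
def fl (W : Finset Z2) (h : Z2 → ℤ) (x : Z2) : ℤ := if x ∈ W then -h x else h x

lemma fl_fl (W : Finset Z2) (h : Z2 → ℤ) : fl W (fl W h) = h := by
  funext x
  unfold fl
  split_ifs <;> simp

/-- change of sign on `W` as a bijection -/
def flE (U W : Finset Z2) : Ht U ≃ Ht U where
  toFun h := ⟨fl W h.1, fun f hf => by unfold fl; rw [h.2 f hf]; simp⟩
  invFun h := ⟨fl W h.1, fun f hf => by unfold fl; rw [h.2 f hf]; simp⟩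
  left_inv h := Subtype.ext (fl_fl W h.1)
  right_inv h := Subtype.ext (fl_fl W h.1)

lemma wt_fl (b : ℝ) (hsep : ∀ e, e ∈ bd W → (lf e ∈ W ∨ lf e ∉ U) ∧ (rt e ∈ W ∨ rt e ∉ U))
    (h : Ht U) : wt b U 0 (fl W h.1) = wt b U 0 h.1 := by
  unfold wt
  refine Finset.prod_congr rfl fun e _ => ?_
  simp only [Pi.zero_apply, add_zero]
  by_cases he : e ∈ bd W
  · have hs := hsep e he
    have key : ∀ x, (x ∈ W ∨ x ∉ U) → fl W h.1 x = -h.1 x := by
      intro x hx
      unfold fl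
      by_cases h1 : x ∈ W
      · rw [if_pos h1]
      · rw [if_neg h1, h.2 x (hx.resolve_left h1), neg_zero]
    have e1 : dh (fl W h.1) e = -dh h.1 e := by
      unfold dh
      rw [key _ hs.1, key _ hs.2]
      ring
    rw [e1, wI_neg]
  · rw [mem_bd, not_or] at he
    have e1 : dh (fl W h.1) e = dh h.1 e := by
      unfold dh fl
      rw [if_neg he.1, if_neg he.2]
    rw [e1]

/-- two separated domains are independent -/
theorem Cv_sep (b : ℝ) (hsep : ∀ e, e ∈ bd W → (lf e ∈ W ∨ lf e ∉ U) ∧ (rt e ∈ W ∨ rt e ∉ U))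
    {f g : Z2} (hf : f ∈ U) (hfW : f ∉ W) (hg : g ∈ U) (hgW : g ∈ W) :
    Cv b U (dl f) (dl g) = 0 := by
  unfold Cv D.E
  rw [div_eq_zero_iff]
  left
  set T := ∑' h : Ht U, wt b U 0 h.1 * (ch U (dl f) h.1 * ch U (dl g) h.1) with hT
  have h1 : T = -T := by
    conv_lhs => rw [hT, ← (flE U W).tsum_eq]
    rw [hT, ← tsum_neg]
    refine tsum_congr fun h => ?_
    have e0 : (flE U W h).1 = fl W h.1 := rfl
    rw [e0, wt_fl b hsep, ch_dl hf, ch_dl hg, ch_dl hf, ch_dl hg]
    have e1 : fl W h.1 f = h.1 f := by unfold fl; rw [if_neg hfW]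
    have e2 : fl W h.1 g = -h.1 g := by unfold fl; rw [if_pos hgW]
    rw [e1, e2]
    push_cast
    ring
  linarith

/-- sup distance of two faces -/
def dd (f g : Z2) : ℕ := max (f.1 - g.1).natAbs (f.2 - g.2).natAbs

lemma bx_mono {c : Z2} {m n : ℕ} (h : m ≤ n) : bx c m ⊆ bx c n := by
  intro f hf
  rw [mem_bx] at hf ⊢
  omega

/-- **lower bound by two boxes** -/
theorem low2 (hb : 0 ≤ b) {f g : Z2} {r : ℕ} (hr : 2 * r + 2 ≤ dd f g) (h1 : bx f r ⊆ U)
    (h2 : bx g r ⊆ U) : 2 * vn b r ≤ v2 b U f g := by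
  classical
  have hff : f ∈ bx f r := by rw [mem_bx]; omega
  have hgg : g ∈ bx g r := by rw [mem_bx]; omega
  have hd : (2 * (r : ℤ) + 2 ≤ f.1 - g.1 ∨ 2 * (r : ℤ) + 2 ≤ g.1 - f.1) ∨
      (2 * (r : ℤ) + 2 ≤ f.2 - g.2 ∨ 2 * (r : ℤ) + 2 ≤ g.2 - f.2) := by
    unfold dd at hr
    rcases le_max_iff.1 hr with h | h
    · left; omega
    · right; omega
  have hU' : bx f r ∪ bx g r ⊆ U := Finset.union_subset h1 h2
  have hsep : ∀ e, e ∈ bd (bx g r) → (lf e ∈ bx g r ∨ lf e ∉ bx f r ∪ bx g r) ∧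
      (rt e ∈ bx g r ∨ rt e ∉ bx f r ∪ bx g r) := by
    intro e he
    obtain ⟨⟨i, j⟩, d⟩ := e
    rw [mem_bd] at he
    simp only [Finset.mem_union, not_or]
    cases d <;> simp only [rt, lf, mem_bx, if_true, Bool.false_eq_true, if_false] at he ⊢ <;> omega
  have hfW : f ∉ bx g r := by
    rw [mem_bx]; omega
  have hc := Cv_sep b hsep (Finset.mem_union_left _ hff) hfW (Finset.mem_union_right _ hgg) hgg
  rw [v2_eq (h1 hff) (h2 hgg)]
  refine le_trans ?_ (V_mono hb hU' _)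
  rw [V_sub hb, hc, mul_zero, sub_zero]
  have a1 : vn b r ≤ V b (bx f r ∪ bx g r) (dl f) := by
    rw [← hv_bx b f r, hv_eq hff]
    exact V_mono hb Finset.subset_union_left _
  have a2 : vn b r ≤ V b (bx f r ∪ bx g r) (dl g) := by
    rw [← hv_bx b g r, hv_eq hgg]
    exact V_mono hb Finset.subset_union_right _
  linarith

lemma V_nonneg' (hb : 0 ≤ b) {f g : Z2} (hf : f ∈ U) (hg : g ∈ U) : 0 ≤ v2 b U f g := by
  rw [v2_eq hf hg]; exact V_nonneg hb U _

/-- **lower bound for the height difference** -/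
theorem lower2 (b : ℝ) (hb : bCrit ≤ b) (ε : ℝ) (hε : 0 < ε) : ∃ C : ℝ, ∀ f g : Z2, f ≠ g →
    ∀ U : Finset Z2, bx f (dd f g) ⊆ U → bx g (dd f g) ⊆ U →
      (helicity b / Real.pi - ε) * Real.log (dd f g) - C ≤ v2 b U f g := by
  have hYb := T1.H934.pos_of_ge b hb
  have hb0 : 0 < b := hYb.1
  have hp := Real.pi_pos
  have hY0 : 0 < helicity b := lt_of_lt_of_le (by positivity) hYb.2
  obtain ⟨C, hC⟩ := lowerB b hb (ε / 2) (by positivity)
  obtain ⟨A, hA⟩ : ∃ A : ℝ, A = helicity b / Real.pi := ⟨_, rfl⟩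
  have hA0 : 0 < A := by rw [hA]; positivity
  refine ⟨A * Real.log 8 + 2 * |C|, fun f g hfg U h1 h2 => ?_⟩
  have hd1 : 1 ≤ dd f g := by
    by_contra h
    have h0 : dd f g = 0 := by omega
    unfold dd at h0
    apply hfg
    rw [Nat.max_eq_zero_iff] at h0
    exact Prod.ext (by omega) (by omega)
  have hff : f ∈ bx f (dd f g) := by rw [mem_bx]; omega
  have hgg : g ∈ bx g (dd f g) := by rw [mem_bx]; omega
  have hd1' : (1 : ℝ) ≤ dd f g := by exact_mod_cast hd1
  have hlog : 0 ≤ Real.log (dd f g) := Real.log_nonneg hd1'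
  have hC0 := abs_nonneg C
  rw [← hA]
  by_cases hn : dd f g < 4
  · have h3 : Real.log (dd f g) ≤ Real.log 8 :=
      Real.log_le_log (by linarith) (by
        have : (dd f g : ℝ) ≤ 4 := by exact_mod_cast hn.le
        linarith)
    have h4 := mul_le_mul_of_nonneg_left h3 hA0.le
    have h5 := mul_nonneg hε.le hlog
    have h6 := V_nonneg' (b := b) hb0.le (h1 hff) (h2 hgg)
    nlinarith
  · push Not at hn
    obtain ⟨r, hr⟩ : ∃ r, r = dd f g / 2 - 1 := ⟨_, rfl⟩
    have hr1 : 1 ≤ r := by omega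
    have hrd : 2 * r + 2 ≤ dd f g := by omega
    have hr8 : dd f g ≤ 8 * r := by omega
    have h3 := low2 (b := b) hb0.le hrd ((bx_mono (by omega)).trans h1)
      ((bx_mono (by omega)).trans h2)
    have h4 := hC r hr1
    have hr' : (1 : ℝ) ≤ r := by exact_mod_cast hr1
    have h5 : Real.log (dd f g) ≤ Real.log 8 + Real.log r := by
      rw [← Real.log_mul (by norm_num) (by positivity)]
      exact Real.log_le_log (by linarith) (by exact_mod_cast hr8)
    have h7 : Real.log r ≤ Real.log (dd f g) :=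
      Real.log_le_log (by linarith) (by exact_mod_cast (by omega : r ≤ dd f g))
    have e1 : (helicity b / (2 * Real.pi) - ε / 2) * Real.log r =
        (A * Real.log r - ε * Real.log r) / 2 := by
      rw [hA]; field_simp
    rw [e1] at h4
    have h8 := mul_le_mul_of_nonneg_left h5 hA0.le
    have h9 := mul_le_mul_of_nonneg_left h7 hε.le
    have h10 := le_abs_self C
    nlinarith

end Vale.Agent.P159.T1.S.Hv
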