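import Vale.Agent.P159.T1.S.H711.Hv9
import Vale.Agent.P159.T1.S.H711.Hv11

/-!
P159: the field of a pair of opposite charges.
-/

open Filter Topology

namespace Vale.Agent.P159.T1.S.Hv

open Vale.Agent.P159 Vale.Agent.P159.T1.D
open Vale.Agent.P159.T1.H910 (dv mem_bd)

variable {b : ℝ}

/-- change of the angle under a shift, first form -/
lemma G_shift0 {x y x' y' l : ℝ} (hl : 0 ≤ l) (hx : 1 ≤ |x|) (hx' : 1 ≤ |x'|)
    (h1 : |x' - x| ≤ 2 * l) (h2 : |y' - y| ≤ 2 * l) :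
    |Gf x' y' - Gf x y| ≤ (12 + 16 * l) * (1 / (x ^ 2 + y ^ 2) + 1 / (x' ^ 2 + y' ^ 2)) := by
  have a1 := G_bound (y := y) hx
  have a2 := G_bound (y := y') hx'
  have hx2 : 1 ≤ x ^ 2 := by rw [← sq_abs]; nlinarith
  have hx2' : 1 ≤ x' ^ 2 := by rw [← sq_abs]; nlinarith
  have hs : 1 ≤ x ^ 2 + y ^ 2 := by nlinarith [sq_nonneg y]
  have hs' : 1 ≤ x' ^ 2 + y' ^ 2 := by nlinarith [sq_nonneg y']
  set s := x ^ 2 + y ^ 2 with hsdef
  set s' := x' ^ 2 + y' ^ 2 with hsdef'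
  have a3 : |2 * x' / s' - 2 * x / s| ≤ 16 * l * (1 / s + 1 / s') := by
    have hs0 : s ≠ 0 := by linarith
    have hs0' : s' ≠ 0 := by linarith
    have e : 2 * x' / s' - 2 * x / s = 2 * ((x' - x) * s + x * (s - s')) / (s * s') := by
      field_simp
      ring
    have e2 : 16 * l * (1 / s + 1 / s') = 16 * l * (s + s') / (s * s') := by
      field_simp
      ring
    rw [e, e2, abs_div, abs_of_pos (mul_pos (by linarith) (by linarith) : 0 < s * s')]
    refine div_le_div_of_nonneg_right ?_ (by positivity)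
    rw [abs_mul, abs_two]
    have b1 : |(x' - x) * s| ≤ 2 * l * s := by
      rw [abs_mul, abs_of_pos (by linarith : 0 < s)]
      exact mul_le_mul_of_nonneg_right h1 (by linarith)
    have b2 : |x * (s - s')| ≤ 6 * l * (s + s') := by
      have e3 : x * (s - s') = -((x' - x) * (x * (x + x')) + (y' - y) * (x * (y + y'))) := by
        rw [hsdef, hsdef']; ring
      rw [e3, abs_neg]
      refine (abs_add_le _ _).trans ?_
      rw [abs_mul, abs_mul (y' - y)]
      have c1 : |x * (x + x')| ≤ (3 / 2) * (s + s') := by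
        refine (pr3 _ _ _).trans ?_
        rw [hsdef, hsdef']
        linarith [sq_nonneg x, sq_nonneg x', sq_nonneg y, sq_nonneg y']
      have c2 : |x * (y + y')| ≤ (3 / 2) * (s + s') := by
        refine (pr3 _ _ _).trans ?_
        rw [hsdef, hsdef']
        linarith [sq_nonneg x, sq_nonneg x', sq_nonneg y, sq_nonneg y']
      calc |x' - x| * |x * (x + x')| + |y' - y| * |x * (y + y')|
          ≤ 2 * l * ((3 / 2) * (s + s')) + 2 * l * ((3 / 2) * (s + s')) :=
            add_le_add (mul_le_mul h1 c1 (abs_nonneg _) (by linarith))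
              (mul_le_mul h2 c2 (abs_nonneg _) (by linarith))
        _ = 6 * l * (s + s') := by ring
    have b3 := abs_add_le ((x' - x) * s) (x * (s - s'))
    have b4 : 0 ≤ l * s' := mul_nonneg hl (by linarith)
    nlinarith
  have e : Gf x' y' - Gf x y = (Gf x' y' - 2 * x' / s') - (Gf x y - 2 * x / s) +
      (2 * x' / s' - 2 * x / s) := by ring
  rw [e]
  refine (abs_add_le _ _).trans ?_
  have h3 := abs_sub (Gf x' y' - 2 * x' / s') (Gf x y - 2 * x / s)
  have e2 : (12 + 16 * l) * (1 / s + 1 / s') = 12 / s' + 12 / s + 16 * l * (1 / s + 1 / s') := by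
    ring
  rw [e2]
  linarith

/-- the field of the charge `1` at `0` and `-1` at `g` (times `2 π`) -/
noncomputable def Dg (g : Z2) (e : Bnd) : ℝ := Ba e - Ba (sh (-g) e)

/-- energy of the angle field at the two bonds of a site -/
noncomputable def Qp (P : Z2) : ℝ := Ba (P, true) ^ 2 + Ba (P, false) ^ 2

/-- energy of the field of the pair at the two bonds of a site -/
noncomputable def Fg (g P : Z2) : ℝ := Dg g (P, true) ^ 2 + Dg g (P, false) ^ 2

lemma Qp_nonneg (P : Z2) : 0 ≤ Qp P := by unfold Qp; positivity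

lemma Qp_le (P : Z2) : Qp P ≤ 392 / sP P := by
  have h1 := Ba_sq' (P, true)
  have h2 := Ba_sq' (P, false)
  unfold Qp
  have e : 392 / sP P = 196 / sP P + 196 / sP P := by ring
  rw [e]
  exact add_le_add h1 h2

lemma Fg_le {g P : Z2} {δ : ℝ} (hδ : 0 < δ) :
    Fg g P ≤ (1 + δ) * Qp P + (1 + 1 / δ) * Qp (P - g) := by
  have h : ∀ d, Dg g (P, d) ^ 2 ≤ (1 + δ) * Ba (P, d) ^ 2 + (1 + 1 / δ) * Ba (P - g, d) ^ 2 := by
    intro d
    have h1 := sq_add_le (u := Ba (P, d)) (r := -Ba (P - g, d)) hδ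
    rw [neg_sq] at h1
    have e : Dg g (P, d) = Ba (P, d) + -Ba (P - g, d) := by
      unfold Dg sh
      rw [sub_eq_add_neg, sub_eq_add_neg P g]
    rw [e]
    exact h1
  unfold Fg Qp
  have h1 := h true
  have h2 := h false
  linarith

lemma Fg_le' {g P : Z2} {δ : ℝ} (hδ : 0 < δ) :
    Fg g P ≤ (1 + δ) * Qp (P - g) + (1 + 1 / δ) * Qp P := by
  have h : ∀ d, Dg g (P, d) ^ 2 ≤ (1 + δ) * Ba (P - g, d) ^ 2 + (1 + 1 / δ) * Ba (P, d) ^ 2 := by
    intro d
    have h1 := sq_add_le (u := -Ba (P - g, d)) (r := Ba (P, d)) hδ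
    rw [neg_sq] at h1
    have e : Dg g (P, d) = -Ba (P - g, d) + Ba (P, d) := by
      unfold Dg sh
      rw [sub_eq_add_neg, sub_eq_add_neg P g, add_comm]
    rw [e]
    exact h1
  unfold Fg Qp
  have h1 := h true
  have h2 := h false
  linarith

/-- sup norm of the relative position (times `2`) -/
noncomputable def mP (P : Z2) : ℝ := max |xr P.1| |xr P.2|

lemma mP_sq_le (P : Z2) : mP P ^ 2 ≤ sP P := by
  unfold mP sP
  rcases max_choice |xr P.1| |xr P.2| with h | h <;> rw [h, sq_abs]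
  · nlinarith [sq_nonneg (xr P.2)]
  · nlinarith [sq_nonneg (xr P.1)]

lemma sP_le_mP (P : Z2) : sP P ≤ 2 * mP P ^ 2 := by
  unfold mP sP
  have h1 : xr P.1 ^ 2 ≤ (max |xr P.1| |xr P.2|) ^ 2 := by
    rw [← sq_abs (xr P.1)]; exact pow_le_pow_left₀ (abs_nonneg _) (le_max_left _ _) 2
  have h2 : xr P.2 ^ 2 ≤ (max |xr P.1| |xr P.2|) ^ 2 := by
    rw [← sq_abs (xr P.2)]; exact pow_le_pow_left₀ (abs_nonneg _) (le_max_right _ _) 2
  linarith

lemma mP_pos (P : Z2) : 1 ≤ mP P := (one_le_xr P.1).trans (le_max_left _ _)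

lemma xr_sub (i a : ℤ) : xr (i - a) = xr i - 2 * a := by unfold xr; push_cast; ring

lemma natAbs_le {g : Z2} {n : ℕ} (hg : dd 0 g = n) : |(g.1 : ℝ)| ≤ n ∧ |(g.2 : ℝ)| ≤ n := by
  unfold dd at hg
  simp only [Prod.fst_zero, Prod.snd_zero, zero_sub, Int.natAbs_neg] at hg
  constructor
  · rw [← Int.cast_abs, Int.abs_eq_natAbs]
    have : g.1.natAbs ≤ n := hg ▸ le_max_left _ _
    exact_mod_cast this
  · rw [← Int.cast_abs, Int.abs_eq_natAbs]
    have : g.2.natAbs ≤ n := hg ▸ le_max_right _ _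
    exact_mod_cast this

/-- the two points are far apart -/
lemma mP_sum {g : Z2} {n : ℕ} (hg : dd 0 g = n) (P : Z2) : 2 * (n : ℝ) ≤ mP P + mP (P - g) := by
  have h : |(g.1 : ℝ)| = n ∨ |(g.2 : ℝ)| = n := by
    unfold dd at hg
    simp only [Prod.fst_zero, Prod.snd_zero, zero_sub, Int.natAbs_neg] at hg
    rcases max_choice g.1.natAbs g.2.natAbs with h | h
    · left; rw [← hg, h, Nat.cast_natAbs, Int.cast_abs]
    · right; rw [← hg, h, Nat.cast_natAbs, Int.cast_abs]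
  unfold mP
  simp only [Prod.fst_sub, Prod.snd_sub, xr_sub]
  rcases h with h | h
  · have h1 : 2 * |(g.1 : ℝ)| ≤ |xr P.1| + |xr P.1 - 2 * g.1| := by
      have := abs_sub (xr P.1) (xr P.1 - 2 * (g.1 : ℝ))
      have e : xr P.1 - (xr P.1 - 2 * (g.1 : ℝ)) = 2 * g.1 := by ring
      rw [e, abs_mul, abs_two] at this
      exact this
    have h2 := le_max_left |xr P.1| |xr P.2|
    have h3 := le_max_left |xr P.1 - 2 * g.1| |xr P.2 - 2 * g.2|
    linarith
  · have h1 : 2 * |(g.2 : ℝ)| ≤ |xr P.2| + |xr P.2 - 2 * g.2| := by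
      have := abs_sub (xr P.2) (xr P.2 - 2 * (g.2 : ℝ))
      have e : xr P.2 - (xr P.2 - 2 * (g.2 : ℝ)) = 2 * g.2 := by ring
      rw [e, abs_mul, abs_two] at this
      exact this
    have h2 := le_max_right |xr P.1| |xr P.2|
    have h3 := le_max_right |xr P.1 - 2 * g.1| |xr P.2 - 2 * g.2|
    linarith

/-- the sup norms differ by at most `2 n` -/
lemma mP_sub {g : Z2} {n : ℕ} (hg : dd 0 g = n) (P : Z2) : |mP (P - g) - mP P| ≤ 2 * n := by
  obtain ⟨h1, h2⟩ := natAbs_le hg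
  unfold mP
  simp only [Prod.fst_sub, Prod.snd_sub, xr_sub]
  refine (abs_max_sub_max_le_max _ _ _ _).trans (max_le ?_ ?_)
  · refine (abs_abs_sub_abs_le_abs_sub _ _).trans ?_
    have e : xr P.1 - 2 * (g.1 : ℝ) - xr P.1 = -(2 * g.1) := by ring
    rw [e, abs_neg, abs_mul, abs_two]
    linarith
  · refine (abs_abs_sub_abs_le_abs_sub _ _).trans ?_
    have e : xr P.2 - 2 * (g.2 : ℝ) - xr P.2 = -(2 * g.2) := by ring
    rw [e, abs_neg, abs_mul, abs_two]
    linarith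

/-- the far field -/
lemma Dg_far {g : Z2} {n : ℕ} (hn : 1 ≤ n) (hg : dd 0 g = n) {P : Z2} (hP : 8 * (n : ℝ) < mP P)
    (d : Bool) : |Dg g (P, d)| ≤ 140 * n / sP P := by
  have hn' : (1 : ℝ) ≤ n := by exact_mod_cast hn
  obtain ⟨h1, h2⟩ := natAbs_le hg
  have hs := sP_ge P
  have hs' := sP_ge (P - g)
  have hm := mP_pos P
  have h3 : (3 / 4) * mP P ≤ mP (P - g) := by
    have := (abs_le.1 (mP_sub hg P)).1
    linarith
  have h4 : sP P ≤ 4 * sP (P - g) := by
    have h5 : ((3 / 4) * mP P) ^ 2 ≤ mP (P - g) ^ 2 := pow_le_pow_left₀ (by positivity) h3 2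
    have h6 := mP_sq_le (P - g)
    have h7 := sP_le_mP P
    nlinarith [sq_nonneg (mP P)]
  have h8 : 1 / sP P + 1 / sP (P - g) ≤ 5 / sP P := by
    have h9 : 1 / sP (P - g) ≤ 4 / sP P := by
      rw [div_le_div_iff₀ (by linarith) (by linarith)]; linarith
    have e : 5 / sP P = 1 / sP P + 4 / sP P := by ring
    linarith
  have k1 : |xr P.1 - 2 * (g.1 : ℝ) - xr P.1| ≤ 2 * (n : ℝ) := by
    have e : xr P.1 - 2 * (g.1 : ℝ) - xr P.1 = -(2 * g.1) := by ring
    rw [e, abs_neg, abs_mul, abs_two]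
    linarith
  have k2 : |xr P.2 - 2 * (g.2 : ℝ) - xr P.2| ≤ 2 * (n : ℝ) := by
    have e : xr P.2 - 2 * (g.2 : ℝ) - xr P.2 = -(2 * g.2) := by ring
    rw [e, abs_neg, abs_mul, abs_two]
    linarith
  have key : |Dg g (P, d)| ≤ (12 + 16 * (n : ℝ)) * (1 / sP P + 1 / sP (P - g)) := by
    have x1 := one_le_xr P.1
    have x2 := one_le_xr P.2
    have x1' := one_le_xr (P.1 - g.1)
    have x2' := one_le_xr (P.2 - g.2)
    rw [xr_sub] at x1' x2'
    unfold Dg sh Ba sP
    cases d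
    · simp only [Bool.false_eq_true, if_false, ← sub_eq_add_neg, Prod.fst_sub, Prod.snd_sub, xr_sub]
      have h10 := G_shift0 (Nat.cast_nonneg n) x2 x2' k2 k1
      have e : -Gf (xr P.2) (xr P.1) - -Gf (xr P.2 - 2 * (g.2 : ℝ)) (xr P.1 - 2 * g.1) =
          Gf (xr P.2 - 2 * (g.2 : ℝ)) (xr P.1 - 2 * g.1) - Gf (xr P.2) (xr P.1) := by ring
      rw [e, add_comm (xr P.1 ^ 2), add_comm ((xr P.1 - 2 * (g.1 : ℝ)) ^ 2)]
      exact h10
    · simp only [if_true, ← sub_eq_add_neg, Prod.fst_sub, Prod.snd_sub, xr_sub]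
      rw [abs_sub_comm]
      exact G_shift0 (Nat.cast_nonneg n) x1 x1' k1 k2
  refine key.trans ?_
  calc (12 + 16 * (n : ℝ)) * (1 / sP P + 1 / sP (P - g)) ≤ (28 * n) * (5 / sP P) :=
        mul_le_mul (by linarith) h8 (by positivity) (by positivity)
    _ = _ := by ring

end Vale.Agent.P159.T1.S.Hv
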