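import Vale.Agent.P159.T1.S.H711.Hv12

/-!
P159: the energy of the field of a pair of opposite charges.
-/

open Filter Topology

namespace Vale.Agent.P159.T1.S.Hv

open Vale.Agent.P159 Vale.Agent.P159.T1.D
open Vale.Agent.P159.T1.H910 (dv mem_bd)

variable {b : ℝ}

/-! ### tails -/

lemma tail1 {a : ℕ} (ha : 1 ≤ a) (K : ℕ) :
    (2 * K ≤ a → ∑ k ∈ Finset.range K, (if a < 2 * k + 1 then 1 / (2 * (k : ℝ) + 1) ^ 2 else 0) = 0) ∧
    (a ≤ 2 * K → ∑ k ∈ Finset.range K, (if a < 2 * k + 1 then 1 / (2 * (k : ℝ) + 1) ^ 2 else 0) ≤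
      1 / 2 * (1 / (a : ℝ) - 1 / (2 * K))) := by
  have ha' : (1 : ℝ) ≤ a := by exact_mod_cast ha
  induction K with
  | zero =>
    refine ⟨fun _ => by simp, fun h => ?_⟩
    omega
  | succ K ih =>
    rw [Finset.sum_range_succ]
    constructor
    · intro h
      rw [ih.1 (by omega), if_neg (by omega), add_zero]
    · intro h
      by_cases h1 : a ≤ 2 * K
      · have hK : (1 : ℝ) ≤ K := by exact_mod_cast (by omega : 1 ≤ K)
        have h2 := ih.2 h1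
        rw [if_pos (by omega)]
        have h3 : 1 / (2 * (K : ℝ) + 1) ^ 2 ≤ 1 / 2 * (1 / (2 * (K : ℝ)) -
            1 / (2 * ((K + 1 : ℕ) : ℝ))) := by
          push_cast
          have e : 1 / 2 * (1 / (2 * (K : ℝ)) - 1 / (2 * ((K : ℝ) + 1))) =
              1 / (4 * (K : ℝ) * (K + 1)) := by
            field_simp
            ring
          rw [e]
          refine one_div_le_one_div_of_le (by positivity) ?_
          nlinarith
        linarith
      · rw [ih.1 (by omega), if_neg (by omega), add_zero]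
        have h2 : 1 / (2 * ((K + 1 : ℕ) : ℝ)) ≤ 1 / (a : ℝ) :=
          one_div_le_one_div_of_le (by positivity) (by exact_mod_cast h)
        linarith

lemma tail1' {a : ℕ} (ha : 1 ≤ a) (K : ℕ) :
    ∑ k ∈ Finset.range K, (if a < 2 * k + 1 then 1 / (2 * (k : ℝ) + 1) ^ 2 else 0) ≤
      1 / (2 * (a : ℝ)) := by
  have ha' : (1 : ℝ) ≤ a := by exact_mod_cast ha
  have h := tail1 ha K
  rcases le_total (2 * K) a with h1 | h1
  · rw [h.1 h1]; positivity
  · refine (h.2 h1).trans ?_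
    have h2 : (0 : ℝ) ≤ 1 / (2 * K) := by positivity
    have e : 1 / (2 * (a : ℝ)) = 1 / 2 * (1 / a) := by field_simp
    rw [e]
    linarith

/-- one half of the tail -/
lemma tail2 {a : ℕ} (ha : 1 ≤ a) (M : ℕ) :
    ∑ k ∈ Finset.range (M + 1), ∑ m ∈ Finset.range (M + 1), (if a < 2 * k + 1 then
      1 / ((2 * (k : ℝ) + 1) ^ 2 + (2 * (m : ℝ) + 1) ^ 2) ^ 2 else 0) ≤ 1 / (a : ℝ) ^ 2 := by
  have ha' : (1 : ℝ) ≤ a := by exact_mod_cast ha
  have h1 : ∀ k ∈ Finset.range (M + 1), ∑ m ∈ Finset.range (M + 1), (if a < 2 * k + 1 then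
      1 / ((2 * (k : ℝ) + 1) ^ 2 + (2 * (m : ℝ) + 1) ^ 2) ^ 2 else 0) ≤
      2 / (a : ℝ) * (if a < 2 * k + 1 then 1 / (2 * (k : ℝ) + 1) ^ 2 else 0) := by
    intro k _
    by_cases hk : a < 2 * k + 1
    · simp only [if_pos hk]
      obtain ⟨x, hx⟩ : ∃ x : ℝ, x = 2 * (k : ℝ) + 1 := ⟨_, rfl⟩
      rw [← hx]
      have hxa : (a : ℝ) ≤ x := by rw [hx]; exact_mod_cast hk.le
      have hx1 : 1 ≤ x := by linarith
      have h2 : ∑ m ∈ Finset.range (M + 1), 1 / (x ^ 2 + (2 * (m : ℝ) + 1) ^ 2) ^ 2 ≤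
          1 / x ^ 2 * ∑ m ∈ Finset.range (M + 1), 1 / (x ^ 2 + (2 * (m : ℝ) + 1) ^ 2) := by
        rw [Finset.mul_sum]
        refine Finset.sum_le_sum fun m _ => ?_
        rw [one_div_mul_one_div, pow_two (x ^ 2 + (2 * (m : ℝ) + 1) ^ 2)]
        refine one_div_le_one_div_of_le (by positivity) ?_
        exact mul_le_mul_of_nonneg_right (by nlinarith [sq_nonneg (2 * (m : ℝ) + 1)])
          (by positivity)
      refine h2.trans ?_
      have h3 := col_le hx1 M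
      have h4 : Real.pi / (4 * x) + 1 / x ^ 2 ≤ 2 / (a : ℝ) := by
        have h5 : Real.pi / (4 * x) ≤ 1 / (a : ℝ) := by
          rw [div_le_div_iff₀ (by positivity) (by positivity)]
          have := Real.pi_le_four
          nlinarith [Real.pi_pos]
        have h6 : 1 / x ^ 2 ≤ 1 / (a : ℝ) := one_div_le_one_div_of_le (by positivity) (by nlinarith)
        have e : (2 : ℝ) / a = 1 / a + 1 / a := by ring
        linarith
      rw [mul_comm]
      exact mul_le_mul_of_nonneg_right (h3.trans h4) (by positivity)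
    · simp only [if_neg hk]
      simp
  refine (Finset.sum_le_sum h1).trans ?_
  rw [← Finset.mul_sum]
  have h2 := tail1' ha (M + 1)
  calc 2 / (a : ℝ) * _ ≤ 2 / (a : ℝ) * (1 / (2 * (a : ℝ))) :=
        mul_le_mul_of_nonneg_left h2 (by positivity)
    _ = _ := by field_simp

/-- **the tail of the sum of the inverse fourth powers** -/
lemma tail {a : ℕ} (ha : 1 ≤ a) (M : ℕ) :
    ∑ P ∈ PB M, (if (a : ℝ) < mP P then 1 / sP P ^ 2 else 0) ≤ 8 / (a : ℝ) ^ 2 := by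
  have ha' : (1 : ℝ) ≤ a := by exact_mod_cast ha
  have hodd : ∀ k : ℕ, ((a : ℝ) ^ 2 < (2 * (k : ℝ) + 1) ^ 2) ↔ a < 2 * k + 1 := by
    intro k
    rw [sq_lt_sq₀ (by positivity) (by positivity)]
    exact_mod_cast Iff.rfl
  have hS1 : ∑ P ∈ PB M, (if (a : ℝ) ^ 2 < xr P.1 ^ 2 then
      1 / (xr P.1 ^ 2 + xr P.2 ^ 2) ^ 2 else 0) ≤ 4 / (a : ℝ) ^ 2 := by
    rw [sum_PB (fun u v => if (a : ℝ) ^ 2 < u then 1 / (u + v) ^ 2 else 0) M]
    simp only [hodd]
    have := tail2 ha M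
    have e : (4 : ℝ) / (a : ℝ) ^ 2 = 4 * (1 / (a : ℝ) ^ 2) := by ring
    rw [e]
    linarith
  have hS2 : ∑ P ∈ PB M, (if (a : ℝ) ^ 2 < xr P.2 ^ 2 then
      1 / (xr P.1 ^ 2 + xr P.2 ^ 2) ^ 2 else 0) ≤ 4 / (a : ℝ) ^ 2 := by
    rw [sum_PB (fun u v => if (a : ℝ) ^ 2 < v then 1 / (u + v) ^ 2 else 0) M]
    simp only [hodd]
    rw [Finset.sum_comm]
    have h1 : ∀ k m : ℕ, (2 * (k : ℝ) + 1) ^ 2 + (2 * (m : ℝ) + 1) ^ 2 =
        (2 * (m : ℝ) + 1) ^ 2 + (2 * (k : ℝ) + 1) ^ 2 := fun k m => add_comm _ _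
    have := tail2 ha M
    have e : (4 : ℝ) / (a : ℝ) ^ 2 = 4 * (1 / (a : ℝ) ^ 2) := by ring
    rw [e]
    refine mul_le_mul_of_nonneg_left (le_trans (le_of_eq ?_) this) (by norm_num)
    refine Finset.sum_congr rfl fun k _ => Finset.sum_congr rfl fun m _ => ?_
    rw [h1 m k]
  have hpt : ∀ P ∈ PB M, (if (a : ℝ) < mP P then 1 / sP P ^ 2 else 0) ≤
      (if (a : ℝ) ^ 2 < xr P.1 ^ 2 then 1 / (xr P.1 ^ 2 + xr P.2 ^ 2) ^ 2 else 0) +
      (if (a : ℝ) ^ 2 < xr P.2 ^ 2 then 1 / (xr P.1 ^ 2 + xr P.2 ^ 2) ^ 2 else 0) := by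
    intro P _
    have hpos : 0 ≤ 1 / (xr P.1 ^ 2 + xr P.2 ^ 2) ^ 2 := by positivity
    have p1 : 0 ≤ (if (a : ℝ) ^ 2 < xr P.1 ^ 2 then 1 / (xr P.1 ^ 2 + xr P.2 ^ 2) ^ 2 else 0) := by
      split_ifs
      · exact hpos
      · exact le_rfl
    have p2 : 0 ≤ (if (a : ℝ) ^ 2 < xr P.2 ^ 2 then 1 / (xr P.1 ^ 2 + xr P.2 ^ 2) ^ 2 else 0) := by
      split_ifs
      · exact hpos
      · exact le_rfl
    by_cases h : (a : ℝ) < mP P
    · rw [if_pos h]
      unfold mP at h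
      rcases lt_max_iff.1 h with h1 | h1
      · have h2 : (a : ℝ) ^ 2 < xr P.1 ^ 2 := by
          rw [← sq_abs (xr P.1)]; exact pow_lt_pow_left₀ h1 (by positivity) two_ne_zero
        rw [if_pos h2]
        unfold sP
        linarith
      · have h2 : (a : ℝ) ^ 2 < xr P.2 ^ 2 := by
          rw [← sq_abs (xr P.2)]; exact pow_lt_pow_left₀ h1 (by positivity) two_ne_zero
        rw [if_pos h2]
        unfold sP
        linarith
    · rw [if_neg h]; linarith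
  refine (Finset.sum_le_sum hpt).trans ?_
  rw [Finset.sum_add_distrib]
  have e : (8 : ℝ) / (a : ℝ) ^ 2 = 4 / (a : ℝ) ^ 2 + 4 / (a : ℝ) ^ 2 := by ring
  rw [e]
  exact add_le_add hS1 hS2

/-! ### the energy of the pair -/

lemma card_PB (n : ℕ) : ((PB n).card : ℝ) = (2 * n + 2) ^ 2 := by
  unfold PB
  rw [Finset.card_product, Int.card_Icc]
  have e : ((n : ℤ) + 1 + 1 - -(n : ℤ)).toNat = 2 * n + 2 := by omega
  rw [e]
  push_cast
  ring

lemma mem_PB_of {n : ℕ} {P : Z2} (h : mP P < 2 * n + 2) : P ∈ PB n := by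
  rw [PB, Finset.mem_product]
  unfold mP at h
  rw [max_lt_iff] at h
  constructor
  · by_contra hc
    exact absurd (abs_xr_gt hc) (not_le.2 h.1)
  · by_contra hc
    exact absurd (abs_xr_gt hc) (not_le.2 h.2)

lemma sum_shift {A B : Finset Z2} {g : Z2} {H : Z2 → ℝ} (hH : ∀ P, 0 ≤ H P) :
    ∑ P ∈ A, (if P - g ∈ B then H (P - g) else 0) ≤ ∑ P ∈ B, H P := by
  classical
  rw [← Finset.sum_filter]
  have e : ∑ P ∈ A.filter (fun P => P - g ∈ B), H (P - g) =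
      ∑ P ∈ (A.filter (fun P => P - g ∈ B)).image (fun P => P - g), H P := by
    rw [Finset.sum_image fun x _ y _ h => by simpa using h]
  rw [e]
  refine Finset.sum_le_sum_of_subset_of_nonneg (fun Q hQ => ?_) fun _ _ _ => hH _
  obtain ⟨P, hP, rfl⟩ := Finset.mem_image.1 hQ
  exact (Finset.mem_filter.1 hP).2

lemma sum_ind {A B : Finset Z2} {H : Z2 → ℝ} (hH : ∀ P, 0 ≤ H P) :
    ∑ P ∈ A, (if P ∈ B then H P else 0) ≤ ∑ P ∈ B, H P := by
  have h := sum_shift (A := A) (B := B) (g := 0) hH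
  simpa using h

/-- the energy of the angle field in a box -/
lemma Qp_sum {δ : ℝ} (hδ : 0 < δ) (n : ℕ) : ∑ P ∈ PB n, Qp P ≤
    (1 + δ) * (2 * Real.pi * Real.log (2 * n + 1) + (4 * Real.pi + 32)) + (1 + 1 / δ) * 1152 := by
  calc ∑ P ∈ PB n, Qp P ≤ ∑ P ∈ PB n, ((1 + δ) * (4 / sP P) +
          (1 + 1 / δ) * (288 * (1 / sP P ^ 2))) :=
        Finset.sum_le_sum fun P _ => Ba_sq_pair hδ
    _ ≤ _ := by
        rw [Finset.sum_add_distrib, ← Finset.mul_sum, ← Finset.mul_sum, ← Finset.mul_sum]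
        have h2 := sum_energy n
        have h3 := sum_four n
        have h4 := mul_le_mul_of_nonneg_left h2 (by positivity : 0 ≤ 1 + δ)
        have h5 : (1 + 1 / δ) * (288 * ∑ P ∈ PB n, 1 / sP P ^ 2) ≤ (1 + 1 / δ) * 1152 :=
          mul_le_mul_of_nonneg_left (by linarith) (by positivity)
        linarith

/-- the pointwise bound -/
lemma Fg_pt {g : Z2} {n : ℕ} (hn : 1 ≤ n) (hg : dd 0 g = n) {δ : ℝ} (hδ : 0 < δ) (P : Z2) :
    Fg g P ≤ (if P ∈ PB n then (1 + δ) * Qp P + (1 + 1 / δ) * (392 / (n : ℝ) ^ 2) else 0) +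
      (if P - g ∈ PB n then (1 + δ) * Qp (P - g) + (1 + 1 / δ) * (392 / (n : ℝ) ^ 2) else 0) +
      (if P ∈ PB (4 * n) then 1568 / (n : ℝ) ^ 2 else 0) +
      39200 * (n : ℝ) ^ 2 * (if ((8 * n : ℕ) : ℝ) < mP P then 1 / sP P ^ 2 else 0) := by
  have hn' : (1 : ℝ) ≤ n := by exact_mod_cast hn
  have hsum := mP_sum hg P
  have t1 : 0 ≤ (if P ∈ PB n then (1 + δ) * Qp P + (1 + 1 / δ) * (392 / (n : ℝ) ^ 2) else 0) := by
    have := Qp_nonneg P
    split_ifs
    · positivity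
    · exact le_rfl
  have t2 : 0 ≤ (if P - g ∈ PB n then (1 + δ) * Qp (P - g) +
      (1 + 1 / δ) * (392 / (n : ℝ) ^ 2) else 0) := by
    have := Qp_nonneg (P - g)
    split_ifs
    · positivity
    · exact le_rfl
  have t3 : 0 ≤ (if P ∈ PB (4 * n) then 1568 / (n : ℝ) ^ 2 else 0) := by
    split_ifs
    · positivity
    · exact le_rfl
  have t4 : 0 ≤ 39200 * (n : ℝ) ^ 2 * (if ((8 * n : ℕ) : ℝ) < mP P then 1 / sP P ^ 2 else 0) := by
    refine mul_nonneg (by positivity) ?_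
    split_ifs
    · positivity
    · exact le_rfl
  have hQ : ∀ Q : Z2, (n : ℝ) ≤ mP Q → Qp Q ≤ 392 / (n : ℝ) ^ 2 := by
    intro Q hQ
    have h1 := mP_sq_le Q
    have h2 : (n : ℝ) ^ 2 ≤ mP Q ^ 2 := pow_le_pow_left₀ (by positivity) hQ 2
    exact (Qp_le Q).trans (div_le_div_of_nonneg_left (by norm_num) (by positivity) (h2.trans h1))
  by_cases hA : mP P ≤ n
  · have h1 : P ∈ PB n := mem_PB_of (by linarith)
    rw [if_pos h1]
    have h2 := Fg_le (g := g) (P := P) hδ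
    have h3 := mul_le_mul_of_nonneg_left (hQ (P - g) (by linarith))
      (by positivity : 0 ≤ 1 + 1 / δ)
    linarith
  push Not at hA
  by_cases hB : mP (P - g) ≤ n
  · have h1 : P - g ∈ PB n := mem_PB_of (by linarith)
    rw [if_pos h1]
    have h2 := Fg_le' (g := g) (P := P) hδ
    have h3 := mul_le_mul_of_nonneg_left (hQ P (by linarith)) (by positivity : 0 ≤ 1 + 1 / δ)
    rw [if_pos h1] at t2
    linarith
  push Not at hB
  by_cases hC : mP P ≤ 8 * n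
  · have h1 : P ∈ PB (4 * n) := mem_PB_of (by push_cast; linarith)
    rw [if_pos h1]
    have h2 := Fg_le (g := g) (P := P) one_pos
    have h3 := hQ (P - g) hB.le
    have h4 := hQ P hA.le
    have e : 1568 / (n : ℝ) ^ 2 = 2 * (392 / (n : ℝ) ^ 2) + 2 * (392 / (n : ℝ) ^ 2) := by ring
    rw [e]
    norm_num at h2
    linarith
  push Not at hC
  have h1 : ((8 * n : ℕ) : ℝ) < mP P := by push_cast; exact hC
  rw [if_pos h1]
  have h2 : ∀ d, Dg g (P, d) ^ 2 ≤ (140 * n / sP P) ^ 2 := fun d => by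
    rw [← sq_abs]; exact pow_le_pow_left₀ (abs_nonneg _) (Dg_far hn hg hC d) 2
  have h3 : Fg g P ≤ (140 * n / sP P) ^ 2 + (140 * n / sP P) ^ 2 := add_le_add (h2 true) (h2 false)
  have e : (140 * n / sP P) ^ 2 + (140 * n / sP P) ^ 2 =
      39200 * (n : ℝ) ^ 2 * (1 / sP P ^ 2) := by ring
  linarith

/-- **the energy of the pair** -/
theorem Fg_sum {g : Z2} {n : ℕ} (hn : 1 ≤ n) (hg : dd 0 g = n) {δ : ℝ} (hδ : 0 < δ) (M : ℕ) :
    ∑ P ∈ PB M, Fg g P ≤ 2 * ((1 + δ) * ((1 + δ) * (2 * Real.pi * Real.log (2 * n + 1) +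
      (4 * Real.pi + 32)) + (1 + 1 / δ) * 1152) + (1 + 1 / δ) * 6272) + 161700 := by
  have hn' : (1 : ℝ) ≤ n := by exact_mod_cast hn
  refine (Finset.sum_le_sum fun P _ => Fg_pt hn hg hδ P).trans ?_
  rw [Finset.sum_add_distrib, Finset.sum_add_distrib, Finset.sum_add_distrib, ← Finset.mul_sum]
  have hH : ∀ P, 0 ≤ (1 + δ) * Qp P + (1 + 1 / δ) * (392 / (n : ℝ) ^ 2) := fun P => by
    have := Qp_nonneg P
    positivity
  have s1 := sum_ind (A := PB M) (B := PB n) hH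
  have s2 := sum_shift (A := PB M) (B := PB n) (g := g) hH
  have s3 := sum_ind (A := PB M) (B := PB (4 * n)) (H := fun _ => 1568 / (n : ℝ) ^ 2)
    fun _ => by positivity
  have s4 := tail (a := 8 * n) (by omega) M
  have hs : ∑ P ∈ PB n, ((1 + δ) * Qp P + (1 + 1 / δ) * (392 / (n : ℝ) ^ 2)) ≤
      (1 + δ) * ((1 + δ) * (2 * Real.pi * Real.log (2 * n + 1) +
      (4 * Real.pi + 32)) + (1 + 1 / δ) * 1152) + (1 + 1 / δ) * 6272 := by
    rw [Finset.sum_add_distrib, ← Finset.mul_sum, Finset.sum_const, nsmul_eq_mul, card_PB]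
    have h1 := mul_le_mul_of_nonneg_left (Qp_sum hδ n) (by positivity : 0 ≤ 1 + δ)
    have h2 : (2 * (n : ℝ) + 2) ^ 2 * ((1 + 1 / δ) * (392 / (n : ℝ) ^ 2)) ≤
        (1 + 1 / δ) * 6272 := by
      have e : (2 * (n : ℝ) + 2) ^ 2 * ((1 + 1 / δ) * (392 / (n : ℝ) ^ 2)) =
          (1 + 1 / δ) * ((2 * (n : ℝ) + 2) ^ 2 * 392 / (n : ℝ) ^ 2) := by ring
      rw [e]
      refine mul_le_mul_of_nonneg_left ?_ (by positivity)
      rw [div_le_iff₀ (by positivity)]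
      nlinarith
    linarith
  have hs3 : ∑ _P ∈ PB (4 * n), 1568 / (n : ℝ) ^ 2 ≤ 156800 := by
    rw [Finset.sum_const, nsmul_eq_mul, card_PB]
    rw [mul_div_assoc', div_le_iff₀ (by positivity)]
    push_cast
    nlinarith
  have hs4 : 39200 * (n : ℝ) ^ 2 * ∑ P ∈ PB M,
      (if ((8 * n : ℕ) : ℝ) < mP P then 1 / sP P ^ 2 else 0) ≤ 4900 := by
    refine (mul_le_mul_of_nonneg_left s4 (by positivity)).trans (le_of_eq ?_)
    push_cast
    field_simp
    norm_num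
  linarith

end Vale.Agent.P159.T1.S.Hv
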