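import Vale.Agent.P159.T1.S.H711.Hv13

/-!
P159: the mean square height difference of two faces grows exactly like
`Υ(b) / π` times the logarithm of the distance.
-/

open Filter Topology

namespace Vale.Agent.P159.T1.S.Hv

open Vale.Agent.P159 Vale.Agent.P159.T1.D
open Vale.Agent.P159.T1.H910 (dv mem_bd)

variable {b : ℝ}

/-- the flow from the face `0` to the face `g`, cut off at a large distance -/
noncomputable def Bg (N : ℕ) (g : Z2) (e : Bnd) : ℝ := ch0 N e.1 * Dg g e / (2 * Real.pi)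

lemma Bg_off {N : ℕ} {g : Z2} {e : Bnd} (h : e ∉ SP (2 * N)) : Bg N g e = 0 := by
  unfold Bg
  rw [ch0_zero fun h' => h (Finset.mem_product.2 ⟨h', Finset.mem_univ _⟩), zero_mul, zero_div]

lemma dv_Dg (g f : Z2) : dv (Dg g) f = dv Ba f - dv Ba (f - g) := by
  obtain ⟨i, j⟩ := f
  obtain ⟨x, y⟩ := g
  unfold dv Dg sh
  simp only [Prod.mk_add_mk, Prod.neg_mk, Prod.mk_sub_mk]
  have e1 : (i + 1 + -x, j + -y) = (i - x + 1, j - y) := by
    ext <;> simp <;> ring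
  have e2 : (i + -x, j + 1 + -y) = (i - x, j - y + 1) := by
    ext <;> simp <;> ring
  have e3 : (i + -x, j + -y) = (i - x, j - y) := by
    ext <;> simp <;> ring
  rw [e1, e2, e3]
  ring

lemma Bg_isDiv {U : Finset Z2} {N : ℕ} (hU : U ⊆ bx 0 N) (g : Z2) :
    IsDiv U (Bg N g) (fun x => dl 0 x - dl g x) := by
  intro f hf
  have hf' := hU hf
  rw [mem_bx0] at hf'
  have h1 : (f.1, f.2) ∈ PB N := by
    rw [PB, Finset.mem_product, Finset.mem_Icc, Finset.mem_Icc]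
    simp only
    omega
  have h2 : (f.1, f.2 + 1) ∈ PB N := by
    rw [PB, Finset.mem_product, Finset.mem_Icc, Finset.mem_Icc]
    simp only
    omega
  have h3 : (f.1 + 1, f.2) ∈ PB N := by
    rw [PB, Finset.mem_product, Finset.mem_Icc, Finset.mem_Icc]
    simp only
    omega
  have h4 := dv_Dg g f
  rw [dv_Ba, dv_Ba] at h4
  unfold dv at h4
  unfold Bg
  simp only
  rw [ch0_one h1, ch0_one h2, ch0_one h3]
  have hp := Real.pi_pos
  have e : 1 * Dg g (f, false) / (2 * Real.pi) - 1 * Dg g ((f.1, f.2 + 1), false) / (2 * Real.pi) +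
      1 * Dg g ((f.1 + 1, f.2), true) / (2 * Real.pi) - 1 * Dg g (f, true) / (2 * Real.pi) =
      (Dg g (f, false) - Dg g ((f.1, f.2 + 1), false) + Dg g ((f.1 + 1, f.2), true) -
        Dg g (f, true)) / (2 * Real.pi) := by ring
  rw [e, h4]
  unfold dl
  have hfg : f - g = 0 ↔ f = g := sub_eq_zero
  simp only [hfg]
  rw [sub_div]
  congr 1
  · split_ifs
    · field_simp
    · simp
  · split_ifs
    · field_simp
    · simp

lemma Bg_energy {g : Z2} {n : ℕ} (hn : 1 ≤ n) (hg : dd 0 g = n) {δ : ℝ} (hδ : 0 < δ) (N : ℕ) :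
    ∑ e ∈ SP (2 * N), Bg N g e ^ 2 ≤ (1 / (4 * Real.pi ^ 2)) *
      (2 * ((1 + δ) * ((1 + δ) * (2 * Real.pi * Real.log (2 * n + 1) +
      (4 * Real.pi + 32)) + (1 + 1 / δ) * 1152) + (1 + 1 / δ) * 6272) + 161700) := by
  have hp := Real.pi_pos
  have h1 : ∀ e : Bnd, Bg N g e ^ 2 ≤ (1 / (4 * Real.pi ^ 2)) * Dg g e ^ 2 := by
    intro e
    unfold Bg
    have h2 : ch0 N e.1 ^ 2 ≤ 1 := pow_le_one₀ (ch0_nonneg _ _) (ch0_le _ _)
    have e2 : (ch0 N e.1 * Dg g e / (2 * Real.pi)) ^ 2 =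
        (1 / (4 * Real.pi ^ 2)) * (ch0 N e.1 ^ 2 * Dg g e ^ 2) := by field_simp; ring
    rw [e2]
    refine mul_le_mul_of_nonneg_left ?_ (by positivity)
    nlinarith [sq_nonneg (Dg g e)]
  calc ∑ e ∈ SP (2 * N), Bg N g e ^ 2 ≤ ∑ e ∈ SP (2 * N), (1 / (4 * Real.pi ^ 2)) * Dg g e ^ 2 :=
        Finset.sum_le_sum fun e _ => h1 e
    _ = (1 / (4 * Real.pi ^ 2)) * ∑ P ∈ PB (2 * N), Fg g P := by
        rw [← Finset.mul_sum]
        unfold SP Fg
        rw [Finset.sum_product]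
        simp
    _ ≤ _ := mul_le_mul_of_nonneg_left (Fg_sum hn hg hδ (2 * N)) (by positivity)

/-- the constant in the bound of the oscillation -/
noncomputable def Dl2 (l : ℕ) : ℝ :=
  4 * ((12 + 16 * l) * (3 + 16 * (l : ℝ) ^ 2)) ^ 2 + 56448 * (l : ℝ) ^ 2

lemma sh_comm (u g : Z2) (e : Bnd) : sh (-g) (sh u e) = sh u (sh (-g) e) := by
  unfold sh
  rw [add_right_comm]

lemma Bg_shift {g : Z2} {n N : ℕ} (hg : dd 0 g = n) (hnN : n ≤ N) {l : ℕ} {u : Z2}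
    (hu : u ∈ Finset.Icc (-(l : ℤ), -(l : ℤ)) ((l : ℤ), (l : ℤ)))
    {e : Bnd} (he : e ∈ SP (2 * N)) :
    (Bg N g (sh u e) - Bg N g e) ^ 2 ≤ Dl2 l * (1 / sP e.1 ^ 2 + 1 / sP (e.1 - g) ^ 2) := by
  have hp : 1 ≤ (2 * Real.pi) ^ 2 := by
    have := Real.pi_gt_three
    nlinarith
  have hp0 := Real.pi_pos
  have hs := sP_ge e.1
  have hs' := sP_ge (e.1 - g)
  obtain ⟨s, hsd⟩ : ∃ s : ℝ, s = sP e.1 := ⟨_, rfl⟩
  obtain ⟨s', hsd'⟩ : ∃ s' : ℝ, s' = sP (e.1 - g) := ⟨_, rfl⟩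
  obtain ⟨c, hc⟩ : ∃ c : ℝ, c = (12 + 16 * l) * (3 + 16 * (l : ℝ) ^ 2) := ⟨_, rfl⟩
  have hc0 : 0 ≤ c := by rw [hc]; positivity
  have e1 : Bg N g (sh u e) - Bg N g e = (ch0 N (e.1 + u) * (Dg g (sh u e) - Dg g e) +
      (ch0 N (e.1 + u) - ch0 N e.1) * Dg g e) / (2 * Real.pi) := by
    unfold Bg sh
    simp only
    ring
  have hsq2 : ∀ x y : ℝ, (x - y) ^ 2 ≤ 2 * x ^ 2 + 2 * y ^ 2 := fun x y => by
    nlinarith [sq_nonneg (x + y)]
  have h1 : (ch0 N (e.1 + u) * (Dg g (sh u e) - Dg g e)) ^ 2 ≤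
      2 * c ^ 2 * (1 / s ^ 2 + 1 / s' ^ 2) := by
    have h2 := Ba_shift hu e
    have h2' := Ba_shift hu (sh (-g) e)
    have e0 : (sh (-g) e).1 = e.1 - g := by unfold sh; rw [sub_eq_add_neg]
    rw [e0, ← sh_comm, ← hc, ← hsd'] at h2'
    rw [← hc, ← hsd] at h2
    have h3 : (Ba (sh u e) - Ba e) ^ 2 ≤ (c / s) ^ 2 := by
      rw [← sq_abs]; exact pow_le_pow_left₀ (abs_nonneg _) h2 2
    have h3' : (Ba (sh (-g) (sh u e)) - Ba (sh (-g) e)) ^ 2 ≤ (c / s') ^ 2 := by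
      rw [← sq_abs]; exact pow_le_pow_left₀ (abs_nonneg _) h2' 2
    have h4 : ch0 N (e.1 + u) ^ 2 ≤ 1 := pow_le_one₀ (ch0_nonneg _ _) (ch0_le _ _)
    have h5 : (Dg g (sh u e) - Dg g e) ^ 2 ≤ 2 * c ^ 2 * (1 / s ^ 2 + 1 / s' ^ 2) := by
      have e3 : Dg g (sh u e) - Dg g e = (Ba (sh u e) - Ba e) -
          (Ba (sh (-g) (sh u e)) - Ba (sh (-g) e)) := by unfold Dg; ring
      rw [e3]
      refine (hsq2 _ _).trans ?_
      have e4 : 2 * c ^ 2 * (1 / s ^ 2 + 1 / s' ^ 2) = 2 * (c / s) ^ 2 + 2 * (c / s') ^ 2 := by ring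
      rw [e4]
      linarith
    rw [mul_pow]
    calc ch0 N (e.1 + u) ^ 2 * (Dg g (sh u e) - Dg g e) ^ 2 ≤ 1 * (Dg g (sh u e) - Dg g e) ^ 2 :=
          mul_le_mul_of_nonneg_right h4 (sq_nonneg _)
      _ ≤ _ := by rw [one_mul]; exact h5
  have h2 : ((ch0 N (e.1 + u) - ch0 N e.1) * Dg g e) ^ 2 ≤
      28224 * (l : ℝ) ^ 2 * (1 / s ^ 2 + 1 / s' ^ 2) := by
    have h3 : (ch0 N (e.1 + u) - ch0 N e.1) ^ 2 ≤ (2 * l / (2 * N + 1)) ^ 2 := by
      rw [← sq_abs]; exact pow_le_pow_left₀ (abs_nonneg _) (ch0_shift hu N e.1) 2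
    have hN0 : (0 : ℝ) ≤ N := Nat.cast_nonneg N
    have hnN' : (n : ℝ) ≤ N := by exact_mod_cast hnN
    have hm : mP e.1 ≤ 4 * N + 1 := by
      rw [SP, Finset.mem_product, PB, Finset.mem_product] at he
      have a1 := abs_xr_le he.1.1
      have a2 := abs_xr_le he.1.2
      push_cast at a1 a2
      exact max_le (by linarith) (by linarith)
    have hm' : mP (e.1 - g) ≤ 6 * N + 1 := by
      have := (abs_le.1 (mP_sub hg e.1)).2
      linarith
    have h4 : s ≤ 18 * (2 * (N : ℝ) + 1) ^ 2 := by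
      have a1 := sP_le_mP e.1
      have a2 : mP e.1 ^ 2 ≤ (4 * N + 1) ^ 2 :=
        pow_le_pow_left₀ (by linarith [mP_pos e.1]) hm 2
      rw [hsd]
      nlinarith
    have h4' : s' ≤ 18 * (2 * (N : ℝ) + 1) ^ 2 := by
      have a1 := sP_le_mP (e.1 - g)
      have a2 : mP (e.1 - g) ^ 2 ≤ (6 * N + 1) ^ 2 :=
        pow_le_pow_left₀ (by linarith [mP_pos (e.1 - g)]) hm' 2
      rw [hsd']
      nlinarith
    have hspos : 0 < s := by rw [hsd]; linarith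
    have hspos' : 0 < s' := by rw [hsd']; linarith
    have hNpos : 0 < (2 * (N : ℝ) + 1) ^ 2 := by positivity
    have k1 : 1 / (2 * (N : ℝ) + 1) ^ 2 ≤ 18 / s := by
      rw [div_le_div_iff₀ hNpos hspos]; linarith
    have k1' : 1 / (2 * (N : ℝ) + 1) ^ 2 ≤ 18 / s' := by
      rw [div_le_div_iff₀ hNpos hspos']; linarith
    have hD : Dg g e ^ 2 ≤ 392 * (1 / s) + 392 * (1 / s') := by
      have a1 := Ba_sq' e
      have a2 := Ba_sq' (sh (-g) e)
      have e0 : (sh (-g) e).1 = e.1 - g := by unfold sh; rw [sub_eq_add_neg]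
      rw [e0, ← hsd'] at a2
      rw [← hsd] at a1
      unfold Dg
      refine (hsq2 _ _).trans ?_
      have e5 : 392 * (1 / s) + 392 * (1 / s') = 2 * (196 / s) + 2 * (196 / s') := by ring
      rw [e5]
      linarith
    have e2 : (2 * l / (2 * (N : ℝ) + 1)) ^ 2 = 4 * (l : ℝ) ^ 2 * (1 / (2 * (N : ℝ) + 1) ^ 2) := by
      field_simp; ring
    rw [mul_pow]
    rw [e2] at h3
    have m1 : 1 / (2 * (N : ℝ) + 1) ^ 2 * (1 / s) ≤ 18 * (1 / s ^ 2) := by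
      calc 1 / (2 * (N : ℝ) + 1) ^ 2 * (1 / s) ≤ 18 / s * (1 / s) :=
            mul_le_mul_of_nonneg_right k1 (by positivity)
        _ = _ := by field_simp
    have m2 : 1 / (2 * (N : ℝ) + 1) ^ 2 * (1 / s') ≤ 18 * (1 / s' ^ 2) := by
      calc 1 / (2 * (N : ℝ) + 1) ^ 2 * (1 / s') ≤ 18 / s' * (1 / s') :=
            mul_le_mul_of_nonneg_right k1' (by positivity)
        _ = _ := by field_simp
    calc (ch0 N (e.1 + u) - ch0 N e.1) ^ 2 * Dg g e ^ 2 ≤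
          (4 * (l : ℝ) ^ 2 * (1 / (2 * (N : ℝ) + 1) ^ 2)) * (392 * (1 / s) + 392 * (1 / s')) :=
          mul_le_mul h3 hD (sq_nonneg _) (by positivity)
      _ = 1568 * (l : ℝ) ^ 2 * (1 / (2 * (N : ℝ) + 1) ^ 2 * (1 / s) +
            1 / (2 * (N : ℝ) + 1) ^ 2 * (1 / s')) := by ring
      _ ≤ 1568 * (l : ℝ) ^ 2 * (18 * (1 / s ^ 2) + 18 * (1 / s' ^ 2)) :=
          mul_le_mul_of_nonneg_left (add_le_add m1 m2) (by positivity)
      _ = _ := by ring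
  rw [e1, div_pow, ← hsd, ← hsd']
  have h3 : ∀ x y : ℝ, (x + y) ^ 2 ≤ 2 * x ^ 2 + 2 * y ^ 2 := fun x y => by
    nlinarith [sq_nonneg (x - y)]
  have h4 := h3 (ch0 N (e.1 + u) * (Dg g (sh u e) - Dg g e)) ((ch0 N (e.1 + u) - ch0 N e.1) * Dg g e)
  calc _ ≤ (ch0 N (e.1 + u) * (Dg g (sh u e) - Dg g e) +
        (ch0 N (e.1 + u) - ch0 N e.1) * Dg g e) ^ 2 := div_le_self (sq_nonneg _) hp
    _ ≤ _ := h4
    _ ≤ 2 * (2 * c ^ 2 * (1 / s ^ 2 + 1 / s' ^ 2)) +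
        2 * (28224 * (l : ℝ) ^ 2 * (1 / s ^ 2 + 1 / s' ^ 2)) := by linarith
    _ = _ := by unfold Dl2; rw [hc]; ring

lemma sum_four' {g : Z2} {n N : ℕ} (hg : dd 0 g = n) (hnN : n ≤ N) :
    ∑ P ∈ PB (2 * N), 1 / sP (P - g) ^ 2 ≤ 4 := by
  have h := sum_shift (A := PB (2 * N)) (B := PB (3 * N)) (g := g) (H := fun P => 1 / sP P ^ 2)
    fun P => by positivity
  refine le_trans (le_of_eq ?_) (h.trans (sum_four (3 * N)))
  refine Finset.sum_congr rfl fun P hP => ?_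
  rw [if_pos]
  have hnN' : (n : ℝ) ≤ N := by exact_mod_cast hnN
  refine mem_PB_of ?_
  have hm : mP P ≤ 4 * N + 1 := by
    rw [PB, Finset.mem_product] at hP
    have a1 := abs_xr_le hP.1
    have a2 := abs_xr_le hP.2
    push_cast at a1 a2
    exact max_le (by linarith) (by linarith)
  have := (abs_le.1 (mP_sub hg P)).2
  push_cast
  linarith

lemma Bg_osc {g : Z2} {n N : ℕ} (hg : dd 0 g = n) (hnN : n ≤ N) (l : ℕ) :
    osc l (SP (2 * N)) (Bg N g) ≤ (2 * (l : ℝ) + 1) ^ 2 * (16 * Dl2 l) := by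
  unfold osc
  have hD : 0 ≤ Dl2 l := by unfold Dl2; positivity
  have hc : ((Finset.Icc (-(l : ℤ), -(l : ℤ)) ((l : ℤ), (l : ℤ))).card : ℝ) =
      (2 * (l : ℝ) + 1) ^ 2 := by
    have h : Finset.Icc (-(l : ℤ), -(l : ℤ)) ((l : ℤ), (l : ℤ)) =
        Finset.Icc (-(l : ℤ)) l ×ˢ Finset.Icc (-(l : ℤ)) l := rfl
    rw [h, Finset.card_product, Int.card_Icc]
    have e : ((l : ℤ) + 1 - -(l : ℤ)).toNat = 2 * l + 1 := by omega
    rw [e]
    push_cast
    ring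
  calc ∑ e ∈ SP (2 * N), ∑ u ∈ Finset.Icc (-(l : ℤ), -(l : ℤ)) ((l : ℤ), (l : ℤ)),
        (Bg N g (sh u e) - Bg N g e) ^ 2
      ≤ ∑ e ∈ SP (2 * N), ∑ _u ∈ Finset.Icc (-(l : ℤ), -(l : ℤ)) ((l : ℤ), (l : ℤ)),
        Dl2 l * (1 / sP e.1 ^ 2 + 1 / sP (e.1 - g) ^ 2) :=
        Finset.sum_le_sum fun e he => Finset.sum_le_sum fun u hu => Bg_shift hg hnN hu he
    _ = (2 * (l : ℝ) + 1) ^ 2 * (Dl2 l * (2 * ∑ P ∈ PB (2 * N),
          (1 / sP P ^ 2 + 1 / sP (P - g) ^ 2))) := by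
        simp only [Finset.sum_const, nsmul_eq_mul, hc]
        rw [← Finset.mul_sum, ← Finset.mul_sum]
        unfold SP
        rw [Finset.sum_product]
        simp only [Finset.sum_const, Finset.card_univ, Fintype.card_bool, nsmul_eq_mul]
        rw [← Finset.mul_sum]
        push_cast
        ring
    _ ≤ (2 * (l : ℝ) + 1) ^ 2 * (Dl2 l * (2 * (4 + 4))) := by
        rw [Finset.sum_add_distrib]
        gcongr
        · exact sum_four _
        · exact sum_four' hg hnN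
    _ = _ := by ring

/-- **upper bound, one of the faces is `0`** -/
theorem upper0 (b : ℝ) (hb : bCrit ≤ b) (ε : ℝ) (hε : 0 < ε) : ∃ C : ℝ, ∀ g : Z2, g ≠ 0 →
    ∀ U : Finset Z2, 0 ∈ U → g ∈ U →
      v2 b U 0 g ≤ (helicity b / Real.pi + ε) * Real.log (dd 0 g) + C := by
  have hY := T1.H934.pos_of_ge b hb
  have hb0 : 0 < b := hY.1
  have hp := Real.pi_pos
  have hY0 : 0 < helicity b := lt_of_lt_of_le (by positivity) hY.2
  obtain ⟨l, C, hC, H⟩ := (H469.uv_of_u stmtU) b ε hb0 hε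
  obtain ⟨A, hA⟩ : ∃ A : ℝ, A = helicity b + ε := ⟨_, rfl⟩
  rw [← hA] at H
  have hA0 : 0 < A := by rw [hA]; positivity
  obtain ⟨δ, hδdef⟩ : ∃ δ : ℝ, δ = min 1 (ε / (3 * A)) := ⟨_, rfl⟩
  have hδ : 0 < δ := by rw [hδdef]; exact lt_min one_pos (by positivity)
  have hδ1 : δ ≤ 1 := by rw [hδdef]; exact min_le_left _ _
  have hδ2 : A * (3 * δ) ≤ ε := by
    have h : δ ≤ ε / (3 * A) := by rw [hδdef]; exact min_le_right _ _
    rw [le_div_iff₀ (by positivity)] at h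
    linarith
  have hAδ : A * (1 + δ) ^ 2 ≤ helicity b + 2 * ε := by
    have h1 : (1 + δ) ^ 2 ≤ 1 + 3 * δ := by nlinarith
    have h2 := mul_le_mul_of_nonneg_left h1 hA0.le
    nlinarith
  obtain ⟨R, hR⟩ : ∃ R : ℝ, R = (1 / (4 * Real.pi ^ 2)) *
      (2 * ((1 + δ) * ((1 + δ) * (2 * Real.pi * Real.log 3 +
      (4 * Real.pi + 32)) + (1 + 1 / δ) * 1152) + (1 + 1 / δ) * 6272) + 161700) := ⟨_, rfl⟩
  refine ⟨A * R + C * ((2 * (l : ℝ) + 1) ^ 2 * (16 * Dl2 l)), fun g hg U h0 hgU => ?_⟩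
  obtain ⟨n, hn⟩ : ∃ n, dd 0 g = n := ⟨_, rfl⟩
  have hn1 : 1 ≤ n := by
    by_contra h
    have h0 : dd 0 g = 0 := by omega
    unfold dd at h0
    rw [Nat.max_eq_zero_iff] at h0
    simp only [Prod.fst_zero, Prod.snd_zero, zero_sub, Int.natAbs_neg, Int.natAbs_eq_zero] at h0
    exact hg (Prod.ext h0.1 h0.2)
  have hn' : (1 : ℝ) ≤ n := by exact_mod_cast hn1
  obtain ⟨N, hN⟩ : ∃ N : ℕ, N = (U.sup fun x => max x.1.natAbs x.2.natAbs) + n := ⟨_, rfl⟩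
  have hUN : U ⊆ bx 0 N := by
    intro x hx
    have h1 : max x.1.natAbs x.2.natAbs ≤ U.sup fun x => max x.1.natAbs x.2.natAbs :=
      Finset.le_sup (f := fun x : Z2 => max x.1.natAbs x.2.natAbs) hx
    rw [mem_bx0]
    have h2 := le_max_left x.1.natAbs x.2.natAbs
    have h3 := le_max_right x.1.natAbs x.2.natAbs
    omega
  have hnN : n ≤ N := by omega
  rw [hn, v2_eq h0 hgU, ← Vr_of_div (Bg_isDiv hUN g)]
  have h2 := H U (SP (2 * N)) (Bg N g) fun e he => Bg_off he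
  have h3 := mul_le_mul_of_nonneg_left (Bg_energy hn1 hn hδ N) hA0.le
  have h4 := mul_le_mul_of_nonneg_left (Bg_osc hn hnN l) hC.le
  have h5 : Real.log (2 * n + 1) ≤ Real.log 3 + Real.log n := by
    rw [← Real.log_mul (by norm_num) (by positivity)]
    exact Real.log_le_log (by positivity) (by linarith)
  have h6 : A * ((1 / (4 * Real.pi ^ 2)) *
      (2 * ((1 + δ) * ((1 + δ) * (2 * Real.pi * Real.log (2 * n + 1) +
      (4 * Real.pi + 32)) + (1 + 1 / δ) * 1152) + (1 + 1 / δ) * 6272) + 161700)) ≤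
      A * ((1 / (4 * Real.pi ^ 2)) *
      (2 * ((1 + δ) * ((1 + δ) * (2 * Real.pi * (Real.log 3 + Real.log n) +
      (4 * Real.pi + 32)) + (1 + 1 / δ) * 1152) + (1 + 1 / δ) * 6272) + 161700)) := by gcongr
  have e : A * ((1 / (4 * Real.pi ^ 2)) *
      (2 * ((1 + δ) * ((1 + δ) * (2 * Real.pi * (Real.log 3 + Real.log n) +
      (4 * Real.pi + 32)) + (1 + 1 / δ) * 1152) + (1 + 1 / δ) * 6272) + 161700)) =
      A * (1 + δ) ^ 2 * (1 / Real.pi) * Real.log n + A * R := by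
    rw [hR]
    field_simp
    ring
  have h7 : A * (1 + δ) ^ 2 * (1 / Real.pi) * Real.log n ≤
      (helicity b / Real.pi + ε) * Real.log n := by
    refine mul_le_mul_of_nonneg_right ?_ (Real.log_nonneg hn')
    have h8 : A * (1 + δ) ^ 2 * (1 / Real.pi) ≤ (helicity b + 2 * ε) * (1 / Real.pi) :=
      mul_le_mul_of_nonneg_right hAδ (by positivity)
    have h9 : (helicity b + 2 * ε) * (1 / Real.pi) =
        helicity b / Real.pi + ε * (2 / Real.pi) := by field_simp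
    have h10 : 2 / Real.pi ≤ 1 := by
      rw [div_le_one hp]; linarith [Real.pi_gt_three]
    nlinarith
  linarith

open H910 in
theorem v2_symm {σ : Z2 ≃ Z2} {τ : Bnd ≃ Bnd} (hs : IsSym σ τ) (b : ℝ) (U : Finset Z2)
    (x y : Z2) : v2 b (U.map σ.toEmbedding) (σ x) (σ y) = v2 b U x y := by
  unfold v2
  rw [E_eq, E_eq, hs.bd, FF_symm hs, FF_symm hs]
  congr 1
  refine FF_congr fun h => ?_
  simp

/-- **upper bound for the height difference** -/
theorem upper2 (b : ℝ) (hb : bCrit ≤ b) (ε : ℝ) (hε : 0 < ε) : ∃ C : ℝ, ∀ f g : Z2, f ≠ g →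
    ∀ U : Finset Z2, f ∈ U → g ∈ U →
      v2 b U f g ≤ (helicity b / Real.pi + ε) * Real.log (dd f g) + C := by
  obtain ⟨C, hC⟩ := upper0 b hb ε hε
  refine ⟨C, fun f g hfg U hf hg => ?_⟩
  have h := v2_symm (H910.isSym_tr (-f)) b U f g
  have e1 : (H910.trF (-f)) f = 0 := by simp [H910.trF]
  have e2 : (H910.trF (-f)) g = g - f := by simp [H910.trF, sub_eq_add_neg]
  rw [e1, e2] at h
  have e3 : dd 0 (g - f) = dd f g := by
    unfold dd
    simp only [Prod.fst_zero, Prod.snd_zero, Prod.fst_sub, Prod.snd_sub]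
    congr 1 <;> congr 1 <;> ring
  have h1 := hC (g - f) (sub_ne_zero.2 hfg.symm) (U.map (H910.trF (-f)).toEmbedding)
    (by rw [← e1]; exact Finset.mem_map_of_mem _ hf)
    (by rw [← e2]; exact Finset.mem_map_of_mem _ hg)
  rw [h, e3] at h1
  exact h1

/-- **The mean square height difference.** For every `b ≥ bCrit`, up to `ε log` and uniformly in
the domain `U`, the mean square difference of the heights of two faces is `Υ(b) / π` times the
logarithm of their distance. -/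
theorem height_diff (b : ℝ) (hb : bCrit ≤ b) (ε : ℝ) (hε : 0 < ε) : ∃ C : ℝ, ∀ f g : Z2, f ≠ g →
    ∀ U : Finset Z2, bx f (dd f g) ⊆ U → bx g (dd f g) ⊆ U →
      |v2 b U f g - helicity b / Real.pi * Real.log (dd f g)| ≤ ε * Real.log (dd f g) + C := by
  obtain ⟨C1, h1⟩ := lower2 b hb ε hε
  obtain ⟨C2, h2⟩ := upper2 b hb ε hε
  refine ⟨max C1 C2, fun f g hfg U hf hg => ?_⟩
  have a1 := h1 f g hfg U hf hg
  have a2 := h2 f g hfg U (hf (by rw [mem_bx]; omega)) (hg (by rw [mem_bx]; omega))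
  have m1 : C1 ≤ max C1 C2 := le_max_left _ _
  have m2 : C2 ≤ max C1 C2 := le_max_right _ _
  rw [abs_le]
  constructor <;> nlinarith

end Vale.Agent.P159.T1.S.Hv
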