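import Vale.Agent.P159.T1.S.H711.Hv2

/-!
P159: the charges on the layer around a box and the abstract form of the recursion.
-/

open Filter Topology

namespace Vale.Agent.P159.T1.S.Hv

open Vale.Agent.P159 Vale.Agent.P159.T1.D
open Vale.Agent.P159.T1.H910 (dv mem_bd)

variable {b : ℝ} {U W Q Q' : Finset Z2} {φ : Z2 → ℝ}

/-- the gradient near `Q` -/
noncomputable def Bi (Q : Finset Z2) (φ : Z2 → ℝ) (e : Bnd) : ℝ := if e ∈ bd Q then dr φ e else 0

/-- the gradient away from `Q` -/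
noncomputable def Bo (Q : Finset Z2) (φ : Z2 → ℝ) (e : Bnd) : ℝ := dr φ e - Bi Q φ e

/-- the flux out of `Q`, as charges on the layer -/
noncomputable def lam (Q : Finset Z2) (φ : Z2 → ℝ) (f : Z2) : ℝ :=
  if f ∈ Q then 0 else -dv (Bi Q φ) f

lemma dv_sub (B B' : Bnd → ℝ) (f : Z2) : dv (fun e => B e - B' e) f = dv B f - dv B' f := by
  unfold dv; ring

lemma dv_Bi {f : Z2} (hf : f ∈ Q) : dv (Bi Q φ) f = dv (dr φ) f := by
  have h := H910.sides_bd hf
  have h1 : (f, false) ∈ bd Q := h (by simp [sides])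
  have h2 : ((f.1, f.2 + 1), false) ∈ bd Q := h (by simp [sides])
  have h3 : (f, true) ∈ bd Q := h (by simp [sides])
  have h4 : ((f.1 + 1, f.2), true) ∈ bd Q := h (by simp [sides])
  unfold dv Bi
  rw [if_pos h1, if_pos h2, if_pos h3, if_pos h4]

/-- the charges off `Q` -/
noncomputable def off (Q : Finset Z2) (φ : Z2 → ℝ) (f : Z2) : ℝ :=
  if f ∈ Q then 0 else dv (dr φ) f

lemma dv_Bo (Q : Finset Z2) (φ : Z2 → ℝ) (f : Z2) :
    dv (Bo Q φ) f = lam Q φ f + off Q φ f := by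
  have h : dv (Bo Q φ) f = dv (dr φ) f - dv (Bi Q φ) f := dv_sub _ _ f
  rw [h]
  unfold lam off
  by_cases hf : f ∈ Q
  · rw [if_pos hf, if_pos hf, dv_Bi hf]; ring
  · rw [if_neg hf, if_neg hf]; ring

lemma Vr_Bi_le (hb : 0 ≤ b) {E1 : ℝ} (hE : ∑ e ∈ bd Q, dr φ e ^ 2 ≤ E1) {B : Bnd → ℝ}
    (hB : ∀ e, e ∉ bd Q → B e = 0) (hB' : ∀ e, B e ^ 2 ≤ dr φ e ^ 2) (U : Finset Z2) :
    Vr b U B ≤ b * E1 := by
  refine (H910.Vr_le hb U B).trans (mul_le_mul_of_nonneg_left ?_ hb)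
  refine le_trans ?_ hE
  calc ∑ e ∈ bd U, B e ^ 2 ≤ ∑ e ∈ bd U ∪ bd Q, B e ^ 2 :=
        Finset.sum_le_sum_of_subset_of_nonneg Finset.subset_union_left fun _ _ _ => sq_nonneg _
    _ = ∑ e ∈ bd Q, B e ^ 2 := by
        refine (Finset.sum_subset Finset.subset_union_right fun e _ he => ?_).symm
        rw [hB e he]; ring
    _ ≤ _ := Finset.sum_le_sum fun e _ => hB' e

lemma Bi_sq_le (e : Bnd) : Bi Q φ e ^ 2 ≤ dr φ e ^ 2 := by
  unfold Bi
  split_ifs
  · exact le_rfl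
  · rw [zero_pow two_ne_zero]; exact sq_nonneg _

/-- the layer charges carry the variance of the gradient -/
theorem sqrt_lam_ge (hb : 0 ≤ b) {E1 R : ℝ} (hE : ∑ e ∈ bd Q, dr φ e ^ 2 ≤ E1)
    (hR : V b U (off Q φ) ≤ b * R) :
    Real.sqrt (Vr b U (dr φ)) ≤ Real.sqrt (V b U (lam Q φ)) + (Real.sqrt (b * E1) +
      Real.sqrt (b * R)) := by
  have h1 : Real.sqrt (Vr b U (dr φ)) ≤ Real.sqrt (Vr b U (Bo Q φ)) +
      Real.sqrt (Vr b U (Bi Q φ)) := by
    have h := H469.sqrt_Vr_add hb U (Bo Q φ) (Bi Q φ)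
    have e : (fun e => Bo Q φ e + Bi Q φ e) = dr φ := by
      funext e; unfold Bo; ring
    rwa [e] at h
  have h2 : Real.sqrt (Vr b U (Bi Q φ)) ≤ Real.sqrt (b * E1) := by
    refine Real.sqrt_le_sqrt (Vr_Bi_le hb hE (fun e he => ?_) Bi_sq_le U)
    unfold Bi
    rw [if_neg he]
  have h3 : Vr b U (Bo Q φ) = V b U (fun f => lam Q φ f + off Q φ f) :=
    Vr_of_div (fun f _ => dv_Bo Q φ f) b
  have h4 : Real.sqrt (Vr b U (Bo Q φ)) ≤ Real.sqrt (V b U (lam Q φ)) +
      Real.sqrt (V b U (off Q φ)) := by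
    rw [h3]; exact sqrt_add hb _ _
  have h5 : Real.sqrt (V b U (off Q φ)) ≤ Real.sqrt (b * R) := Real.sqrt_le_sqrt hR
  linarith

/-- the difference of the charges on two layers -/
theorem sqrt_lam_sub (hb : 0 ≤ b) (hQ : Q ⊆ Q') {E1 R : ℝ} (hE : ∑ e ∈ bd Q', dr φ e ^ 2 ≤ E1)
    (hR : V b U (fun f => off Q φ f - off Q' φ f) ≤ b * R) :
    Real.sqrt (V b U fun f => lam Q φ f - lam Q' φ f) ≤ Real.sqrt (b * E1) +
      Real.sqrt (b * R) := by
  set B : Bnd → ℝ := fun e => Bi Q' φ e - Bi Q φ e with hB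
  have hbd : bd Q ⊆ bd Q' := H910.bd_mono hQ
  have h1 : IsDiv U B (fun f => (lam Q φ f - lam Q' φ f) + (off Q φ f - off Q' φ f)) := by
    intro f _
    have e1 := dv_Bo Q φ f
    have e2 := dv_Bo Q' φ f
    have e3 : B = fun e => Bo Q φ e - Bo Q' φ e := by
      funext e; simp only [hB]; unfold Bo; ring
    have e4 : dv B f = dv (Bo Q φ) f - dv (Bo Q' φ) f := by rw [e3]; exact dv_sub _ _ f
    show dv B f = _
    rw [e4, e1, e2]; ring
  have h2 : Vr b U B ≤ b * E1 := by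
    refine Vr_Bi_le hb hE (fun e he => ?_) (fun e => ?_) U
    · simp only [hB]; unfold Bi
      rw [if_neg he, if_neg fun h => he (hbd h)]; ring
    · simp only [hB]; unfold Bi
      by_cases h3 : e ∈ bd Q
      · rw [if_pos h3, if_pos (hbd h3), sub_self]
        rw [zero_pow two_ne_zero]; exact sq_nonneg _
      · rw [if_neg h3, sub_zero]
        split_ifs
        · exact le_rfl
        · rw [zero_pow two_ne_zero]; exact sq_nonneg _
  have h3 := sqrt_add (U := U) hb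
    (fun f => (lam Q φ f - lam Q' φ f) + (off Q φ f - off Q' φ f))
    (fun f => -1 * (off Q φ f - off Q' φ f))
  have e5 : (fun f => (lam Q φ f - lam Q' φ f) + (off Q φ f - off Q' φ f) +
      -1 * (off Q φ f - off Q' φ f)) = fun f => lam Q φ f - lam Q' φ f := by
    funext f; ring
  rw [e5, V_smul, ← Vr_of_div h1] at h3
  have h4 : Real.sqrt (Vr b U B) ≤ Real.sqrt (b * E1) := Real.sqrt_le_sqrt h2
  have h5 : Real.sqrt ((-1) ^ 2 * V b U fun f => off Q φ f - off Q' φ f) ≤ Real.sqrt (b * R) := by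
    refine Real.sqrt_le_sqrt ?_
    rw [neg_one_sq, one_mul]; exact hR
  linarith

/-- charges in a box: they can be moved to the boundary along the rows -/
theorem dump (hb : 0 ≤ b) (N : ℕ) (ρ : Z2 → ℝ) :
    V b (bx 0 N) ρ ≤ b * ((2 * N + 2) ^ 2 * ∑ f ∈ bx 0 N, ρ f ^ 2) := by
  classical
  refine (V_le hb (H469.isDiv_lft (bx 0 N) ρ)).trans (mul_le_mul_of_nonneg_left ?_ hb)
  -- the flow through a vertical bond
  have hcard : ∀ j : ℤ, (((bx 0 N).filter fun f => f.2 = j).card : ℝ) ≤ 2 * N + 1 := by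
    intro j
    have h1 : ((bx 0 N).filter fun f => f.2 = j) ⊆
        (Finset.Icc (-(N : ℤ)) N).image fun i => (i, j) := by
      intro f hf
      rw [Finset.mem_filter, mem_bx0] at hf
      rw [Finset.mem_image]
      exact ⟨f.1, Finset.mem_Icc.2 hf.1.1, by rw [← hf.2]⟩
    have h2 := (Finset.card_le_card h1).trans Finset.card_image_le
    rw [Int.card_Icc] at h2
    have h3 : ((N : ℤ) + 1 - -(N : ℤ)).toNat = 2 * N + 1 := by omega
    rw [h3] at h2
    exact_mod_cast h2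
  have hrow : ∀ P : Z2, H469.lft (bx 0 N) ρ (P, true) ^ 2 ≤
      (2 * N + 1) * ∑ f ∈ (bx 0 N).filter (fun f => f.2 = P.2), ρ f ^ 2 := by
    intro P
    unfold H469.lft
    simp only [if_true]
    rw [neg_sq]
    refine sq_sum_le_card_mul_sum_sq.trans ?_
    have hsub : ((bx 0 N).filter fun f => P.1 ≤ f.1 ∧ f.2 = P.2) ⊆
        (bx 0 N).filter fun f => f.2 = P.2 := by
      intro f hf
      rw [Finset.mem_filter] at hf ⊢
      exact ⟨hf.1, hf.2.2⟩
    refine mul_le_mul ?_ ?_ (Finset.sum_nonneg fun _ _ => sq_nonneg _) (by positivity)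
    · refine le_trans ?_ (hcard P.2)
      exact_mod_cast Finset.card_le_card hsub
    · exact Finset.sum_le_sum_of_subset_of_nonneg hsub fun _ _ _ => sq_nonneg _
  -- the vertical bonds
  set I : Finset Z2 := Finset.Icc (-(N : ℤ)) (N + 1) ×ˢ Finset.Icc (-(N : ℤ)) N with hI
  have hbd : ∀ e ∈ bd (bx 0 N), e.2 = true → e.1 ∈ I := by
    intro e he h2
    rw [mem_bd] at he
    obtain ⟨⟨i, j⟩, d⟩ := e
    simp only at h2
    subst h2
    simp only [rt, lf, if_true, mem_bx0] at he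
    rw [hI, Finset.mem_product, Finset.mem_Icc, Finset.mem_Icc]
    simp only
    omega
  calc ∑ e ∈ bd (bx 0 N), H469.lft (bx 0 N) ρ e ^ 2
      ≤ ∑ e ∈ I ×ˢ ({true} : Finset Bool), H469.lft (bx 0 N) ρ e ^ 2 := by
        rw [← Finset.sum_filter_add_sum_filter_not (bd (bx 0 N)) (fun e => e.2 = true)]
        have h0 : ∑ e ∈ (bd (bx 0 N)).filter (fun e => ¬ e.2 = true),
            H469.lft (bx 0 N) ρ e ^ 2 = 0 := by
          refine Finset.sum_eq_zero fun e he => ?_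
          rw [Finset.mem_filter] at he
          unfold H469.lft
          rw [if_neg he.2, zero_pow two_ne_zero]
        rw [h0, add_zero]
        refine Finset.sum_le_sum_of_subset_of_nonneg (fun e he => ?_) fun _ _ _ => sq_nonneg _
        rw [Finset.mem_filter] at he
        rw [Finset.mem_product, Finset.mem_singleton]
        exact ⟨hbd e he.1 he.2, he.2⟩
    _ = ∑ P ∈ I, H469.lft (bx 0 N) ρ (P, true) ^ 2 := by
        rw [Finset.sum_product]
        simp
    _ ≤ ∑ P ∈ I, (2 * N + 1) * ∑ f ∈ (bx 0 N).filter (fun f => f.2 = P.2), ρ f ^ 2 :=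
        Finset.sum_le_sum fun P _ => hrow P
    _ = (2 * N + 1) * ((2 * N + 2) * ∑ j ∈ Finset.Icc (-(N : ℤ)) N,
          ∑ f ∈ (bx 0 N).filter (fun f => f.2 = j), ρ f ^ 2) := by
        rw [← Finset.mul_sum, hI, Finset.sum_product]
        simp only
        rw [Finset.sum_const, Int.card_Icc, nsmul_eq_mul]
        have : ((N : ℤ) + 1 + 1 - -(N : ℤ)).toNat = 2 * N + 2 := by omega
        rw [this]
        push_cast
        ring
    _ = (2 * N + 1) * ((2 * N + 2) * ∑ f ∈ bx 0 N, ρ f ^ 2) := by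
        rw [Finset.sum_fiberwise_of_maps_to]
        intro f hf
        rw [mem_bx0] at hf
        exact Finset.mem_Icc.2 hf.2
    _ ≤ _ := by
        have h1 : 0 ≤ ∑ f ∈ bx 0 N, ρ f ^ 2 := Finset.sum_nonneg fun _ _ => sq_nonneg _
        have h2 : (0 : ℝ) ≤ N := Nat.cast_nonneg N
        nlinarith [mul_nonneg h2 h1]

/-- the layer charges live next to the box -/
lemma lam_far {a : ℕ} {f : Z2} (hf : f ∉ bx 0 (a + 1)) : lam (bx 0 a) φ f = 0 := by
  have h0 : f ∉ bx 0 a := fun h => hf (by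
    rw [mem_bx0] at h ⊢; push_cast; omega)
  have key : ∀ e ∈ sides f, e ∉ bd (bx 0 a) := by
    intro e he hbd
    apply hf
    rw [mem_bd, mem_bx0, mem_bx0] at hbd
    rw [mem_bx0]
    obtain ⟨i, j⟩ := f
    simp only [sides, Finset.mem_insert, Finset.mem_singleton] at he
    push_cast
    rcases he with rfl | rfl | rfl | rfl <;> simp [rt, lf] at hbd ⊢ <;> omega
  unfold lam
  rw [if_neg h0]
  unfold dv Bi
  rw [if_neg (key _ (by simp [sides])), if_neg (key _ (by simp [sides])),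
    if_neg (key _ (by simp [sides])), if_neg (key _ (by simp [sides]))]
  ring

/-- **the recursion, abstract form** -/
theorem lower (hb : 0 ≤ b) {a N : ℕ} (haN : 2 * (a + 1) ≤ N) {E1 R M L C : ℝ}
    (hE : ∑ e ∈ bd (bx 0 (2 * (a + 1))), dr φ e ^ 2 ≤ E1)
    (hR : (2 * (N : ℝ) + 2) ^ 2 * ∑ f ∈ (bx 0 N) \ (bx 0 a), dv (dr φ) f ^ 2 ≤ R)
    (hM : ∑ f ∈ (bx 0 (a + 1)) \ (bx 0 a), lam (bx 0 a) φ f = M) (hM0 : 0 < M)
    (hlam : ∀ f ∈ (bx 0 (a + 1)) \ (bx 0 a), 0 ≤ lam (bx 0 a) φ f)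
    (hC : Real.sqrt (b * E1) + Real.sqrt (b * R) = C) (hCL : C ≤ Real.sqrt L)
    (hL : L ≤ Vr b (bx 0 N) (dr φ)) :
    vn b (a + 1) + ((Real.sqrt L - C) ^ 2 - C ^ 2) / M ^ 2 ≤ vn b (N + (a + 1)) := by
  classical
  set Q := bx 0 a with hQ
  set Q' := bx 0 (2 * (a + 1)) with hQ'
  set U := bx 0 N with hU
  have hQQ' : Q ⊆ Q' := by
    intro f hf
    rw [hQ, mem_bx0] at hf
    rw [hQ', mem_bx0]
    push_cast; omega
  have hoff : ∀ g : Z2 → ℝ, (∀ f, g f = 0 ∨ (f ∉ Q ∧ g f = dv (dr φ) f)) → V b U g ≤ b * R := by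
    intro g hg
    refine (dump hb N g).trans (mul_le_mul_of_nonneg_left (le_trans ?_ hR) hb)
    refine mul_le_mul_of_nonneg_left ?_ (by positivity)
    calc ∑ f ∈ bx 0 N, g f ^ 2 = ∑ f ∈ bx 0 N \ Q, g f ^ 2 := by
          refine (Finset.sum_subset Finset.sdiff_subset fun f hf hf' => ?_).symm
          rcases hg f with h | h
          · rw [h]; ring
          · exact absurd (Finset.mem_sdiff.2 ⟨hf, h.1⟩) hf'
      _ ≤ _ := Finset.sum_le_sum fun f _ => by
          rcases hg f with h | h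
          · rw [h, zero_pow two_ne_zero]; exact sq_nonneg _
          · rw [h.2]
  have hR1 : V b U (off Q φ) ≤ b * R := hoff _ fun f => by
    unfold off
    by_cases h : f ∈ Q
    · left; rw [if_pos h]
    · right; rw [if_neg h]; exact ⟨h, rfl⟩
  have hR2 : V b U (fun f => off Q φ f - off Q' φ f) ≤ b * R := hoff _ fun f => by
    unfold off
    by_cases h : f ∈ Q'
    · by_cases h' : f ∈ Q
      · left; rw [if_pos h, if_pos h', sub_self]
      · right; rw [if_pos h, if_neg h', sub_zero]; exact ⟨h', rfl⟩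
    · left; rw [if_neg h, if_neg fun h' => h (hQQ' h'), sub_self]
  have hE' : ∑ e ∈ bd Q, dr φ e ^ 2 ≤ E1 :=
    (Finset.sum_le_sum_of_subset_of_nonneg (H910.bd_mono hQQ') fun _ _ _ => sq_nonneg _).trans hE
  have k1 := sqrt_lam_ge (U := U) hb hE' hR1
  have k2 := sqrt_lam_sub (U := U) hb hQQ' hE hR2
  rw [hC] at k1 k2
  have k3 : Real.sqrt L ≤ Real.sqrt (Vr b U (dr φ)) := Real.sqrt_le_sqrt hL
  have hC0 : 0 ≤ C := by rw [← hC]; positivity
  -- the weights
  set A := bx 0 (a + 1) \ Q with hA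
  have e1 : (fun f => if f ∈ A then lam Q φ f / M else 0) = fun f => M⁻¹ * lam Q φ f := by
    funext f
    by_cases h : f ∈ A
    · rw [if_pos h]; ring
    · rw [if_neg h]
      have : lam Q φ f = 0 := by
        by_cases h1 : f ∈ Q
        · unfold lam; rw [if_pos h1]
        · exact lam_far fun h2 => h (Finset.mem_sdiff.2 ⟨h2, h1⟩)
      rw [this, mul_zero]
  have h := step (b := b) hb haN (A := A) Finset.sdiff_subset (w := fun f => lam Q φ f / M)
    (fun x hx => div_nonneg (hlam x hx) hM0.le)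
    (by rw [← Finset.sum_div, hM, div_self hM0.ne']) (κ := fun f => M⁻¹ * lam Q' φ f)
    (fun f hf => by unfold lam; rw [if_pos hf, mul_zero])
  have e2 : (fun f => (if f ∈ A then lam Q φ f / M else 0) - M⁻¹ * lam Q' φ f) =
      fun f => M⁻¹ * (lam Q φ f - lam Q' φ f) := by
    funext f
    have := congrFun e1 f
    rw [this]; ring
  rw [e2, e1, V_smul, V_smul] at h
  have h1 : (Real.sqrt L - C) ^ 2 ≤ V b U (lam Q φ) := by
    have h2 : Real.sqrt L - C ≤ Real.sqrt (V b U (lam Q φ)) := by linarith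
    calc (Real.sqrt L - C) ^ 2 ≤ Real.sqrt (V b U (lam Q φ)) ^ 2 :=
          pow_le_pow_left₀ (by linarith) h2 2
      _ = _ := Real.sq_sqrt (V_nonneg hb U _)
  have h2 : V b U (fun f => lam Q φ f - lam Q' φ f) ≤ C ^ 2 := by
    calc V b U (fun f => lam Q φ f - lam Q' φ f)
        = Real.sqrt (V b U fun f => lam Q φ f - lam Q' φ f) ^ 2 :=
          (Real.sq_sqrt (V_nonneg hb U _)).symm
      _ ≤ C ^ 2 := pow_le_pow_left₀ (Real.sqrt_nonneg _) k2 2
  have h3 : ((Real.sqrt L - C) ^ 2 - C ^ 2) / M ^ 2 ≤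
      M⁻¹ ^ 2 * V b U (lam Q φ) - M⁻¹ ^ 2 * V b U (fun f => lam Q φ f - lam Q' φ f) := by
    rw [← mul_sub, div_eq_inv_mul, inv_pow]
    exact mul_le_mul_of_nonneg_left (by linarith) (by positivity)
  linarith

end Vale.Agent.P159.T1.S.Hv
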