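import Vale.Agent.P159.T1.D.H414.PolE
import Vale.Agent.P159.T1.D.H634.PolInt
import Vale.Agent.P159.T1.S.H711.Hv3

/-!
P159: the radial test function of the lower bound.
-/

open Filter Topology MeasureTheory Set

namespace Vale.Agent.P159.T1.S.Hv

open Vale.Agent.P159 Vale.Agent.P159.T1.D

/-- the radial profile -/
structure Eta (C p : ℝ) (η Γ : ℝ → ℝ) : Prop where
  cη : ContDiff ℝ ((⊤ : ℕ∞) : WithTop ℕ∞) η
  cΓ : ContDiff ℝ ((⊤ : ℕ∞) : WithTop ℕ∞) Γ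
  der : ∀ τ, HasDerivAt Γ (η τ) τ
  one : ∀ τ, 2 ≤ τ → τ ≤ p - 2 → η τ = 1
  bd : ∀ τ, 0 ≤ η τ ∧ η τ ≤ 1
  dbd : ∀ τ, |deriv η τ| ≤ C
  int : p - 4 ≤ ∫ τ, η τ ^ 2
  low : ∀ τ, τ ≤ 1 → Γ τ = 0
  high : ∀ τ, p - 1 ≤ τ → Γ τ = Γ (p - 1)
  ltη : ∀ τ, τ < 1 → η τ = 0
  gtη : ∀ τ, p - 1 < τ → η τ = 0

theorem exists_Eta : ∃ C : ℝ, 0 < C ∧ ∀ p : ℝ, 4 ≤ p → ∃ η Γ : ℝ → ℝ, Eta C p η Γ := by
  obtain ⟨C, hC, h⟩ := H414.exists_eta
  refine ⟨C, hC, fun p hp => ?_⟩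
  obtain ⟨η, Γ, h1, h2, h3, h4, h5, h6, h7, _, h9, _, _, _, h13, h14⟩ := h 1 p one_pos hp
  simp only [mul_one, div_one] at h4 h5 h7 h9 h14
  refine ⟨η, Γ, h1, h2, h3, h5, h6, h7, h9, h13, h14, fun τ hτ => ?_, fun τ hτ => ?_⟩
  · exact image_eq_zero_of_notMem_tsupport fun h => absurd (h4 h).1 (not_le.2 hτ)
  · exact image_eq_zero_of_notMem_tsupport fun h => absurd (h4 h).2 (not_le.2 hτ)

/-- the profile as a function of the square of the radius -/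
noncomputable def Fp (p : ℝ) (Γ : ℝ → ℝ) (s : ℝ) : ℝ :=
  if s ≤ 0 then Γ (p - 1) else Γ (p - 1) - Γ (Real.log s / 2 + p)

variable {C p : ℝ} {η Γ : ℝ → ℝ}

lemma Fp_pos {s : ℝ} (hs : 0 < s) : Fp p Γ s = Γ (p - 1) - Γ (Real.log s / 2 + p) := by
  unfold Fp; rw [if_neg (not_le.2 hs)]

lemma Fp_small (h : Eta C p η Γ) {s : ℝ} (hs : s < Real.exp (2 * (1 - p))) :
    Fp p Γ s = Γ (p - 1) := by
  unfold Fp
  split_ifs with h0
  · rfl
  · push Not at h0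
    have h1 : Real.log s < 2 * (1 - p) := (Real.log_lt_iff_lt_exp h0).2 hs
    rw [h.low (Real.log s / 2 + p) (by linarith), sub_zero]

lemma Fp_large (h : Eta C p η Γ) {s : ℝ} (hs : Real.exp (-2) ≤ s) : Fp p Γ s = 0 := by
  have h0 : 0 < s := (Real.exp_pos _).trans_le hs
  have h1 : -2 ≤ Real.log s := (Real.le_log_iff_exp_le h0).2 hs
  rw [Fp_pos h0, h.high (Real.log s / 2 + p) (by linarith), sub_self]

lemma Fp_mid (h : Eta C p η Γ) {s t : ℝ} (hs0 : Real.exp (2 * (2 - p)) ≤ s)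
    (hs1 : s ≤ Real.exp (-4)) (ht0 : Real.exp (2 * (2 - p)) ≤ t) (ht1 : t ≤ Real.exp (-4)) :
    Fp p Γ s - Fp p Γ t = Real.log t / 2 - Real.log s / 2 := by
  have key : ∀ r : ℝ, Real.exp (2 * (2 - p)) ≤ r → r ≤ Real.exp (-4) →
      0 < r ∧ 2 ≤ Real.log r / 2 + p ∧ Real.log r / 2 + p ≤ p - 2 := by
    intro r h1 h2
    have h0 : 0 < r := (Real.exp_pos _).trans_le h1
    have h3 : 2 * (2 - p) ≤ Real.log r := (Real.le_log_iff_exp_le h0).2 h1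
    have h4 : Real.log r ≤ -4 := (Real.log_le_iff_le_exp h0).2 h2
    exact ⟨h0, by linarith, by linarith⟩
  obtain ⟨s0, s1, s2⟩ := key s hs0 hs1
  obtain ⟨t0, t1, t2⟩ := key t ht0 ht1
  rw [Fp_pos s0, Fp_pos t0]
  -- `Γ τ - τ` is constant on `[2, p - 2]`
  have hd : ∀ τ ∈ Icc (2 : ℝ) (p - 2), HasDerivWithinAt (fun τ => Γ τ - τ) 0 (Icc 2 (p - 2)) τ := by
    intro τ hτ
    have h1 := ((h.der τ).sub (hasDerivAt_id τ)).hasDerivWithinAt (s := Icc 2 (p - 2))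
    rw [h.one τ hτ.1 hτ.2, sub_self] at h1
    exact h1
  have h1 := (convex_Icc (2 : ℝ) (p - 2)).norm_image_sub_le_of_norm_hasDerivWithin_le (C := 0)
    hd (fun τ _ => by rw [norm_zero]) ⟨s1, s2⟩ ⟨t1, t2⟩
  rw [zero_mul] at h1
  have h2 := norm_le_zero_iff.1 h1
  linarith

lemma Fp_contDiff (h : Eta C p η Γ) : ContDiff ℝ ((⊤ : ℕ∞) : WithTop ℕ∞) (Fp p Γ) := by
  rw [contDiff_iff_contDiffAt]
  intro s
  by_cases hs : s < Real.exp (2 * (1 - p))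
  · refine (contDiffAt_const (c := Γ (p - 1))).congr_of_eventuallyEq ?_
    filter_upwards [Iio_mem_nhds hs] with t ht using Fp_small h ht
  · push Not at hs
    have h0 : 0 < s := (Real.exp_pos _).trans_le hs
    have h1 : ContDiffAt ℝ ((⊤ : ℕ∞) : WithTop ℕ∞) (fun s => Γ (p - 1) - Γ (Real.log s / 2 + p)) s := by
      refine contDiffAt_const.sub (h.cΓ.contDiffAt.comp s ?_)
      exact ((Real.contDiffAt_log.2 h0.ne').div_const 2).add contDiffAt_const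
    refine h1.congr_of_eventuallyEq ?_
    filter_upwards [Ioi_mem_nhds h0] with t ht using Fp_pos ht

lemma Fp_der (h : Eta C p η Γ) {s : ℝ} (hs : 0 ≤ s) :
    HasDerivAt (Fp p Γ) (-(η (Real.log s / 2 + p)) / (2 * s)) s := by
  rcases hs.eq_or_lt with rfl | hs
  · have h1 : Fp p Γ =ᶠ[𝓝 0] fun _ => Γ (p - 1) := by
      filter_upwards [Iio_mem_nhds (Real.exp_pos (2 * (1 - p)))] with t ht using Fp_small h ht
    simp only [mul_zero, div_zero]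
    exact (hasDerivAt_const (0 : ℝ) (Γ (p - 1))).congr_of_eventuallyEq h1
  · have h1 : Fp p Γ =ᶠ[𝓝 s] fun s => Γ (p - 1) - Γ (Real.log s / 2 + p) := by
      filter_upwards [Ioi_mem_nhds hs] with t ht using Fp_pos ht
    have h2 : HasDerivAt (fun s => Real.log s / 2 + p) (s⁻¹ / 2) s :=
      ((Real.hasDerivAt_log hs.ne').div_const 2).add_const p
    have h3 := ((h.der (Real.log s / 2 + p)).comp s h2).const_sub (Γ (p - 1))
    have h4 := h3.congr_of_eventuallyEq h1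
    have e : -(η (Real.log s / 2 + p) * (s⁻¹ / 2)) = -(η (Real.log s / 2 + p)) / (2 * s) := by
      field_simp
    rw [e] at h4
    exact h4

/-- the first derivative -/
noncomputable def F1 (p : ℝ) (Γ : ℝ → ℝ) : ℝ → ℝ := deriv (Fp p Γ)

/-- the second derivative -/
noncomputable def F2 (p : ℝ) (Γ : ℝ → ℝ) : ℝ → ℝ := deriv (F1 p Γ)

lemma F1_contDiff (h : Eta C p η Γ) : ContDiff ℝ ((⊤ : ℕ∞) : WithTop ℕ∞) (F1 p Γ) := by
  have := Fp_contDiff h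
  rw [contDiff_infty_iff_deriv] at this
  exact this.2

lemma F2_contDiff (h : Eta C p η Γ) : ContDiff ℝ ((⊤ : ℕ∞) : WithTop ℕ∞) (F2 p Γ) := by
  have := F1_contDiff h
  rw [contDiff_infty_iff_deriv] at this
  exact this.2

lemma hF1 (h : Eta C p η Γ) (s : ℝ) : HasDerivAt (Fp p Γ) (F1 p Γ s) s := by
  have := Fp_contDiff h
  rw [contDiff_infty_iff_deriv] at this
  exact (this.1 s).hasDerivAt

lemma hF2 (h : Eta C p η Γ) (s : ℝ) : HasDerivAt (F1 p Γ) (F2 p Γ s) s := by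
  have := F1_contDiff h
  rw [contDiff_infty_iff_deriv] at this
  exact (this.1 s).hasDerivAt

lemma F1_eq (h : Eta C p η Γ) {s : ℝ} (hs : 0 ≤ s) :
    F1 p Γ s = -(η (Real.log s / 2 + p)) / (2 * s) := (Fp_der h hs).deriv

lemma F2_eq (h : Eta C p η Γ) {s : ℝ} (hs : 0 < s) :
    F2 p Γ s = -(deriv η (Real.log s / 2 + p)) / (4 * s ^ 2) +
      η (Real.log s / 2 + p) / (2 * s ^ 2) := by
  have h1 : F1 p Γ =ᶠ[𝓝 s] fun s => -(η (Real.log s / 2 + p)) / (2 * s) := by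
    filter_upwards [Ioi_mem_nhds hs] with t ht using F1_eq h (le_of_lt ht)
  have h2 : HasDerivAt (fun s => Real.log s / 2 + p) (s⁻¹ / 2) s :=
    ((Real.hasDerivAt_log hs.ne').div_const 2).add_const p
  have hη : HasDerivAt η (deriv η (Real.log s / 2 + p)) (Real.log s / 2 + p) := by
    have := h.cη
    rw [contDiff_infty_iff_deriv] at this
    exact (this.1 _).hasDerivAt
  have h3 := (hη.comp s h2).neg.div ((hasDerivAt_id s).const_mul 2) (by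
    simp only [id]; positivity)
  have h4 := h3.congr_of_eventuallyEq h1
  unfold F2
  rw [h4.deriv]
  show (-(deriv η (Real.log s / 2 + p) * (s⁻¹ / 2)) * (2 * s) -
    (-(η (Real.log s / 2 + p))) * (2 * 1)) / (2 * s) ^ 2 = _
  field_simp
  ring

lemma F1_large (h : Eta C p η Γ) {s : ℝ} (hs : Real.exp (-2) < s) : F1 p Γ s = 0 := by
  have h1 : Fp p Γ =ᶠ[𝓝 s] fun _ => 0 := by
    filter_upwards [Ioi_mem_nhds hs] with t ht using Fp_large h (le_of_lt ht)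
  unfold F1
  rw [h1.deriv_eq]
  simp

lemma F2_large (h : Eta C p η Γ) {s : ℝ} (hs : Real.exp (-2) < s) : F2 p Γ s = 0 := by
  have h1 : F1 p Γ =ᶠ[𝓝 s] fun _ => 0 := by
    filter_upwards [Ioi_mem_nhds hs] with t ht using F1_large h ht
  unfold F2
  rw [h1.deriv_eq]
  simp

/-- gradient bound -/
lemma F1_bound (h : Eta C p η Γ) (x y : ℝ) :
    |2 * x * F1 p Γ (x ^ 2 + y ^ 2)| ≤ Real.exp (p - 1) := by
  have hs : 0 ≤ x ^ 2 + y ^ 2 := by positivity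
  by_cases h0 : F1 p Γ (x ^ 2 + y ^ 2) = 0
  · rw [h0, mul_zero, abs_zero]; exact (Real.exp_pos _).le
  rcases hs.eq_or_lt with hs | hs
  · exfalso
    apply h0
    rw [F1_eq h (le_of_eq hs), ← hs]
    simp
  rw [F1_eq h hs.le] at h0 ⊢
  have h1 : 1 ≤ Real.log (x ^ 2 + y ^ 2) / 2 + p := by
    by_contra hc
    push Not at hc
    apply h0
    rw [h.ltη _ hc]
    simp
  have h2 : Real.exp (2 * (1 - p)) ≤ x ^ 2 + y ^ 2 :=
    (Real.le_log_iff_exp_le hs).1 (by linarith)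
  have h3 : Real.exp (2 * (1 - p)) = Real.exp (1 - p) ^ 2 := by
    rw [← Real.exp_nat_mul]; norm_num
  have h4 : Real.exp (1 - p) ≤ Real.sqrt (x ^ 2 + y ^ 2) := by
    rw [h3] at h2
    exact Real.le_sqrt_of_sq_le h2
  have h5 : |x| ≤ Real.sqrt (x ^ 2 + y ^ 2) := by
    rw [← Real.sqrt_sq_eq_abs]; exact Real.sqrt_le_sqrt (by nlinarith [sq_nonneg y])
  have h6 := h.bd (Real.log (x ^ 2 + y ^ 2) / 2 + p)
  set r := Real.sqrt (x ^ 2 + y ^ 2) with hr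
  have hr0 : 0 < r := (Real.exp_pos _).trans_le h4
  have hr2 : x ^ 2 + y ^ 2 = r ^ 2 := (Real.sq_sqrt hs.le).symm
  have e1 : 2 * x * (-(η (Real.log (x ^ 2 + y ^ 2) / 2 + p)) / (2 * (x ^ 2 + y ^ 2))) =
      -(x * η (Real.log (x ^ 2 + y ^ 2) / 2 + p) / r ^ 2) := by
    rw [← hr2]; field_simp
  rw [e1, abs_neg, abs_div, abs_mul, abs_of_nonneg h6.1, abs_of_pos (by positivity : 0 < r ^ 2)]
  have e2 : Real.exp (p - 1) = (Real.exp (1 - p))⁻¹ := by rw [← Real.exp_neg]; congr 1; ring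
  calc |x| * η (Real.log (x ^ 2 + y ^ 2) / 2 + p) / r ^ 2 ≤ r * 1 / r ^ 2 :=
        div_le_div_of_nonneg_right (mul_le_mul h5 h6.2 h6.1 hr0.le) (by positivity)
    _ = r⁻¹ := by field_simp
    _ ≤ (Real.exp (1 - p))⁻¹ := inv_anti₀ (Real.exp_pos _) h4
    _ = _ := e2.symm

/-- the second derivative in the direction of `x` -/
noncomputable def Hs (p : ℝ) (Γ : ℝ → ℝ) (z : ℝ × ℝ) : ℝ :=
  4 * z.1 ^ 2 * F2 p Γ (z.1 ^ 2 + z.2 ^ 2) + 2 * F1 p Γ (z.1 ^ 2 + z.2 ^ 2)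

lemma Hs_unif (h : Eta C p η Γ) : UniformContinuous (Hs p Γ) := by
  have c1 := (F1_contDiff h).continuous
  have c2 := (F2_contDiff h).continuous
  refine HasCompactSupport.uniformContinuous_of_continuous ?_ ?_
  · refine HasCompactSupport.intro (isCompact_closedBall (0 : ℝ × ℝ) 1) fun z hz => ?_
    rw [mem_closedBall_zero_iff, not_le, Prod.norm_def, lt_max_iff, Real.norm_eq_abs,
      Real.norm_eq_abs] at hz
    have hs : 1 < z.1 ^ 2 + z.2 ^ 2 := by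
      rcases hz with hz | hz
      · have : 1 < z.1 ^ 2 := by rw [← sq_abs]; nlinarith
        nlinarith [sq_nonneg z.2]
      · have : 1 < z.2 ^ 2 := by rw [← sq_abs]; nlinarith
        nlinarith [sq_nonneg z.1]
    have he : Real.exp (-2) < z.1 ^ 2 + z.2 ^ 2 :=
      (by rw [← Real.exp_zero]; exact Real.exp_lt_exp.2 (by norm_num) :
        Real.exp (-2) < 1).trans hs
    unfold Hs
    rw [F1_large h he, F2_large h he]
    ring
  · unfold Hs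
    fun_prop

/-- the Laplacian -/
lemma Hs_add (h : Eta C p η Γ) {x y : ℝ} (hs : 0 < x ^ 2 + y ^ 2) :
    Hs p Γ (x, y) + Hs p Γ (y, x) =
      -(deriv η (Real.log (x ^ 2 + y ^ 2) / 2 + p)) / (x ^ 2 + y ^ 2) := by
  unfold Hs
  simp only
  rw [add_comm (y ^ 2) (x ^ 2), F1_eq h hs.le, F2_eq h hs]
  have := hs.ne'
  field_simp
  ring

/-- the Laplacian is bounded away from the origin -/
lemma lap_bound (h : Eta C p η Γ) {x y : ℝ} (hs : Real.exp (2 * (2 - p)) < x ^ 2 + y ^ 2) :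
    |Hs p Γ (x, y) + Hs p Γ (y, x)| ≤ C * Real.exp 4 := by
  have h0 : 0 < x ^ 2 + y ^ 2 := (Real.exp_pos _).trans hs
  rw [Hs_add h h0, abs_div, abs_neg, abs_of_pos h0]
  set s := x ^ 2 + y ^ 2
  have hC := h.dbd (Real.log s / 2 + p)
  have hC0 : 0 ≤ C := (abs_nonneg _).trans hC
  by_cases h1 : s < Real.exp (-4)
  · have h2 : 2 * (2 - p) < Real.log s := (Real.lt_log_iff_exp_lt h0).2 hs
    have h3 : Real.log s < -4 := (Real.log_lt_iff_lt_exp h0).2 h1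
    have h4 : η =ᶠ[𝓝 (Real.log s / 2 + p)] fun _ => 1 := by
      have a1 : 2 < Real.log s / 2 + p := by linarith
      have a2 : Real.log s / 2 + p < p - 2 := by linarith
      filter_upwards [Ioi_mem_nhds a1, Iio_mem_nhds a2] with t ht ht'
      exact h.one t (le_of_lt ht) (le_of_lt ht')
    rw [h4.deriv_eq]
    simp only [deriv_const, abs_zero, zero_div]
    positivity
  · push Not at h1
    rw [div_le_iff₀ h0]
    calc |deriv η (Real.log s / 2 + p)| ≤ C := hC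
      _ = C * (Real.exp 4 * Real.exp (-4)) := by rw [← Real.exp_add]; norm_num
      _ ≤ C * (Real.exp 4 * s) := by gcongr
      _ = _ := by ring

/-! ### second differences -/

lemma sdiff {g g1 g2 : ℝ → ℝ} (h1 : ∀ t, HasDerivAt g (g1 t) t) (h2 : ∀ t, HasDerivAt g1 (g2 t) t)
    {k δ : ℝ} (hk : 0 ≤ k) (hδ : ∀ t, |t| ≤ k → |g2 t - g2 0| ≤ δ) :
    |g k + g (-k) - 2 * g 0 - k ^ 2 * g2 0| ≤ 2 * δ * k ^ 2 := by
  have hδ0 : 0 ≤ δ := (abs_nonneg _).trans (hδ 0 (by rw [abs_zero]; exact hk))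
  -- first derivative
  have key : ∀ t ∈ Icc (0 : ℝ) k, |g1 t - g1 (-t) - 2 * t * g2 0| ≤ 2 * k * δ := by
    intro t ht
    have hd : ∀ s ∈ Icc (-t) t, HasDerivWithinAt (fun s => g1 s - s * g2 0) (g2 s - 1 * g2 0)
        (Icc (-t) t) s := fun s _ =>
      ((h2 s).sub ((hasDerivAt_id s).mul_const (g2 0))).hasDerivWithinAt
    have h3 := (convex_Icc (-t) t).norm_image_sub_le_of_norm_hasDerivWithin_le (C := δ) hd
      (fun s hs => by
        rw [one_mul, Real.norm_eq_abs]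
        exact hδ s ((abs_le.2 hs).trans ht.2))
      (x := -t) (y := t) ⟨le_rfl, by linarith [ht.1]⟩ ⟨by linarith [ht.1], le_rfl⟩
    rw [Real.norm_eq_abs, Real.norm_eq_abs] at h3
    have e1 : g1 t - t * g2 0 - (g1 (-t) - -t * g2 0) = g1 t - g1 (-t) - 2 * t * g2 0 := by ring
    have e2 : |t - -t| = 2 * t := by rw [abs_of_nonneg (by linarith [ht.1])]; ring
    rw [e1, e2] at h3
    refine h3.trans ?_
    nlinarith [ht.2]
  have hd : ∀ t ∈ Icc (0 : ℝ) k, HasDerivWithinAt (fun t => g t + g (-t) - 2 * g 0 - t ^ 2 * g2 0)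
      (g1 t - g1 (-t) - 2 * t * g2 0) (Icc 0 k) t := by
    intro t _
    have a1 : HasDerivAt (fun t => g (-t)) (g1 (-t) * -1) t := (h1 (-t)).comp t (hasDerivAt_neg t)
    have a2 : HasDerivAt (fun t : ℝ => t ^ 2 * g2 0) ((2 : ℕ) * t ^ (2 - 1) * 1 * g2 0) t :=
      ((hasDerivAt_id t).pow 2).mul_const (g2 0)
    have a3 := (((h1 t).add a1).sub_const (2 * g 0)).sub a2
    have e : g1 t + g1 (-t) * -1 - (2 : ℕ) * t ^ (2 - 1) * 1 * g2 0 =
        g1 t - g1 (-t) - 2 * t * g2 0 := by push_cast; ring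
    rw [e] at a3
    exact a3.hasDerivWithinAt
  have h3 := (convex_Icc (0 : ℝ) k).norm_image_sub_le_of_norm_hasDerivWithin_le (C := 2 * k * δ) hd
    (fun t ht => by rw [Real.norm_eq_abs]; exact key t ht)
    (x := 0) (y := k) ⟨le_rfl, hk⟩ ⟨hk, le_rfl⟩
  rw [Real.norm_eq_abs, Real.norm_eq_abs] at h3
  have e1 : g k + g (-k) - 2 * g 0 - k ^ 2 * g2 0 - (g 0 + g (-0) - 2 * g 0 - 0 ^ 2 * g2 0) =
      g k + g (-k) - 2 * g 0 - k ^ 2 * g2 0 := by rw [neg_zero]; ring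
  rw [e1, sub_zero, abs_of_nonneg hk] at h3
  linarith

lemma sqd (x y t : ℝ) : HasDerivAt (fun t : ℝ => (x + t) ^ 2 + y ^ 2) (2 * (x + t)) t := by
  have h0 : HasDerivAt (fun t : ℝ => x + t) 1 t := (hasDerivAt_id t).const_add x
  have h1 := (h0.pow 2).add_const (y ^ 2)
  have e : ((2 : ℕ) : ℝ) * (x + t) ^ (2 - 1) * 1 = 2 * (x + t) := by norm_num
  rw [e] at h1
  exact h1

/-- the line derivatives -/
lemma line1 (h : Eta C p η Γ) (x y t : ℝ) :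
    HasDerivAt (fun t => Fp p Γ ((x + t) ^ 2 + y ^ 2))
      (2 * (x + t) * F1 p Γ ((x + t) ^ 2 + y ^ 2)) t := by
  have h2 := (hF1 h ((x + t) ^ 2 + y ^ 2)).comp t (sqd x y t)
  rw [mul_comm] at h2
  exact h2

lemma line2 (h : Eta C p η Γ) (x y t : ℝ) :
    HasDerivAt (fun t => 2 * (x + t) * F1 p Γ ((x + t) ^ 2 + y ^ 2)) (Hs p Γ (x + t, y)) t := by
  have h2 := (hF2 h ((x + t) ^ 2 + y ^ 2)).comp t (sqd x y t)
  have h3 : HasDerivAt (fun t : ℝ => 2 * (x + t)) (2 * 1) t :=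
    ((hasDerivAt_id t).const_add x).const_mul 2
  have h4 := h3.mul h2
  have e : 2 * 1 * (F1 p Γ ∘ fun t => (x + t) ^ 2 + y ^ 2) t +
      2 * (x + t) * (F2 p Γ ((x + t) ^ 2 + y ^ 2) * (2 * (x + t))) = Hs p Γ (x + t, y) := by
    unfold Hs
    simp only [Function.comp]
    ring
  rw [e] at h4
  exact h4

/-- the lattice function -/
noncomputable def ph (p : ℝ) (Γ : ℝ → ℝ) (n : ℕ) (f : Z2) : ℝ :=
  Fp p Γ (((f.1 : ℝ) / n) ^ 2 + ((f.2 : ℝ) / n) ^ 2)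

lemma ph_swap (n : ℕ) (i j : ℤ) : ph p Γ n (i, j) = ph p Γ n (j, i) := by
  unfold ph; simp only; rw [add_comm]

/-- gradient bound -/
lemma step1 (h : Eta C p η Γ) {n : ℕ} (hn : 0 < n) (i j : ℤ) :
    |ph p Γ n (i, j) - ph p Γ n (i - 1, j)| ≤ Real.exp (p - 1) / n := by
  have hn' : (0 : ℝ) < n := by exact_mod_cast hn
  have hd : ∀ t ∈ Icc (0 : ℝ) (1 / n), HasDerivWithinAt
      (fun t => Fp p Γ ((((i - 1 : ℤ) : ℝ) / n + t) ^ 2 + ((j : ℝ) / n) ^ 2))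
      (2 * (((i - 1 : ℤ) : ℝ) / n + t) * F1 p Γ ((((i - 1 : ℤ) : ℝ) / n + t) ^ 2 + ((j : ℝ) / n) ^ 2))
      (Icc 0 (1 / n)) t := fun t _ => (line1 h _ _ t).hasDerivWithinAt
  have h3 := (convex_Icc (0 : ℝ) (1 / n)).norm_image_sub_le_of_norm_hasDerivWithin_le
    (C := Real.exp (p - 1)) hd (fun t _ => by rw [Real.norm_eq_abs]; exact F1_bound h _ _)
    (x := (0 : ℝ)) (y := 1 / (n : ℝ)) ⟨le_rfl, by positivity⟩ ⟨by positivity, le_rfl⟩
  rw [Real.norm_eq_abs, Real.norm_eq_abs, sub_zero, abs_of_nonneg (by positivity : (0:ℝ) ≤ 1 / n)] at h3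
  have e1 : ((i - 1 : ℤ) : ℝ) / n + 1 / n = (i : ℝ) / n := by push_cast; field_simp; ring
  rw [e1, add_zero] at h3
  unfold ph
  simp only
  refine h3.trans (le_of_eq ?_)
  ring

lemma abs_dr_ph (h : Eta C p η Γ) {n : ℕ} (hn : 0 < n) (e : Bnd) :
    |dr (ph p Γ n) e| ≤ Real.exp (p - 1) / n := by
  obtain ⟨⟨i, j⟩, d⟩ := e
  cases d
  · have := step1 h hn j i
    rw [ph_swap, ph_swap n (j - 1) i] at this
    simpa [dr, lf, rt] using this
  · have := step1 h hn i j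
    rw [abs_sub_comm] at this
    simpa [dr, lf, rt] using this

/-- the second difference in the first direction -/
lemma step2 (h : Eta C p η Γ) {n : ℕ} (hn : 0 < n) {δ : ℝ}
    (hδ : ∀ z w : ℝ × ℝ, dist z w ≤ 1 / n → |Hs p Γ z - Hs p Γ w| ≤ δ) (i j : ℤ) :
    |ph p Γ n (i + 1, j) + ph p Γ n (i - 1, j) - 2 * ph p Γ n (i, j) -
      (1 / (n : ℝ)) ^ 2 * Hs p Γ ((i : ℝ) / n, (j : ℝ) / n)| ≤ 2 * δ * (1 / (n : ℝ)) ^ 2 := by
  have hn' : (0 : ℝ) < n := by exact_mod_cast hn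
  have h1 := sdiff (line1 h ((i : ℝ) / n) ((j : ℝ) / n)) (line2 h ((i : ℝ) / n) ((j : ℝ) / n))
    (k := 1 / n) (δ := δ) (by positivity) (fun t ht => by
      refine hδ _ _ ?_
      rw [Prod.dist_eq]
      simp only [dist_self, add_zero, dist_self_add_left, Real.norm_eq_abs]
      exact max_le ht (by positivity))
  have e1 : ((i + 1 : ℤ) : ℝ) / n = (i : ℝ) / n + 1 / n := by push_cast; field_simp
  have e2 : ((i - 1 : ℤ) : ℝ) / n = (i : ℝ) / n + -(1 / n) := by push_cast; field_simp; ring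
  unfold ph
  simp only
  rw [e1, e2]
  simpa using h1

theorem lap_ph (h : Eta C p η Γ) {n : ℕ} (hn : 0 < n) {δ : ℝ}
    (hδ : ∀ z w : ℝ × ℝ, dist z w ≤ 1 / n → |Hs p Γ z - Hs p Γ w| ≤ δ) {f : Z2}
    (hf : Real.exp (2 * (2 - p)) < ((f.1 : ℝ) / n) ^ 2 + ((f.2 : ℝ) / n) ^ 2) :
    |H910.dv (dr (ph p Γ n)) f| ≤ (C * Real.exp 4 + 4 * δ) * (1 / (n : ℝ)) ^ 2 := by
  obtain ⟨i, j⟩ := f
  have h1 := step2 h hn hδ i j
  have h2 := step2 h hn hδ j i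
  rw [ph_swap n (j + 1) i, ph_swap n (j - 1) i, ph_swap n j i] at h2
  have h3 := lap_bound h hf
  simp only at h3
  have e : H910.dv (dr (ph p Γ n)) (i, j) =
      -((ph p Γ n (i + 1, j) + ph p Γ n (i - 1, j) - 2 * ph p Γ n (i, j) -
        (1 / (n : ℝ)) ^ 2 * Hs p Γ ((i : ℝ) / n, (j : ℝ) / n)) +
      (ph p Γ n (i, j + 1) + ph p Γ n (i, j - 1) - 2 * ph p Γ n (i, j) -
        (1 / (n : ℝ)) ^ 2 * Hs p Γ ((j : ℝ) / n, (i : ℝ) / n)) +
      (1 / (n : ℝ)) ^ 2 * (Hs p Γ ((i : ℝ) / n, (j : ℝ) / n) +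
        Hs p Γ ((j : ℝ) / n, (i : ℝ) / n))) := by
    unfold H910.dv dr
    simp only [lf, rt, if_true, Bool.false_eq_true, if_false, add_sub_cancel_right]
    ring
  rw [e, abs_neg]
  refine (abs_add_le _ _).trans ?_
  refine (add_le_add (abs_add_le _ _) le_rfl).trans ?_
  rw [abs_mul (_ ^ 2) (Hs p Γ _ + _), abs_of_nonneg (by positivity : 0 ≤ (1 / (n : ℝ)) ^ 2)]
  have h4 : (1 / (n : ℝ)) ^ 2 * |Hs p Γ ((i : ℝ) / n, (j : ℝ) / n) +
      Hs p Γ ((j : ℝ) / n, (i : ℝ) / n)| ≤ (1 / (n : ℝ)) ^ 2 * (C * Real.exp 4) := by gcongr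
  linarith

end Vale.Agent.P159.T1.S.Hv
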