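import Vale.Agent.P159.T1.S.H711.Hv4
import Vale.Agent.P159.T1.S.H459.VSq

/-!
P159: the Dirichlet energy of the radial function; the flux through a box.
-/

open Filter Topology MeasureTheory Set

namespace Vale.Agent.P159.T1.S.Hv

open Vale.Agent.P159 Vale.Agent.P159.T1.D
open Vale.Agent.P159.T1.H910 (dv mem_bd)

variable {C p : ℝ} {η Γ : ℝ → ℝ}

/-- the radial function in the unit square -/
noncomputable def ps (p : ℝ) (Γ : ℝ → ℝ) (z : ℝ × ℝ) : ℝ :=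
  Fp p Γ ((z.1 - 1 / 2) ^ 2 + (z.2 - 1 / 2) ^ 2)

lemma ps_contDiff (h : Eta C p η Γ) : ContDiff ℝ 2 (ps p Γ) := by
  have h1 : ContDiff ℝ 2 (Fp p Γ) := by exact_mod_cast contDiff_infty.1 (Fp_contDiff h) 2
  exact h1.comp (by fun_prop)

lemma exp2_lt : Real.exp (-2) < 1 / 4 := by
  have h : Real.exp (-2) = (Real.exp 1 ^ 2)⁻¹ := by
    rw [← Real.exp_nat_mul, ← Real.exp_neg]; norm_num
  rw [h, one_div]
  refine inv_strictAnti₀ (by norm_num) ?_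
  have := Real.exp_one_gt_d9
  nlinarith

lemma ps_supp (h : Eta C p η Γ) {z : ℝ × ℝ} (hz : z ∈ tsupport (ps p Γ)) :
    (z.1 - 1 / 2) ^ 2 + (z.2 - 1 / 2) ^ 2 ≤ Real.exp (-2) := by
  have hc : IsClosed {z : ℝ × ℝ | (z.1 - 1 / 2) ^ 2 + (z.2 - 1 / 2) ^ 2 ≤ Real.exp (-2)} :=
    isClosed_le (by fun_prop) continuous_const
  refine closure_minimal (fun w hw => ?_) hc hz
  by_contra hcon
  have hcon : Real.exp (-2) < (w.1 - 1 / 2) ^ 2 + (w.2 - 1 / 2) ^ 2 := not_le.1 hcon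
  exact hw (Fp_large h hcon.le)

lemma ps_inSq (h : Eta C p η Γ) : H459.InSq (ps p Γ) := by
  intro z hz
  have h1 := (ps_supp h hz).trans_lt exp2_lt
  have h2 : (z.1 - 1 / 2) ^ 2 < 1 / 4 := by nlinarith [sq_nonneg (z.2 - 1 / 2)]
  have h3 : (z.2 - 1 / 2) ^ 2 < 1 / 4 := by nlinarith [sq_nonneg (z.1 - 1 / 2)]
  have h4 : |z.1 - 1 / 2| < 1 / 2 := by
    rw [← abs_of_pos (by norm_num : (0 : ℝ) < 1 / 2)]
    exact sq_lt_sq.1 (by nlinarith)
  have h5 : |z.2 - 1 / 2| < 1 / 2 := by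
    rw [← abs_of_pos (by norm_num : (0 : ℝ) < 1 / 2)]
    exact sq_lt_sq.1 (by nlinarith)
  rw [abs_lt] at h4 h5
  refine ⟨?_, ?_, ?_, ?_⟩ <;> linarith [h4.1, h4.2, h5.1, h5.2]

lemma ps_compact (h : Eta C p η Γ) : HasCompactSupport (ps p Γ) := by
  refine HasCompactSupport.intro (isCompact_closedBall (0 : ℝ × ℝ) 2) fun z hz => ?_
  by_contra hne
  have h1 := (ps_supp h (subset_tsupport _ hne)).trans_lt exp2_lt
  rw [mem_closedBall_zero_iff, not_le, Prod.norm_def, lt_max_iff, Real.norm_eq_abs,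
      Real.norm_eq_abs, lt_abs, lt_abs] at hz
  rcases hz with (hz | hz) | (hz | hz) <;>
    nlinarith [sq_nonneg (z.1 - 1 / 2), sq_nonneg (z.2 - 1 / 2)]

lemma ps_fderiv (h : Eta C p η Γ) (z : ℝ × ℝ) :
    fderiv ℝ (ps p Γ) z (1, 0) ^ 2 + fderiv ℝ (ps p Γ) z (0, 1) ^ 2 =
      η (Real.log ((z.1 - 1 / 2) ^ 2 + (z.2 - 1 / 2) ^ 2) / 2 + p) ^ 2 /
        ((z.1 - 1 / 2) ^ 2 + (z.2 - 1 / 2) ^ 2) := by
  set s := (z.1 - 1 / 2) ^ 2 + (z.2 - 1 / 2) ^ 2 with hs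
  have hs0 : 0 ≤ s := by positivity
  have a1 : HasFDerivAt (fun z : ℝ × ℝ => z.1 - 1 / 2) (ContinuousLinearMap.fst ℝ ℝ ℝ) z :=
    hasFDerivAt_fst.sub_const _
  have a2 : HasFDerivAt (fun z : ℝ × ℝ => z.2 - 1 / 2) (ContinuousLinearMap.snd ℝ ℝ ℝ) z :=
    hasFDerivAt_snd.sub_const _
  have a3 := (a1.pow 2).add (a2.pow 2)
  have a4 := (hF1 h s).comp_hasFDerivAt z a3
  have a5 : fderiv ℝ (ps p Γ) z = _ := a4.fderiv
  rw [a5]
  simp only [ContinuousLinearMap.smul_apply, ContinuousLinearMap.add_apply,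
    ContinuousLinearMap.coe_fst', ContinuousLinearMap.coe_snd', smul_eq_mul]
  rw [F1_eq h hs0]
  rcases hs0.eq_or_lt with h0 | h0
  · rw [← h0]; simp
  · have e : (z.1 - 1 / 2) ^ 2 = s - (z.2 - 1 / 2) ^ 2 := by rw [hs]; ring
    simp only [Nat.cast_ofNat, Nat.add_one_sub_one, pow_one, mul_zero, add_zero, zero_add, mul_one,
      nsmul_eq_mul]
    have e2 : ∀ X : ℝ, (X * (2 * (z.1 - 1 / 2))) ^ 2 + (X * (2 * (z.2 - 1 / 2))) ^ 2 =
        X ^ 2 * 4 * s := by intro X; rw [hs]; ring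
    rw [e2]
    field_simp
    ring

theorem ps_dir (h : Eta C p η Γ) : Dir (ps p Γ) = (∫ τ, η τ ^ 2) * (2 * Real.pi) := by
  unfold Dir
  simp_rw [ps_fderiv h]
  have e1 := integral_sub_right_eq_self (μ := (volume : Measure (ℝ × ℝ)))
    (fun z : ℝ × ℝ => η (Real.log (z.1 ^ 2 + z.2 ^ 2) / 2 + p) ^ 2 / (z.1 ^ 2 + z.2 ^ 2))
    ((1 / 2, 1 / 2) : ℝ × ℝ)
  simp only [Prod.fst_sub, Prod.snd_sub] at e1
  rw [e1]
  have e2 := H634.integral_lp fun w => η (w.1 + p) ^ 2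
  have e3 : ∀ z : ℝ × ℝ, (H634.lp z).1 = Real.log (z.1 ^ 2 + z.2 ^ 2) / 2 := by
    intro z
    show Real.log (Real.sqrt (z.1 ^ 2 + z.2 ^ 2)) = _
    rw [Real.log_sqrt (by positivity)]
  simp only [e3] at e2
  rw [e2]
  have e4 := setIntegral_prod_mul (μ := (volume : Measure ℝ)) (ν := (volume : Measure ℝ))
    (fun t : ℝ => η (t + p) ^ 2) (fun _ : ℝ => (1 : ℝ)) Set.univ (Set.Ioo (-Real.pi) Real.pi)
  simp only [mul_one] at e4
  rw [Measure.volume_eq_prod, e4, setIntegral_univ]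
  congr 1
  · exact integral_add_right_eq_self (μ := (volume : Measure ℝ)) (fun t => η t ^ 2) p
  · rw [setIntegral_const, smul_eq_mul, mul_one, Real.volume_real_Ioo_of_le
      (by linarith [Real.pi_pos])]
    ring

lemma ph_eq_sq {m n : ℕ} (hn : n = 2 * m) (hm : 0 < m) :
    ph p Γ n = H459.sq (ps p Γ) n (-((m : ℤ)), -((m : ℤ))) := by
  funext f
  have h0 : (m : ℝ) ≠ 0 := by exact_mod_cast hm.ne'
  unfold ph H459.sq smp ps
  simp only [Prod.fst_sub, Prod.snd_sub, Prod.fst_zero, Prod.snd_zero]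
  have e : ∀ x : ℤ, ((((x - -(m : ℤ)) : ℤ) : ℝ) + 0) / (n : ℝ) - 1 / 2 = (x : ℝ) / n := by
    intro x
    rw [hn]
    push_cast
    field_simp
    ring
  rw [e, e]

/-! ### the flux -/

lemma arctan_sub_ge {u v w : ℝ} (hu : -w ≤ u) (huv : u ≤ v) (hv : v ≤ w) :
    (v - u) / (1 + w ^ 2) ≤ Real.arctan v - Real.arctan u := by
  have h := (convex_Icc (-w) w).mul_sub_le_image_sub_of_le_deriv (f := Real.arctan)
    (C := 1 / (1 + w ^ 2)) Real.continuous_arctan.continuousOn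
    Real.differentiable_arctan.differentiableOn (fun x hx => by
      rw [interior_Icc] at hx
      rw [Real.deriv_arctan]
      refine one_div_le_one_div_of_le (by positivity) ?_
      have : x ^ 2 ≤ w ^ 2 := sq_le_sq' hx.1.le hx.2.le
      linarith)
    u ⟨hu, huv.trans hv⟩ v ⟨hu.trans huv, hv⟩ huv
  calc _ = 1 / (1 + w ^ 2) * (v - u) := by ring
    _ ≤ _ := h

lemma tele (g : ℤ → ℝ) (a : ℕ) :
    ∑ j ∈ Finset.Icc (-(a : ℤ)) a, (g (j + 1) - g j) = g (a + 1) - g (-(a : ℤ)) := by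
  induction a with
  | zero => simp
  | succ a ih =>
    have e : Finset.Icc (-((a + 1 : ℕ) : ℤ)) ((a + 1 : ℕ) : ℤ) =
        insert (-((a + 1 : ℕ) : ℤ)) (insert (((a + 1 : ℕ) : ℤ)) (Finset.Icc (-(a : ℤ)) a)) := by
      ext j
      simp only [Finset.mem_insert, Finset.mem_Icc]
      push_cast
      omega
    rw [e, Finset.sum_insert, Finset.sum_insert, ih]
    · have e1 : (-((a + 1 : ℕ) : ℤ)) + 1 = -(a : ℤ) := by push_cast; ring
      have e2 : ((a + 1 : ℕ) : ℤ) = (a : ℤ) + 1 := by push_cast; ring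
      rw [e1, e2]
      ring
    · simp only [Finset.mem_Icc]
      push_cast
      omega
    · simp only [Finset.mem_insert, Finset.mem_Icc]
      push_cast
      omega

/-- the flux of the logarithm through one side -/
lemma side_le {a : ℕ} (ha : 0 < a) :
    ∑ j ∈ Finset.Icc (-(a : ℤ)) a, (Real.log (((a : ℝ) + 1) ^ 2 + (j : ℝ) ^ 2) / 2 -
      Real.log ((a : ℝ) ^ 2 + (j : ℝ) ^ 2) / 2) ≤ Real.pi / 2 + 12 / a := by
  have ha' : (1 : ℝ) ≤ a := by exact_mod_cast ha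
  set g : ℤ → ℝ := fun j => Real.arctan ((2 * (j : ℝ) - 1) / (2 * a + 1)) with hg
  have key : ∀ j ∈ Finset.Icc (-(a : ℤ)) a, Real.log (((a : ℝ) + 1) ^ 2 + (j : ℝ) ^ 2) / 2 -
      Real.log ((a : ℝ) ^ 2 + (j : ℝ) ^ 2) / 2 ≤ (g (j + 1) - g j) + 4 / (a : ℝ) ^ 2 := by
    intro j hj
    rw [Finset.mem_Icc] at hj
    have hj1 : -(a : ℝ) ≤ j := by exact_mod_cast hj.1
    have hj2 : (j : ℝ) ≤ a := by exact_mod_cast hj.2
    have hja : |(j : ℝ)| ≤ a := abs_le.2 ⟨hj1, hj2⟩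
    set x : ℝ := |(j : ℝ)| with hx
    have hx0 : 0 ≤ x := abs_nonneg _
    have hx2 : (j : ℝ) ^ 2 = x ^ 2 := (sq_abs _).symm
    have hsp : 0 < (a : ℝ) ^ 2 + (j : ℝ) ^ 2 := by positivity
    have h1 : Real.log (((a : ℝ) + 1) ^ 2 + (j : ℝ) ^ 2) / 2 -
        Real.log ((a : ℝ) ^ 2 + (j : ℝ) ^ 2) / 2 ≤ (2 * a + 1) / (2 * ((a : ℝ) ^ 2 + (j : ℝ) ^ 2)) := by
      have h2 : Real.log (((a : ℝ) + 1) ^ 2 + (j : ℝ) ^ 2) - Real.log ((a : ℝ) ^ 2 + (j : ℝ) ^ 2) ≤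
          (((a : ℝ) + 1) ^ 2 + (j : ℝ) ^ 2) / ((a : ℝ) ^ 2 + (j : ℝ) ^ 2) - 1 := by
        rw [← Real.log_div (by positivity) hsp.ne']
        exact Real.log_le_sub_one_of_pos (by positivity)
      have h3 : (((a : ℝ) + 1) ^ 2 + (j : ℝ) ^ 2) / ((a : ℝ) ^ 2 + (j : ℝ) ^ 2) - 1 =
          2 * ((2 * a + 1) / (2 * ((a : ℝ) ^ 2 + (j : ℝ) ^ 2))) := by
        field_simp
        ring
      linarith
    have h2 : (2 / (2 * (a : ℝ) + 1)) / (1 + ((2 * x + 1) / (2 * a + 1)) ^ 2) ≤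
        g (j + 1) - g j := by
      have hv : (2 * ((j + 1 : ℤ) : ℝ) - 1) / (2 * a + 1) - (2 * (j : ℝ) - 1) / (2 * a + 1) =
          2 / (2 * (a : ℝ) + 1) := by
        push_cast; field_simp; ring
      rw [← hv]
      refine arctan_sub_ge ?_ ?_ ?_
      · rw [neg_div', div_le_div_iff_of_pos_right (by positivity)]
        linarith [neg_abs_le (j : ℝ)]
      · rw [div_le_div_iff_of_pos_right (by positivity)]
        push_cast; linarith
      · rw [div_le_div_iff_of_pos_right (by positivity)]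
        push_cast
        linarith [le_abs_self (j : ℝ)]
    have h3 : (2 * (a : ℝ) + 1) / (2 * ((a : ℝ) ^ 2 + (j : ℝ) ^ 2)) ≤
        (2 / (2 * (a : ℝ) + 1)) / (1 + ((2 * x + 1) / (2 * a + 1)) ^ 2) + 4 / (a : ℝ) ^ 2 := by
      have e1 : (2 / (2 * (a : ℝ) + 1)) / (1 + ((2 * x + 1) / (2 * a + 1)) ^ 2) =
          2 * (2 * a + 1) / ((2 * a + 1) ^ 2 + (2 * x + 1) ^ 2) := by
        field_simp
      rw [e1, hx2]
      have e2 : (2 * (a : ℝ) + 1) / (2 * ((a : ℝ) ^ 2 + x ^ 2)) -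
          2 * (2 * a + 1) / ((2 * a + 1) ^ 2 + (2 * x + 1) ^ 2) =
          (2 * a + 1) * (4 * a + 4 * x + 2) /
            ((2 * ((a : ℝ) ^ 2 + x ^ 2)) * ((2 * a + 1) ^ 2 + (2 * x + 1) ^ 2)) := by
        have : (a : ℝ) ^ 2 + x ^ 2 ≠ 0 := by positivity
        field_simp
        ring
      have e3 : (2 * (a : ℝ) + 1) * (4 * a + 4 * x + 2) /
            ((2 * ((a : ℝ) ^ 2 + x ^ 2)) * ((2 * a + 1) ^ 2 + (2 * x + 1) ^ 2)) ≤
          (3 * a) * (10 * a) / ((2 * (a : ℝ) ^ 2) * (4 * a ^ 2)) := by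
        have q1 : (2 * (a : ℝ) + 1) * (4 * a + 4 * x + 2) ≤ (3 * a) * (10 * a) :=
          mul_le_mul (by linarith) (by linarith) (by positivity) (by positivity)
        have q2 : (2 * (a : ℝ) ^ 2) * (4 * a ^ 2) ≤
            (2 * ((a : ℝ) ^ 2 + x ^ 2)) * ((2 * a + 1) ^ 2 + (2 * x + 1) ^ 2) := by
          refine mul_le_mul ?_ ?_ (by positivity) (by positivity)
          · nlinarith [sq_nonneg x]
          · nlinarith [sq_nonneg (2 * x + 1)]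
        exact div_le_div₀ (by positivity) q1 (by positivity) q2
      have e4 : (3 * (a : ℝ)) * (10 * a) / ((2 * (a : ℝ) ^ 2) * (4 * a ^ 2)) =
          (15 / 4) / (a : ℝ) ^ 2 := by
        field_simp; norm_num
      have e5 : (15 / 4) / (a : ℝ) ^ 2 ≤ 4 / (a : ℝ) ^ 2 := by gcongr; norm_num
      linarith
    linarith
  refine (Finset.sum_le_sum key).trans ?_
  rw [Finset.sum_add_distrib, tele, Finset.sum_const, Int.card_Icc, nsmul_eq_mul]
  have e1 : ((a : ℤ) + 1 - -(a : ℤ)).toNat = 2 * a + 1 := by omega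
  rw [e1]
  have e2 : g (a + 1) = Real.pi / 4 := by
    simp only [hg]
    have : (2 * (((a : ℤ) + 1 : ℤ) : ℝ) - 1) / (2 * a + 1) = 1 := by
      push_cast
      rw [div_eq_one_iff_eq (by positivity)]
      ring
    rw [this, Real.arctan_one]
  have e3 : g (-(a : ℤ)) = -(Real.pi / 4) := by
    simp only [hg]
    have : (2 * ((-(a : ℤ) : ℤ) : ℝ) - 1) / (2 * a + 1) = -1 := by
      push_cast
      rw [div_eq_iff (by positivity)]
      ring
    rw [this, Real.arctan_neg, Real.arctan_one]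
  rw [e2, e3]
  have e4 : ((2 * a + 1 : ℕ) : ℝ) * (4 / (a : ℝ) ^ 2) ≤ 12 / a := by
    push_cast
    rw [mul_div_assoc', div_le_div_iff₀ (by positivity) (by positivity)]
    nlinarith
  linarith

/-- the layer charges -/
lemma lam_eq {Q : Finset Z2} {φ : Z2 → ℝ} {f : Z2} (hf : f ∉ Q) :
    lam Q φ f = (if (f.1 - 1, f.2) ∈ Q then φ (f.1 - 1, f.2) - φ f else 0) +
      (if (f.1 + 1, f.2) ∈ Q then φ (f.1 + 1, f.2) - φ f else 0) +
      (if (f.1, f.2 - 1) ∈ Q then φ (f.1, f.2 - 1) - φ f else 0) +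
      (if (f.1, f.2 + 1) ∈ Q then φ (f.1, f.2 + 1) - φ f else 0) := by
  obtain ⟨i, j⟩ := f
  have h1 : ((i, j), true) ∈ bd Q ↔ (i - 1, j) ∈ Q := by
    rw [mem_bd]; simp [rt, lf, hf]
  have h2 : ((i + 1, j), true) ∈ bd Q ↔ (i + 1, j) ∈ Q := by
    rw [mem_bd]; simp [rt, lf, hf]
  have h3 : ((i, j), false) ∈ bd Q ↔ (i, j - 1) ∈ Q := by
    rw [mem_bd]; simp [rt, lf, hf]
  have h4 : ((i, j + 1), false) ∈ bd Q ↔ (i, j + 1) ∈ Q := by
    rw [mem_bd]; simp [rt, lf, hf]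
  unfold lam
  rw [if_neg hf]
  unfold dv Bi
  simp only [h1, h2, h3, h4]
  split_ifs <;> simp [dr, lf, rt] <;> ring

end Vale.Agent.P159.T1.S.Hv
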