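import Vale.Agent.P159.T1.S.H711.Hv5
import Vale.Agent.P159.T1.S.H112.FreeSq

/-!
P159: the recursion for the variance of the height at a face, and the lower bound.
-/

open Filter Topology MeasureTheory Set

namespace Vale.Agent.P159.T1.S.Hv

open Vale.Agent.P159 Vale.Agent.P159.T1.D
open Vale.Agent.P159.T1.H910 (dv mem_bd)

variable {C p b : ℝ} {η Γ : ℝ → ℝ}

/-- a sum over the layer -/
lemma layer_sum (a : ℕ) (φ : Z2 → ℝ) :
    ∑ f ∈ (bx 0 (a + 1)) \ (bx 0 a), lam (bx 0 a) φ f =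
      ∑ j ∈ Finset.Icc (-(a : ℤ)) a, (φ (a, j) - φ ((a : ℤ) + 1, j)) +
      ∑ j ∈ Finset.Icc (-(a : ℤ)) a, (φ (-(a : ℤ), j) - φ (-(a : ℤ) - 1, j)) +
      ∑ j ∈ Finset.Icc (-(a : ℤ)) a, (φ (j, a) - φ (j, (a : ℤ) + 1)) +
      ∑ j ∈ Finset.Icc (-(a : ℤ)) a, (φ (j, -(a : ℤ)) - φ (j, -(a : ℤ) - 1)) := by
  have h0 : ∀ f ∈ (bx 0 (a + 1)) \ (bx 0 a), lam (bx 0 a) φ f = _ := fun f hf =>
    lam_eq (Finset.mem_sdiff.1 hf).2
  rw [Finset.sum_congr rfl h0, Finset.sum_add_distrib, Finset.sum_add_distrib,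
    Finset.sum_add_distrib, ← Finset.sum_filter, ← Finset.sum_filter, ← Finset.sum_filter,
    ← Finset.sum_filter]
  have key : ∀ (T : Finset Z2) (ι : ℤ → Z2) (F : Z2 → ℝ), Function.Injective ι →
      T = (Finset.Icc (-(a : ℤ)) a).image ι →
      ∑ f ∈ T, F f = ∑ j ∈ Finset.Icc (-(a : ℤ)) a, F (ι j) := by
    intro T ι F hι hT
    rw [hT, Finset.sum_image fun x _ y _ h => hι h]
  rw [key _ (fun j => ((a : ℤ) + 1, j)) _ (fun x y h => by simpa using h) ?_,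
    key _ (fun j => (-(a : ℤ) - 1, j)) _ (fun x y h => by simpa using h) ?_,
    key _ (fun j => (j, (a : ℤ) + 1)) _ (fun x y h => by simpa using h) ?_,
    key _ (fun j => (j, -(a : ℤ) - 1)) _ (fun x y h => by simpa using h) ?_]
  · simp
  all_goals
    ext ⟨i, j⟩
    simp only [Finset.mem_filter, Finset.mem_sdiff, mem_bx0, Finset.mem_image, Finset.mem_Icc,
      Prod.mk.injEq]
    push_cast
    constructor
    · intro h
      omega
    · intro h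
      omega

/-- the layer charges of a radially decreasing function are nonnegative -/
lemma lam_nonneg {Q : Finset Z2} {φ : Z2 → ℝ} {f : Z2}
    (h : ∀ g ∈ Q, (g = (f.1 - 1, f.2) ∨ g = (f.1 + 1, f.2) ∨ g = (f.1, f.2 - 1) ∨
      g = (f.1, f.2 + 1)) → φ f ≤ φ g) : 0 ≤ lam Q φ f := by
  by_cases hf : f ∈ Q
  · unfold lam; rw [if_pos hf]
  · rw [lam_eq hf]
    have k1 : 0 ≤ (if (f.1 - 1, f.2) ∈ Q then φ (f.1 - 1, f.2) - φ f else 0) := by
      split_ifs with h1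
      · exact sub_nonneg.2 (h _ h1 (by simp))
      · exact le_rfl
    have k2 : 0 ≤ (if (f.1 + 1, f.2) ∈ Q then φ (f.1 + 1, f.2) - φ f else 0) := by
      split_ifs with h1
      · exact sub_nonneg.2 (h _ h1 (by simp))
      · exact le_rfl
    have k3 : 0 ≤ (if (f.1, f.2 - 1) ∈ Q then φ (f.1, f.2 - 1) - φ f else 0) := by
      split_ifs with h1
      · exact sub_nonneg.2 (h _ h1 (by simp))
      · exact le_rfl
    have k4 : 0 ≤ (if (f.1, f.2 + 1) ∈ Q then φ (f.1, f.2 + 1) - φ f else 0) := by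
      split_ifs with h1
      · exact sub_nonneg.2 (h _ h1 (by simp))
      · exact le_rfl
    linarith

/-- scales -/
structure Sc (K a : ℕ) (p : ℝ) : Prop where
  hK : 2 ≤ K
  ha : 0 < a
  hp : p = 2 + Real.log (32 * K)

lemma Sc.exp_p {K a : ℕ} (h : Sc K a p) : Real.exp (2 * (2 - p)) = 1 / (32 * (K : ℝ)) ^ 2 := by
  have hK : (0 : ℝ) < 32 * K := by
    have : (2 : ℝ) ≤ K := by exact_mod_cast h.hK
    linarith
  rw [h.hp]
  have e : 2 * (2 - (2 + Real.log (32 * K))) = -(((2 : ℕ) : ℝ) * Real.log (32 * K)) := by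
    push_cast; ring
  rw [e, Real.exp_neg, Real.exp_nat_mul, Real.exp_log hK, one_div]

lemma Sc.exp_p1 {K a : ℕ} (h : Sc K a p) : Real.exp (p - 1) = Real.exp 1 * (32 * (K : ℝ)) := by
  have hK : (0 : ℝ) < 32 * K := by
    have : (2 : ℝ) ≤ K := by exact_mod_cast h.hK
    linarith
  rw [h.hp]
  have e : 2 + Real.log (32 * (K : ℝ)) - 1 = 1 + Real.log (32 * K) := by ring
  rw [e, Real.exp_add, Real.exp_log hK]

/-- points outside the box of radius `a` are outside the small circle -/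
lemma Sc.far {K a : ℕ} (h : Sc K a p) {x y : ℤ}
    (hxy : (a : ℤ) ≤ x ∨ (a : ℤ) ≤ -x ∨ (a : ℤ) ≤ y ∨ (a : ℤ) ≤ -y) :
    Real.exp (2 * (2 - p)) < ((x : ℝ) / (16 * K * a : ℕ)) ^ 2 + ((y : ℝ) / (16 * K * a : ℕ)) ^ 2 := by
  have hxy : (a : ℤ) ≤ |x| ∨ (a : ℤ) ≤ |y| := by
    rw [le_abs, le_abs, or_assoc]; exact hxy
  have hK : (2 : ℝ) ≤ K := by exact_mod_cast h.hK
  have ha : (1 : ℝ) ≤ a := by exact_mod_cast h.ha
  have hs : (a : ℝ) ^ 2 ≤ (x : ℝ) ^ 2 + (y : ℝ) ^ 2 := by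
    rcases hxy with h1 | h1
    · have h2 : (a : ℝ) ≤ |(x : ℝ)| := by exact_mod_cast h1
      have h3 : (a : ℝ) ^ 2 ≤ (x : ℝ) ^ 2 := by rw [← sq_abs (x : ℝ)]; gcongr
      nlinarith [sq_nonneg (y : ℝ)]
    · have h2 : (a : ℝ) ≤ |(y : ℝ)| := by exact_mod_cast h1
      have h3 : (a : ℝ) ^ 2 ≤ (y : ℝ) ^ 2 := by rw [← sq_abs (y : ℝ)]; gcongr
      nlinarith [sq_nonneg (x : ℝ)]
  rw [h.exp_p, div_pow, div_pow, ← add_div, div_lt_div_iff₀ (by positivity)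
    (by push_cast; positivity)]
  push_cast
  nlinarith [mul_pos (by positivity : (0 : ℝ) < K ^ 2) (by positivity : (0 : ℝ) < (a : ℝ) ^ 2),
    mul_le_mul_of_nonneg_left hs (by positivity : (0 : ℝ) ≤ (K : ℝ) ^ 2)]

lemma exp_m4 : 1 / 128 < Real.exp (-4) := by
  have h : Real.exp (-4) = (Real.exp 1 ^ 4)⁻¹ := by
    rw [← Real.exp_nat_mul, ← Real.exp_neg]; norm_num
  rw [h, one_div]
  refine inv_strictAnti₀ (by have := Real.exp_pos 1; positivity) ?_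
  have h1 := Real.exp_one_lt_d9
  have h2 := Real.exp_pos 1
  calc Real.exp 1 ^ 4 ≤ 2.7182818286 ^ 4 := by gcongr
    _ < 128 := by norm_num

/-- points near the box of radius `a` are inside the large circle -/
lemma Sc.near {K a : ℕ} (h : Sc K a p) {x y : ℤ} (hx : -((a : ℤ) + 1) ≤ x ∧ x ≤ a + 1)
    (hy : -((a : ℤ) + 1) ≤ y ∧ y ≤ a + 1) :
    ((x : ℝ) / (16 * K * a : ℕ)) ^ 2 + ((y : ℝ) / (16 * K * a : ℕ)) ^ 2 ≤ Real.exp (-4) := by
  have hx := abs_le.2 hx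
  have hy := abs_le.2 hy
  have hK : (2 : ℝ) ≤ K := by exact_mod_cast h.hK
  have ha : (1 : ℝ) ≤ a := by exact_mod_cast h.ha
  refine le_trans ?_ exp_m4.le
  have h1 : |(x : ℝ)| ≤ 2 * a := by
    have : |(x : ℝ)| ≤ a + 1 := by exact_mod_cast hx
    linarith
  have h2 : |(y : ℝ)| ≤ 2 * a := by
    have : |(y : ℝ)| ≤ a + 1 := by exact_mod_cast hy
    linarith
  have h3 : (x : ℝ) ^ 2 ≤ (2 * a) ^ 2 := by rw [← sq_abs (x : ℝ)]; gcongr
  have h4 : (y : ℝ) ^ 2 ≤ (2 * a) ^ 2 := by rw [← sq_abs (y : ℝ)]; gcongr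
  rw [div_pow, div_pow, ← add_div, div_le_div_iff₀ (by push_cast; positivity) (by norm_num)]
  push_cast
  have h5 : (4 : ℝ) ≤ K ^ 2 := by nlinarith
  nlinarith [mul_le_mul_of_nonneg_right h5 (by positivity : (0 : ℝ) ≤ (a : ℝ) ^ 2)]

/-- comparison of two points of the middle range -/
lemma Sc.diff {K a : ℕ} (h : Sc K a p) (hE : Eta C p η Γ) {x y x' y' : ℤ}
    (h1 : (a : ℤ) ≤ x ∨ (a : ℤ) ≤ -x ∨ (a : ℤ) ≤ y ∨ (a : ℤ) ≤ -y)
    (h2 : -((a : ℤ) + 1) ≤ x ∧ x ≤ a + 1) (h3 : -((a : ℤ) + 1) ≤ y ∧ y ≤ a + 1)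
    (h1' : (a : ℤ) ≤ x' ∨ (a : ℤ) ≤ -x' ∨ (a : ℤ) ≤ y' ∨ (a : ℤ) ≤ -y')
    (h2' : -((a : ℤ) + 1) ≤ x' ∧ x' ≤ a + 1) (h3' : -((a : ℤ) + 1) ≤ y' ∧ y' ≤ a + 1) :
    ph p Γ (16 * K * a) (x, y) - ph p Γ (16 * K * a) (x', y') =
      Real.log ((x' : ℝ) ^ 2 + (y' : ℝ) ^ 2) / 2 - Real.log ((x : ℝ) ^ 2 + (y : ℝ) ^ 2) / 2 := by
  have hK : (2 : ℝ) ≤ K := by exact_mod_cast h.hK
  have ha : (1 : ℝ) ≤ a := by exact_mod_cast h.ha
  have hn : (0 : ℝ) < (16 * K * a : ℕ) := by push_cast; positivity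
  unfold ph
  simp only
  rw [Fp_mid hE (h.far h1).le (h.near h2 h3) (h.far h1').le (h.near h2' h3')]
  have pos : ∀ {x y : ℤ}, ((a : ℤ) ≤ x ∨ (a : ℤ) ≤ -x ∨ (a : ℤ) ≤ y ∨ (a : ℤ) ≤ -y) →
      (x : ℝ) ^ 2 + (y : ℝ) ^ 2 ≠ 0 := by
    intro x y hh h0
    have := (Real.exp_pos _).trans (h.far hh)
    rw [div_pow, div_pow, ← add_div, h0, zero_div] at this
    exact lt_irrefl _ this
  rw [div_pow, div_pow, div_pow, div_pow, ← add_div, ← add_div,
    Real.log_div (pos h1') (by positivity), Real.log_div (pos h1) (by positivity)]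
  ring

lemma side_pos {a : ℕ} (ha : 0 < a) :
    0 < ∑ j ∈ Finset.Icc (-(a : ℤ)) a, (Real.log (((a : ℝ) + 1) ^ 2 + (j : ℝ) ^ 2) / 2 -
      Real.log ((a : ℝ) ^ 2 + (j : ℝ) ^ 2) / 2) := by
  have ha' : (1 : ℝ) ≤ a := by exact_mod_cast ha
  refine Finset.sum_pos (fun j _ => ?_) ⟨0, by simp⟩
  have : Real.log ((a : ℝ) ^ 2 + (j : ℝ) ^ 2) < Real.log (((a : ℝ) + 1) ^ 2 + (j : ℝ) ^ 2) :=
    Real.log_lt_log (by positivity) (by nlinarith)
  linarith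

/-- the flux of the test function -/
theorem Sc.flux {K a : ℕ} (h : Sc K a p) (hE : Eta C p η Γ) :
    0 < ∑ f ∈ (bx 0 (a + 1)) \ (bx 0 a), lam (bx 0 a) (ph p Γ (16 * K * a)) f ∧
    ∑ f ∈ (bx 0 (a + 1)) \ (bx 0 a), lam (bx 0 a) (ph p Γ (16 * K * a)) f ≤
      2 * Real.pi + 48 / a := by
  have e : ∑ f ∈ (bx 0 (a + 1)) \ (bx 0 a), lam (bx 0 a) (ph p Γ (16 * K * a)) f =
      4 * ∑ j ∈ Finset.Icc (-(a : ℤ)) a, (Real.log (((a : ℝ) + 1) ^ 2 + (j : ℝ) ^ 2) / 2 -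
      Real.log ((a : ℝ) ^ 2 + (j : ℝ) ^ 2) / 2) := by
    rw [layer_sum a]
    have e1 : ∀ j ∈ Finset.Icc (-(a : ℤ)) a,
        ph p Γ (16 * K * a) ((a : ℤ), j) - ph p Γ (16 * K * a) ((a : ℤ) + 1, j) =
        Real.log (((a : ℝ) + 1) ^ 2 + (j : ℝ) ^ 2) / 2 -
          Real.log ((a : ℝ) ^ 2 + (j : ℝ) ^ 2) / 2 := by
      intro j hj
      rw [Finset.mem_Icc] at hj
      rw [h.diff hE (by omega) (by omega) (by omega) (by omega) (by omega) (by omega)]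
      push_cast; ring_nf
    have e2 : ∀ j ∈ Finset.Icc (-(a : ℤ)) a,
        ph p Γ (16 * K * a) (-(a : ℤ), j) - ph p Γ (16 * K * a) (-(a : ℤ) - 1, j) =
        Real.log (((a : ℝ) + 1) ^ 2 + (j : ℝ) ^ 2) / 2 -
          Real.log ((a : ℝ) ^ 2 + (j : ℝ) ^ 2) / 2 := by
      intro j hj
      rw [Finset.mem_Icc] at hj
      rw [h.diff hE (by omega) (by omega) (by omega) (by omega) (by omega) (by omega)]
      push_cast; ring_nf
    have e3 : ∀ j ∈ Finset.Icc (-(a : ℤ)) a,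
        ph p Γ (16 * K * a) (j, (a : ℤ)) - ph p Γ (16 * K * a) (j, (a : ℤ) + 1) =
        Real.log (((a : ℝ) + 1) ^ 2 + (j : ℝ) ^ 2) / 2 -
          Real.log ((a : ℝ) ^ 2 + (j : ℝ) ^ 2) / 2 := by
      intro j hj
      rw [Finset.mem_Icc] at hj
      rw [h.diff hE (by omega) (by omega) (by omega) (by omega) (by omega) (by omega)]
      push_cast; ring_nf
    have e4 : ∀ j ∈ Finset.Icc (-(a : ℤ)) a,
        ph p Γ (16 * K * a) (j, -(a : ℤ)) - ph p Γ (16 * K * a) (j, -(a : ℤ) - 1) =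
        Real.log (((a : ℝ) + 1) ^ 2 + (j : ℝ) ^ 2) / 2 -
          Real.log ((a : ℝ) ^ 2 + (j : ℝ) ^ 2) / 2 := by
      intro j hj
      rw [Finset.mem_Icc] at hj
      rw [h.diff hE (by omega) (by omega) (by omega) (by omega) (by omega) (by omega)]
      push_cast; ring_nf
    rw [Finset.sum_congr rfl e1, Finset.sum_congr rfl e2, Finset.sum_congr rfl e3,
      Finset.sum_congr rfl e4]
    ring
  rw [e]
  refine ⟨mul_pos (by norm_num) (side_pos h.ha), ?_⟩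
  have := side_le h.ha
  have e5 : 2 * Real.pi + 48 / (a : ℝ) = 4 * (Real.pi / 2 + 12 / a) := by ring
  rw [e5]
  linarith

theorem Sc.lam_nn {K a : ℕ} (h : Sc K a p) (hE : Eta C p η Γ) {f : Z2}
    (hf : f ∈ (bx 0 (a + 1)) \ (bx 0 a)) : 0 ≤ lam (bx 0 a) (ph p Γ (16 * K * a)) f := by
  obtain ⟨i, j⟩ := f
  rw [Finset.mem_sdiff, mem_bx0, mem_bx0] at hf
  push_cast at hf
  have ha := h.ha
  refine lam_nonneg fun g hg hh => ?_
  obtain ⟨x, y⟩ := g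
  rw [mem_bx0] at hg
  simp only at hg hf
  have k1 : ((a : ℤ) ≤ x ∨ (a : ℤ) ≤ -x ∨ (a : ℤ) ≤ y ∨ (a : ℤ) ≤ -y) ∧
      (x : ℤ) ^ 2 + y ^ 2 ≤ i ^ 2 + j ^ 2 := by
    simp only [Prod.mk.injEq] at hh
    rcases hh with ⟨h1, h2⟩ | ⟨h1, h2⟩ | ⟨h1, h2⟩ | ⟨h1, h2⟩ <;> subst h1 <;> subst h2
    · have : i = a + 1 := by omega
      refine ⟨by omega, by nlinarith⟩
    · have : i = -(a + 1) := by omega
      refine ⟨by omega, by nlinarith⟩
    · have : j = a + 1 := by omega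
      refine ⟨by omega, by nlinarith⟩
    · have : j = -(a + 1) := by omega
      refine ⟨by omega, by nlinarith⟩
  have h1 := h.diff hE (x := x) (y := y) (x' := i) (y' := j) k1.1 (by omega) (by omega)
    (by omega) (by omega) (by omega)
  have h2 : 0 < (x : ℝ) ^ 2 + (y : ℝ) ^ 2 := by
    have : 0 < x ^ 2 + y ^ 2 := by
      have : x ≠ 0 ∨ y ≠ 0 := by omega
      rcases this with h3 | h3
      · have := sq_nonneg y
        positivity
      · have := sq_nonneg x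
        positivity
    exact_mod_cast this
  have h3 : (x : ℝ) ^ 2 + (y : ℝ) ^ 2 ≤ (i : ℝ) ^ 2 + (j : ℝ) ^ 2 := by exact_mod_cast k1.2
  have h4 := Real.log_le_log h2 h3
  linarith

lemma card_bd (r : ℕ) : ((bd (bx 0 r)).card : ℝ) ≤ 2 * (2 * r + 2) ^ 2 := by
  have h : bd (bx 0 r) ⊆ (Finset.Icc (-(r : ℤ)) (r + 1) ×ˢ Finset.Icc (-(r : ℤ)) (r + 1)) ×ˢ
      (Finset.univ : Finset Bool) := by
    intro e he
    obtain ⟨⟨i, j⟩, d⟩ := e
    rw [mem_bd, mem_bx0, mem_bx0] at he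
    rw [Finset.mem_product, Finset.mem_product, Finset.mem_Icc, Finset.mem_Icc]
    cases d <;> simp [rt, lf] at he ⊢ <;> omega
  have h1 := Finset.card_le_card h
  rw [Finset.card_product, Finset.card_product, Int.card_Icc, Finset.card_univ,
    Fintype.card_bool] at h1
  have e : ((r : ℤ) + 1 + 1 - -(r : ℤ)).toNat = 2 * r + 2 := by omega
  rw [e] at h1
  have h2 : ((bd (bx 0 r)).card : ℝ) ≤ (((2 * r + 2) * (2 * r + 2) * 2 : ℕ) : ℝ) := by
    exact_mod_cast h1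
  refine h2.trans (le_of_eq ?_)
  push_cast
  ring

lemma card_bx (r : ℕ) : ((bx 0 r).card : ℝ) = (2 * r + 1) ^ 2 := by
  have h : bx 0 r = Finset.Icc (-(r : ℤ)) r ×ˢ Finset.Icc (-(r : ℤ)) r := by
    ext f
    rw [mem_bx0, Finset.mem_product, Finset.mem_Icc, Finset.mem_Icc]
  rw [h, Finset.card_product, Int.card_Icc]
  have e : ((r : ℤ) + 1 - -(r : ℤ)).toNat = 2 * r + 1 := by omega
  rw [e]
  push_cast
  ring

lemma two_le_log {K : ℕ} (hK : 2 ≤ K) : 2 ≤ Real.log (32 * K) := by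
  have hK' : (2 : ℝ) ≤ K := by exact_mod_cast hK
  rw [Real.le_log_iff_exp_le (by positivity)]
  have h : Real.exp 2 = Real.exp 1 ^ 2 := by rw [← Real.exp_nat_mul]; norm_num
  rw [h]
  have h1 := Real.exp_one_lt_d9
  have h2 := Real.exp_pos 1
  nlinarith

/-- the inner energy -/
lemma Sc.energy {K a : ℕ} (hsc : Sc K a p) (hE : Eta C p η Γ) :
    ∑ e ∈ bd (bx 0 (2 * (a + 1))), dr (ph p Γ (16 * K * a)) e ^ 2 ≤ 7200 := by
  have hK' : (2 : ℝ) ≤ K := by exact_mod_cast hsc.hK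
  have haR : (1 : ℝ) ≤ a := by exact_mod_cast hsc.ha
  have hnpos : 0 < 16 * K * a := by
    have := hsc.hK
    have := hsc.ha
    positivity
  have h1 : ∀ e ∈ bd (bx 0 (2 * (a + 1))), dr (ph p Γ (16 * K * a)) e ^ 2 ≤ 36 / (a : ℝ) ^ 2 := by
    intro e _
    have h2 := abs_dr_ph hE hnpos e
    rw [hsc.exp_p1] at h2
    have h3 : Real.exp 1 * (32 * K) / ((16 * K * a : ℕ) : ℝ) ≤ 6 / a := by
      push_cast
      rw [div_le_div_iff₀ (by positivity) (by positivity)]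
      have := Real.exp_one_lt_d9
      have h5 : Real.exp 1 ≤ 3 := by linarith
      have h6 := mul_le_mul_of_nonneg_right h5 (by positivity : (0 : ℝ) ≤ 32 * K * a)
      linarith
    rw [← sq_abs]
    calc |dr (ph p Γ (16 * K * a)) e| ^ 2 ≤ (6 / (a : ℝ)) ^ 2 := by gcongr; exact h2.trans h3
      _ = _ := by ring
  refine (Finset.sum_le_card_nsmul _ _ _ h1).trans ?_
  rw [nsmul_eq_mul]
  refine (mul_le_mul_of_nonneg_right (card_bd _) (by positivity)).trans ?_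
  rw [mul_div_assoc', div_le_iff₀ (by positivity)]
  push_cast
  nlinarith

/-- the Laplacian -/
lemma Sc.laplace {K a : ℕ} (hsc : Sc K a p) (hE : Eta C p η Γ) (hC : 0 < C)
    (hδn : ∀ z w : ℝ × ℝ, dist z w ≤ 1 / ((16 * K * a : ℕ) : ℝ) → |Hs p Γ z - Hs p Γ w| ≤ 1) :
    (2 * ((8 * K * a : ℕ) : ℝ) + 2) ^ 2 * ∑ f ∈ (bx 0 (8 * K * a)) \ (bx 0 a),
      dv (dr (ph p Γ (16 * K * a))) f ^ 2 ≤ 16 * (C * Real.exp 4 + 4) ^ 2 := by
  have hK' : (2 : ℝ) ≤ K := by exact_mod_cast hsc.hK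
  have haR : (1 : ℝ) ≤ a := by exact_mod_cast hsc.ha
  have hnpos : 0 < 16 * K * a := by
    have := hsc.hK
    have := hsc.ha
    positivity
  have h3 : 2 * ((8 * K * a : ℕ) : ℝ) = ((16 * K * a : ℕ) : ℝ) := by push_cast; ring
  have h4 : (16 : ℝ) ≤ ((16 * K * a : ℕ) : ℝ) := by
    push_cast
    nlinarith
  set n := 16 * K * a with hn
  set N := 8 * K * a with hN
  have hn0 : (0 : ℝ) < n := by linarith
  have h1 : ∀ f ∈ (bx 0 N) \ (bx 0 a), dv (dr (ph p Γ n)) f ^ 2 ≤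
      ((C * Real.exp 4 + 4) * (1 / (n : ℝ)) ^ 2) ^ 2 := by
    intro f hf
    rw [Finset.mem_sdiff, mem_bx0, mem_bx0] at hf
    have h2 := lap_ph hE hnpos hδn (f := f) (hsc.far (by omega))
    rw [mul_one] at h2
    rw [← sq_abs]
    exact pow_le_pow_left₀ (abs_nonneg _) h2 2
  have h2 : ∑ f ∈ (bx 0 N) \ (bx 0 a), dv (dr (ph p Γ n)) f ^ 2 ≤
      (2 * N + 1) ^ 2 * ((C * Real.exp 4 + 4) * (1 / (n : ℝ)) ^ 2) ^ 2 := by
    refine (Finset.sum_le_card_nsmul _ _ _ h1).trans ?_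
    rw [nsmul_eq_mul]
    refine mul_le_mul_of_nonneg_right ?_ (by positivity)
    rw [← card_bx]
    exact_mod_cast Finset.card_le_card Finset.sdiff_subset
  refine (mul_le_mul_of_nonneg_left h2 (by positivity)).trans ?_
  rw [h3]
  have e : ((n : ℝ) + 2) ^ 2 * ((n + 1) ^ 2 * ((C * Real.exp 4 + 4) * (1 / (n : ℝ)) ^ 2) ^ 2) =
      (C * Real.exp 4 + 4) ^ 2 * (((n : ℝ) + 2) * (n + 1) / n ^ 2) ^ 2 := by
    field_simp
  rw [e]
  have h5 : ((n : ℝ) + 2) * (n + 1) / n ^ 2 ≤ 4 := by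
    rw [div_le_iff₀ (by positivity)]; nlinarith
  calc (C * Real.exp 4 + 4) ^ 2 * (((n : ℝ) + 2) * (n + 1) / n ^ 2) ^ 2
      ≤ (C * Real.exp 4 + 4) ^ 2 * 4 ^ 2 :=
        mul_le_mul_of_nonneg_left (pow_le_pow_left₀ (by positivity) h5 2) (by positivity)
    _ = _ := by ring

lemma alg {L C0 M P x y : ℝ} (hC00 : 0 < C0) (hM0 : 0 < M) (hMP : M ≤ P)
    (hCL : 2 * C0 ≤ Real.sqrt L) (key : x + ((Real.sqrt L - C0) ^ 2 - C0 ^ 2) / M ^ 2 ≤ y) :
    x + (L - 2 * C0 * Real.sqrt L) / P ^ 2 ≤ y := by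
  have hL0 : 0 ≤ L := by
    by_contra hneg
    push Not at hneg
    rw [Real.sqrt_eq_zero_of_nonpos hneg.le] at hCL
    linarith
  have hq := Real.sq_sqrt hL0
  set q := Real.sqrt L
  have e1 : (q - C0) ^ 2 - C0 ^ 2 = L - 2 * C0 * q := by rw [← hq]; ring
  rw [e1] at key
  have hnum : 0 ≤ L - 2 * C0 * q := by
    rw [← hq]
    have : q ^ 2 - 2 * C0 * q = q * (q - 2 * C0) := by ring
    rw [this]
    exact mul_nonneg (by linarith) (by linarith)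
  have hfin : (L - 2 * C0 * q) / P ^ 2 ≤ (L - 2 * C0 * q) / M ^ 2 :=
    div_le_div_of_nonneg_left hnum (by positivity) (pow_le_pow_left₀ hM0.le hMP 2)
  linarith

/-- the Dirichlet energy -/
lemma Sc.dirichlet {K a : ℕ} (hsc : Sc K a p) (hE : Eta C p η Γ) (hY0 : 0 ≤ helicity b) {L : ℝ}
    (hL : L = helicity b * (2 * Real.pi * (Real.log (32 * K) - 2)) - 1)
    (hn0 : ∀ (u : Z2) (U : Finset Z2), H459.Has U (16 * K * a) u →
      helicity b * Dir (ps p Γ) - 1 ≤ Vr b U (dr (H459.sq (ps p Γ) (16 * K * a) u))) :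
    L ≤ Vr b (bx 0 (8 * K * a)) (dr (ph p Γ (16 * K * a))) := by
  have hN0 : 0 < 8 * K * a := by
    have := hsc.hK
    have := hsc.ha
    positivity
  have e : 16 * K * a = 2 * (8 * K * a) := by ring
  set N := 8 * K * a with hN
  have h1 := hn0 (-((N : ℤ)), -((N : ℤ))) (bx 0 N) (by
    intro f h1 h2 h3 h4
    rw [mem_bx0]
    rw [e] at h2 h4
    push_cast at h2 h4
    simp only [Prod.fst_add, Prod.snd_add]
    omega)
  rw [← ph_eq_sq e hN0, ps_dir hE] at h1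
  refine le_trans ?_ h1
  rw [hL]
  have h2 := hE.int
  have h3 : Real.log (32 * K) - 2 ≤ ∫ τ, η τ ^ 2 := by rw [hsc.hp] at h2; linarith
  have h4 : 2 * Real.pi * (Real.log (32 * K) - 2) ≤ (∫ τ, η τ ^ 2) * (2 * Real.pi) := by
    rw [mul_comm (∫ τ, η τ ^ 2)]
    exact mul_le_mul_of_nonneg_left h3 (by positivity)
  have := mul_le_mul_of_nonneg_left h4 hY0
  linarith

/-- **the recursion** -/
theorem recur (b : ℝ) (hb : bCrit ≤ b) : ∃ C0 : ℝ, 0 < C0 ∧ ∀ K : ℕ, 2 ≤ K → ∀ L : ℝ,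
    L = helicity b * (2 * Real.pi * (Real.log (32 * K) - 2)) - 1 → 2 * C0 ≤ Real.sqrt L →
    ∀ δ : ℝ, 0 < δ → ∃ a0 : ℕ, ∀ a ≥ a0,
      vn b (a + 1) + (L - 2 * C0 * Real.sqrt L) / (2 * Real.pi + δ) ^ 2 ≤
        vn b ((8 * K + 1) * (a + 1)) := by
  have hY := T1.H934.pos_of_ge b hb
  have hb0 : 0 < b := hY.1
  have hY0 : 0 ≤ helicity b := le_trans (by have := Real.pi_pos; positivity) hY.2
  obtain ⟨C, hC, hEx⟩ := exists_Eta
  set R : ℝ := 16 * (C * Real.exp 4 + 4) ^ 2 with hR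
  have hR0 : 0 < R := by positivity
  refine ⟨Real.sqrt (b * 7200) + Real.sqrt (b * R), by positivity, fun K hK L hL hCL δ hδ => ?_⟩
  set C0 := Real.sqrt (b * 7200) + Real.sqrt (b * R) with hC0
  have hC00 : 0 < C0 := by positivity
  obtain ⟨p, hp⟩ : ∃ p : ℝ, p = 2 + Real.log (32 * K) := ⟨_, rfl⟩
  have hlog : 2 ≤ Real.log (32 * K) := two_le_log hK
  obtain ⟨η, Γ, hE⟩ := hEx p (by rw [hp]; linarith)
  obtain ⟨r, hr0, hr⟩ := Metric.uniformContinuous_iff.1 (Hs_unif hE) 1 one_pos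
  obtain ⟨n0, hn0⟩ := H112.freeSq b hb (ps p Γ) (ps_contDiff hE) (ps_compact hE) (ps_inSq hE)
    1 one_pos
  refine ⟨max (max 1 n0) (max (⌈1 / r⌉₊ + 1) ⌈48 / δ⌉₊), fun a ha => ?_⟩
  have ha1 : 1 ≤ a := le_trans (le_max_left _ _) ((le_max_left _ _).trans ha)
  have ha2 : n0 ≤ a := le_trans (le_max_right _ _) ((le_max_left _ _).trans ha)
  have ha3 : ⌈1 / r⌉₊ + 1 ≤ a := le_trans (le_max_left _ _) ((le_max_right _ _).trans ha)
  have ha4 : ⌈48 / δ⌉₊ ≤ a := le_trans (le_max_right _ _) ((le_max_right _ _).trans ha)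
  have hsc : Sc K a p := ⟨hK, ha1, hp⟩
  have haR : (1 : ℝ) ≤ a := by exact_mod_cast ha1
  have hna : a ≤ 16 * K * a := by nlinarith
  have hδn : ∀ z w : ℝ × ℝ, dist z w ≤ 1 / ((16 * K * a : ℕ) : ℝ) →
      |Hs p Γ z - Hs p Γ w| ≤ 1 := by
    intro z w hzw
    have hn1 : ((⌈1 / r⌉₊ : ℕ) : ℝ) + 1 ≤ ((16 * K * a : ℕ) : ℝ) := by
      exact_mod_cast ha3.trans hna
    have h2 : 1 / r ≤ ⌈1 / r⌉₊ := Nat.le_ceil _
    have h5 : 1 / r < ((16 * K * a : ℕ) : ℝ) := by linarith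
    have h1 : 1 / ((16 * K * a : ℕ) : ℝ) < r := by
      rw [one_div_lt (lt_trans (by positivity) h5) hr0]
      exact h5
    have := hr (lt_of_le_of_lt hzw h1)
    rw [Real.dist_eq] at this
    exact this.le
  have hDir := hsc.dirichlet hE hY0 hL (hn0 (16 * K * a) (ha2.trans hna))
  obtain ⟨hM0, hM1⟩ := hsc.flux hE
  have key := lower hb0.le (a := a) (N := 8 * K * a) (by nlinarith) (hsc.energy hE)
    (hsc.laplace hE hC hδn) rfl hM0 (fun f hf => hsc.lam_nn hE hf) hC0.symm (by linarith) hDir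
  have h1 : 48 / (a : ℝ) ≤ δ := by
    have h2 : 48 / δ ≤ ⌈48 / δ⌉₊ := Nat.le_ceil _
    have h3 : ((⌈48 / δ⌉₊ : ℕ) : ℝ) ≤ a := by exact_mod_cast ha4
    rw [div_le_iff₀ (by positivity)]
    have h4 : 48 / δ ≤ a := h2.trans h3
    rw [div_le_iff₀ hδ] at h4
    linarith
  have hmono : vn b (8 * K * a + (a + 1)) ≤ vn b ((8 * K + 1) * (a + 1)) := by
    refine vn_mono hb0.le ?_
    nlinarith
  exact (alg hC00 hM0 (hM1.trans (by linarith)) hCL key).trans hmono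

/-- iteration of a recursion -/
lemma iterate {v : ℕ → ℝ} (hv : Monotone v) (hv0 : ∀ n, 0 ≤ v n) {q a0 : ℕ} (hq : 2 ≤ q) {g : ℝ}
    (hg : 0 ≤ g) (h : ∀ a ≥ a0, v (a + 1) + g * Real.log q ≤ v (q * (a + 1))) :
    ∃ C : ℝ, ∀ n : ℕ, 1 ≤ n → g * Real.log n - C ≤ v n := by
  have hq' : (2 : ℝ) ≤ q := by exact_mod_cast hq
  have hlq : 0 < Real.log q := Real.log_pos (by linarith)
  have hk : ∀ k : ℕ, (k : ℝ) * (g * Real.log q) ≤ v (q ^ k * (a0 + 1)) := by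
    intro k
    induction k with
    | zero => simpa using hv0 _
    | succ k ih =>
      have hpos : 0 < q ^ k * (a0 + 1) := by positivity
      obtain ⟨c, hc⟩ : ∃ c, q ^ k * (a0 + 1) = c + 1 := ⟨_, (Nat.succ_pred_eq_of_pos hpos).symm⟩
      have hca : a0 ≤ c := by
        have : 1 ≤ q ^ k := Nat.one_le_pow _ _ (by omega)
        nlinarith
      have h1 := h c hca
      rw [← hc] at h1
      have e : q ^ (k + 1) * (a0 + 1) = q * (q ^ k * (a0 + 1)) := by ring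
      rw [e]
      push_cast
      linarith
  refine ⟨g * Real.log (a0 + 1) + g * Real.log q, fun n hn => ?_⟩
  have hn' : (1 : ℝ) ≤ n := by exact_mod_cast hn
  by_cases hna : n < a0 + 1
  · have h1 : Real.log n ≤ Real.log (a0 + 1) :=
      Real.log_le_log (by linarith) (by exact_mod_cast hna.le)
    have := mul_le_mul_of_nonneg_left h1 hg
    have := mul_nonneg hg hlq.le
    linarith [hv0 n]
  · push Not at hna
    set k := Nat.log q (n / (a0 + 1)) with hkdef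
    have hd : n / (a0 + 1) ≠ 0 := by
      have := Nat.div_pos hna (Nat.succ_pos a0)
      omega
    have h1 : q ^ k ≤ n / (a0 + 1) := Nat.pow_log_le_self q hd
    have h2 : n / (a0 + 1) < q ^ (k + 1) := Nat.lt_pow_succ_log_self (by omega) _
    have h3 : q ^ k * (a0 + 1) ≤ n := (Nat.mul_le_mul_right _ h1).trans (Nat.div_mul_le_self _ _)
    have h4 : n < q ^ (k + 1) * (a0 + 1) := by
      rw [Nat.div_lt_iff_lt_mul (Nat.succ_pos a0)] at h2
      exact h2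
    have h5 : Real.log n ≤ ((k : ℝ) + 1) * Real.log q + Real.log (a0 + 1) := by
      have h6 : (n : ℝ) ≤ (q : ℝ) ^ (k + 1) * (a0 + 1) := by exact_mod_cast h4.le
      have h7 := Real.log_le_log (by linarith) h6
      rw [Real.log_mul (by positivity) (by positivity), Real.log_pow] at h7
      push_cast at h7
      exact h7
    have h8 := mul_le_mul_of_nonneg_left h5 hg
    have h9 := (hk k).trans (hv h3)
    nlinarith

end Vale.Agent.P159.T1.S.Hv
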