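import Vale.Agent.P159.T1.S.H711.Hv5

/-!
P159: the angle field, a flow with divergence `2 π` at the face `0` and `0` at all other faces.
-/

open Filter Topology

namespace Vale.Agent.P159.T1.S.Hv

open Vale.Agent.P159 Vale.Agent.P159.T1.D
open Vale.Agent.P159.T1.H910 (dv mem_bd)

/-- the angle under which a side is seen -/
noncomputable def Gf (x y : ℝ) : ℝ := Real.arctan ((y + 2) / x) - Real.arctan (y / x)

/-- twice the relative coordinate -/
noncomputable def xr (i : ℤ) : ℝ := 2 * (i : ℝ) - 1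

/-- the angle field -/
noncomputable def Ba (e : Bnd) : ℝ :=
  if e.2 then Gf (xr e.1.1) (xr e.1.2) else -Gf (xr e.1.2) (xr e.1.1)

lemma one_le_xr (i : ℤ) : 1 ≤ |xr i| := by
  have h : (1 : ℤ) ≤ |2 * i - 1| := by
    rcases le_or_gt i 0 with h | h
    · rw [abs_of_nonpos (by omega)]; omega
    · rw [abs_of_nonneg (by omega)]; omega
  have : (1 : ℝ) ≤ |((2 * i - 1 : ℤ) : ℝ)| := by exact_mod_cast h
  unfold xr
  push_cast at this
  exact this

lemma one_le_xr_sq (i : ℤ) : 1 ≤ xr i ^ 2 := by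
  rw [← sq_abs]
  have := one_le_xr i
  nlinarith

/-- sign -/
noncomputable def sg (x : ℝ) : ℝ := if 0 < x then 1 else -1

lemma arctan_pair {x y : ℝ} (hx : x ≠ 0) (hy : y ≠ 0) :
    Real.arctan (x / y) + Real.arctan (y / x) = sg x * sg y * (Real.pi / 2) := by
  have e : y / x = (x / y)⁻¹ := by rw [inv_div]
  have key : ∀ t : ℝ, t ≠ 0 → Real.arctan t + Real.arctan t⁻¹ = sg t * (Real.pi / 2) := by
    intro t ht
    rcases lt_or_gt_of_ne ht with h | h
    · rw [Real.arctan_inv_of_neg h]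
      unfold sg; rw [if_neg (not_lt.2 h.le)]; ring
    · rw [Real.arctan_inv_of_pos h]
      unfold sg; rw [if_pos h]; ring
  rw [e, key _ (div_ne_zero hx hy)]
  congr 1
  unfold sg
  rcases lt_or_gt_of_ne hx with h1 | h1 <;> rcases lt_or_gt_of_ne hy with h2 | h2
  · rw [if_pos (div_pos_of_neg_of_neg h1 h2), if_neg (not_lt.2 h1.le), if_neg (not_lt.2 h2.le)]
    norm_num
  · rw [if_neg (not_lt.2 (div_neg_of_neg_of_pos h1 h2).le), if_neg (not_lt.2 h1.le), if_pos h2]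
    norm_num
  · rw [if_neg (not_lt.2 (div_neg_of_pos_of_neg h1 h2).le), if_pos h1, if_neg (not_lt.2 h2.le)]
    norm_num
  · rw [if_pos (div_pos h1 h2), if_pos h1, if_pos h2]
    norm_num

lemma sg_xr (i : ℤ) : sg (xr i) = if 0 < i then 1 else -1 := by
  unfold sg xr
  by_cases h : 0 < i
  · have : (1 : ℝ) ≤ i := by exact_mod_cast h
    rw [if_pos h, if_pos (by linarith)]
  · have : (i : ℝ) ≤ 0 := by exact_mod_cast not_lt.1 h
    rw [if_neg h, if_neg (by linarith)]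

lemma xr_succ (i : ℤ) : xr (i + 1) = xr i + 2 := by unfold xr; push_cast; ring

lemma xr_ne (i : ℤ) : xr i ≠ 0 := by
  intro h
  have := one_le_xr i
  rw [h, abs_zero] at this
  linarith

/-- **the divergence of the angle field** -/
theorem dv_Ba (f : Z2) : dv Ba f = if f = 0 then 2 * Real.pi else 0 := by
  obtain ⟨i, j⟩ := f
  have h1 := arctan_pair (xr_ne i) (xr_ne j)
  have h2 := arctan_pair (xr_ne (i + 1)) (xr_ne j)
  have h3 := arctan_pair (xr_ne i) (xr_ne (j + 1))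
  have h4 := arctan_pair (xr_ne (i + 1)) (xr_ne (j + 1))
  have e : dv Ba (i, j) = (Real.arctan (xr i / xr j) + Real.arctan (xr j / xr i)) -
      (Real.arctan (xr (i + 1) / xr j) + Real.arctan (xr j / xr (i + 1))) -
      (Real.arctan (xr i / xr (j + 1)) + Real.arctan (xr (j + 1) / xr i)) +
      (Real.arctan (xr (i + 1) / xr (j + 1)) + Real.arctan (xr (j + 1) / xr (i + 1))) := by
    unfold dv Ba Gf
    simp only [if_true, Bool.false_eq_true, if_false]
    rw [← xr_succ, ← xr_succ]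
    ring
  rw [e, h1, h2, h3, h4, sg_xr, sg_xr, sg_xr, sg_xr]
  by_cases hi : i = 0
  · by_cases hj : j = 0
    · subst hi; subst hj
      norm_num
      ring
    · have hne : ¬ ((i, j) : Z2) = 0 := fun h => hj (congrArg Prod.snd h)
      rw [if_neg hne]
      subst hi
      by_cases h : 0 < j
      · rw [if_pos h, if_pos (by omega : 0 < j + 1)]
        norm_num
      · rw [if_neg h, if_neg (by omega : ¬ 0 < j + 1)]
        norm_num
        ring
  · have hne : ¬ ((i, j) : Z2) = 0 := fun h => hi (congrArg Prod.fst h)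
    rw [if_neg hne]
    by_cases h : 0 < i
    · rw [if_pos h, if_pos (by omega : 0 < i + 1)]
      ring
    · rw [if_neg h, if_neg (by omega : ¬ 0 < i + 1)]
      ring

/-- the angle is nearly the flux density -/
lemma G_bound {x y : ℝ} (hx : 1 ≤ |x|) :
    |Gf x y - 2 * x / (x ^ 2 + y ^ 2)| ≤ 12 / (x ^ 2 + y ^ 2) := by
  have hx0 : x ≠ 0 := by
    intro h; rw [h, abs_zero] at hx; linarith
  have hd : ∀ t ∈ Set.Ioo y (y + 2), HasDerivAt (fun t => Real.arctan (t / x))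
      (x / (x ^ 2 + t ^ 2)) t := by
    intro t _
    have h1 := ((hasDerivAt_id t).div_const x).arctan
    have e : 1 / (1 + (id t / x) ^ 2) * (1 / x) = x / (x ^ 2 + t ^ 2) := by
      simp only [id]
      field_simp
    rw [e] at h1
    exact h1
  obtain ⟨c, hc, hc1⟩ := exists_hasDerivAt_eq_slope (fun t => Real.arctan (t / x))
    (fun t => x / (x ^ 2 + t ^ 2)) (by linarith : y < y + 2) (by fun_prop) hd
  have hG : Gf x y = 2 * x / (x ^ 2 + c ^ 2) := by
    have e : y + 2 - y = 2 := by ring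
    rw [e] at hc1
    unfold Gf
    have : 2 * x / (x ^ 2 + c ^ 2) = 2 * (x / (x ^ 2 + c ^ 2)) := by ring
    rw [this, hc1]
    ring
  have hx2 : 0 < x ^ 2 := by positivity
  have hsc : 0 < x ^ 2 + c ^ 2 := by positivity
  have hsy : 0 < x ^ 2 + y ^ 2 := by positivity
  rw [hG]
  have e : 2 * x / (x ^ 2 + c ^ 2) - 2 * x / (x ^ 2 + y ^ 2) =
      (2 * x * (y ^ 2 - c ^ 2)) / ((x ^ 2 + c ^ 2) * (x ^ 2 + y ^ 2)) := by
    field_simp; ring
  rw [e, abs_div, abs_of_pos (mul_pos hsc hsy), div_le_div_iff₀ (mul_pos hsc hsy) hsy]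
  have h1 : |2 * x * (y ^ 2 - c ^ 2)| ≤ 12 * (x ^ 2 + c ^ 2) := by
    rw [abs_mul, abs_mul, abs_two]
    have h2 : |y ^ 2 - c ^ 2| ≤ 4 * |c| + 4 := by
      have h3 : y ^ 2 - c ^ 2 = (y - c) * (y + c) := by ring
      have h4 : |y - c| ≤ 2 := by
        rw [abs_le]; constructor <;> linarith [hc.1, hc.2]
      have h5 : |y + c| ≤ 2 * |c| + 2 := by
        have : y + c = 2 * c + (y - c) := by ring
        rw [this]
        refine (abs_add_le _ _).trans ?_
        rw [abs_mul, abs_two]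
        linarith
      rw [h3, abs_mul]
      calc |y - c| * |y + c| ≤ 2 * (2 * |c| + 2) :=
            mul_le_mul h4 h5 (abs_nonneg _) (by norm_num)
        _ = _ := by ring
    have h6 : 2 * |x| * |y ^ 2 - c ^ 2| ≤ 2 * |x| * (4 * |c| + 4) :=
      mul_le_mul_of_nonneg_left h2 (by positivity)
    refine h6.trans ?_
    have h7 : |x| ^ 2 = x ^ 2 := sq_abs x
    have h8 : |c| ^ 2 = c ^ 2 := sq_abs c
    have h9 : |x| ≤ |x| ^ 2 := by nlinarith
    nlinarith [sq_nonneg (|x| - |c|), abs_nonneg c]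
  calc |2 * x * (y ^ 2 - c ^ 2)| * (x ^ 2 + y ^ 2) ≤ 12 * (x ^ 2 + c ^ 2) * (x ^ 2 + y ^ 2) := by
        gcongr
    _ = _ := by ring

lemma sq_add_le {u r δ : ℝ} (hδ : 0 < δ) :
    (u + r) ^ 2 ≤ (1 + δ) * u ^ 2 + (1 + 1 / δ) * r ^ 2 := by
  have h3 : 0 ≤ (δ * u - r) ^ 2 / δ := by positivity
  have h4 : (δ * u - r) ^ 2 / δ = δ * u ^ 2 - 2 * u * r + (1 / δ) * r ^ 2 := by
    field_simp
    ring
  rw [h4] at h3
  nlinarith

lemma G_sq {x y δ : ℝ} (hx : 1 ≤ |x|) (hδ : 0 < δ) :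
    Gf x y ^ 2 ≤ (1 + δ) * (4 * x ^ 2 / (x ^ 2 + y ^ 2) ^ 2) +
      (1 + 1 / δ) * (144 / (x ^ 2 + y ^ 2) ^ 2) := by
  have h := G_bound (y := y) hx
  generalize x ^ 2 + y ^ 2 = s at *
  obtain ⟨r, hr⟩ : ∃ r, r = Gf x y - 2 * x / s := ⟨_, rfl⟩
  rw [← hr] at h
  have e : Gf x y = 2 * x / s + r := by rw [hr]; ring
  have h1 : r ^ 2 ≤ (12 / s) ^ 2 := by
    rw [← sq_abs r]; exact pow_le_pow_left₀ (abs_nonneg _) h 2
  have h2 : (2 * x / s + r) ^ 2 ≤ (1 + δ) * (2 * x / s) ^ 2 + (1 + 1 / δ) * r ^ 2 :=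
    sq_add_le hδ
  have h5 : (1 + 1 / δ) * r ^ 2 ≤ (1 + 1 / δ) * (12 / s) ^ 2 :=
    mul_le_mul_of_nonneg_left h1 (by positivity)
  have e1 : 4 * x ^ 2 / s ^ 2 = (2 * x / s) ^ 2 := by ring
  have e2 : 144 / s ^ 2 = (12 / s) ^ 2 := by ring
  rw [e1, e2, e]
  linarith

lemma G_sq' {x y : ℝ} (hx : 1 ≤ |x|) : Gf x y ^ 2 ≤ 196 / (x ^ 2 + y ^ 2) := by
  have h := G_bound (y := y) hx
  have hx2 : 0 < x ^ 2 := by rw [← sq_abs]; positivity
  have hs : 0 < x ^ 2 + y ^ 2 := by positivity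
  have h1 : |Gf x y| ≤ 14 * |x| / (x ^ 2 + y ^ 2) := by
    have h2 : |Gf x y| ≤ |Gf x y - 2 * x / (x ^ 2 + y ^ 2)| + |2 * x / (x ^ 2 + y ^ 2)| := by
      have := abs_add_le (Gf x y - 2 * x / (x ^ 2 + y ^ 2)) (2 * x / (x ^ 2 + y ^ 2))
      rwa [sub_add_cancel] at this
    have h3 : |2 * x / (x ^ 2 + y ^ 2)| = 2 * |x| / (x ^ 2 + y ^ 2) := by
      rw [abs_div, abs_mul, abs_two, abs_of_pos hs]
    rw [h3] at h2
    refine h2.trans ?_
    have h4 : 12 / (x ^ 2 + y ^ 2) ≤ 12 * |x| / (x ^ 2 + y ^ 2) := by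
      gcongr; linarith
    have e : 14 * |x| / (x ^ 2 + y ^ 2) = 12 * |x| / (x ^ 2 + y ^ 2) +
        2 * |x| / (x ^ 2 + y ^ 2) := by ring
    linarith
  rw [← sq_abs]
  calc |Gf x y| ^ 2 ≤ (14 * |x| / (x ^ 2 + y ^ 2)) ^ 2 := pow_le_pow_left₀ (abs_nonneg _) h1 2
    _ = 196 * x ^ 2 / (x ^ 2 + y ^ 2) ^ 2 := by rw [div_pow, mul_pow, sq_abs]; norm_num
    _ ≤ 196 * (x ^ 2 + y ^ 2) / (x ^ 2 + y ^ 2) ^ 2 := by
        gcongr; nlinarith [sq_nonneg y]
    _ = _ := by field_simp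

lemma pr3 (x a c : ℝ) : |x * (a + c)| ≤ x ^ 2 + (a ^ 2 + c ^ 2) / 2 := by
  rw [abs_le]
  constructor
  · nlinarith [sq_nonneg (x + a), sq_nonneg (x + c)]
  · nlinarith [sq_nonneg (x - a), sq_nonneg (x - c)]

/-- change of the angle under a shift -/
lemma G_shift {x y x' y' l : ℝ} (hl : 0 ≤ l) (hx : 1 ≤ |x|) (hx' : 1 ≤ |x'|)
    (h1 : |x' - x| ≤ 2 * l) (h2 : |y' - y| ≤ 2 * l) :
    |Gf x' y' - Gf x y| ≤ (12 + 16 * l) * (3 + 16 * l ^ 2) / (x ^ 2 + y ^ 2) := by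
  have a1 := G_bound (y := y) hx
  have a2 := G_bound (y := y') hx'
  have hx2 : 1 ≤ x ^ 2 := by rw [← sq_abs]; nlinarith
  have hx2' : 1 ≤ x' ^ 2 := by rw [← sq_abs]; nlinarith
  have hs : 1 ≤ x ^ 2 + y ^ 2 := by nlinarith [sq_nonneg y]
  have hs' : 1 ≤ x' ^ 2 + y' ^ 2 := by nlinarith [sq_nonneg y']
  have d1 : (x' - x) ^ 2 ≤ (2 * l) ^ 2 := by
    rw [← sq_abs]; exact pow_le_pow_left₀ (abs_nonneg _) h1 2
  have d2 : (y' - y) ^ 2 ≤ (2 * l) ^ 2 := by
    rw [← sq_abs]; exact pow_le_pow_left₀ (abs_nonneg _) h2 2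
  set s := x ^ 2 + y ^ 2 with hsdef
  set s' := x' ^ 2 + y' ^ 2 with hsdef'
  have hss : s ≤ (2 + 16 * l ^ 2) * s' := by
    have : s ≤ 2 * s' + 16 * l ^ 2 := by
      rw [hsdef, hsdef']
      nlinarith [sq_nonneg (2 * x' - x), sq_nonneg (2 * y' - y)]
    nlinarith [mul_nonneg (sq_nonneg l) (sub_nonneg.2 hs')]
  have hinv : 1 / s' ≤ (2 + 16 * l ^ 2) / s := by
    rw [div_le_div_iff₀ (by linarith) (by linarith)]
    linarith
  have a3 : |2 * x' / s' - 2 * x / s| ≤ 16 * l * (1 / s + 1 / s') := by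
    have hs0 : s ≠ 0 := by linarith
    have hs0' : s' ≠ 0 := by linarith
    have e : 2 * x' / s' - 2 * x / s = 2 * ((x' - x) * s + x * (s - s')) / (s * s') := by
      field_simp
      ring
    have e2 : 16 * l * (1 / s + 1 / s') = 16 * l * (s + s') / (s * s') := by
      field_simp
      ring
    rw [e, e2, abs_div, abs_of_pos (mul_pos (by linarith) (by linarith) : 0 < s * s')]
    refine div_le_div_of_nonneg_right ?_ (by positivity)
    rw [abs_mul, abs_two]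
    have b1 : |(x' - x) * s| ≤ 2 * l * s := by
      rw [abs_mul, abs_of_pos (by linarith : 0 < s)]
      exact mul_le_mul_of_nonneg_right h1 (by linarith)
    have b2 : |x * (s - s')| ≤ 6 * l * (s + s') := by
      have e3 : x * (s - s') = -((x' - x) * (x * (x + x')) + (y' - y) * (x * (y + y'))) := by
        rw [hsdef, hsdef']; ring
      rw [e3, abs_neg]
      refine (abs_add_le _ _).trans ?_
      rw [abs_mul, abs_mul (y' - y)]
      have c1 : |x * (x + x')| ≤ (3 / 2) * (s + s') := by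
        refine (pr3 _ _ _).trans ?_
        rw [hsdef, hsdef']
        linarith [sq_nonneg x, sq_nonneg x', sq_nonneg y, sq_nonneg y']
      have c2 : |x * (y + y')| ≤ (3 / 2) * (s + s') := by
        refine (pr3 _ _ _).trans ?_
        rw [hsdef, hsdef']
        linarith [sq_nonneg x, sq_nonneg x', sq_nonneg y, sq_nonneg y']
      calc |x' - x| * |x * (x + x')| + |y' - y| * |x * (y + y')|
          ≤ 2 * l * ((3 / 2) * (s + s')) + 2 * l * ((3 / 2) * (s + s')) :=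
            add_le_add (mul_le_mul h1 c1 (abs_nonneg _) (by linarith))
              (mul_le_mul h2 c2 (abs_nonneg _) (by linarith))
        _ = 6 * l * (s + s') := by ring
    have b3 := abs_add_le ((x' - x) * s) (x * (s - s'))
    have b4 : 0 ≤ l * s' := mul_nonneg hl (by linarith)
    nlinarith
  have a4 : |Gf x' y' - Gf x y| ≤ 12 / s' + 12 / s + 16 * l * (1 / s + 1 / s') := by
    have e : Gf x' y' - Gf x y = (Gf x' y' - 2 * x' / s') - (Gf x y - 2 * x / s) +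
        (2 * x' / s' - 2 * x / s) := by ring
    rw [e]
    refine (abs_add_le _ _).trans ?_
    have := abs_sub (Gf x' y' - 2 * x' / s') (Gf x y - 2 * x / s)
    linarith
  refine a4.trans ?_
  have e : 12 / s' + 12 / s + 16 * l * (1 / s + 1 / s') = (12 + 16 * l) * (1 / s + 1 / s') := by
    ring
  rw [e]
  have e2 : (12 + 16 * l) * (3 + 16 * l ^ 2) / s =
      (12 + 16 * l) * (1 / s + (2 + 16 * l ^ 2) / s) := by ring
  rw [e2]
  exact mul_le_mul_of_nonneg_left (by linarith) (by positivity)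

end Vale.Agent.P159.T1.S.Hv
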