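import Vale.Agent.P159.T1.S.H711.Hv7
import Vale.Agent.P159.T1.D.H130.UFin
import Vale.Agent.P159.T1.D.H469.UV

/-!
P159: the energy of the angle field.
-/

open Filter Topology

namespace Vale.Agent.P159.T1.S.Hv

open Vale.Agent.P159 Vale.Agent.P159.T1.D
open Vale.Agent.P159.T1.H910 (dv mem_bd)

/-! ### sums -/

lemma sum_odd (F : ℤ → ℝ) (n : ℕ) :
    ∑ i ∈ Finset.Icc (-(n : ℤ)) (n + 1), F i =
      ∑ k ∈ Finset.range (n + 1), (F ((k : ℤ) + 1) + F (-(k : ℤ))) := by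
  induction n with
  | zero =>
    have e : Finset.Icc (-((0 : ℕ) : ℤ)) (((0 : ℕ) : ℤ) + 1) = {0, 1} := by
      ext j; simp only [Finset.mem_insert, Finset.mem_Icc, Finset.mem_singleton]; push_cast; omega
    rw [e, Finset.sum_pair (by norm_num)]
    simp [add_comm]
  | succ n ih =>
    have e : Finset.Icc (-((n + 1 : ℕ) : ℤ)) (((n + 1 : ℕ) : ℤ) + 1) =
        insert (-((n + 1 : ℕ) : ℤ)) (insert (((n + 1 : ℕ) : ℤ) + 1)
          (Finset.Icc (-(n : ℤ)) (n + 1))) := by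
      ext j
      simp only [Finset.mem_insert, Finset.mem_Icc]
      push_cast
      omega
    rw [e, Finset.sum_insert, Finset.sum_insert, ih, Finset.sum_range_succ _ (n + 1)]
    · ring
    · simp only [Finset.mem_Icc]
      push_cast
      omega
    · simp only [Finset.mem_insert, Finset.mem_Icc]
      push_cast
      omega

lemma sum_inv_le (n : ℕ) :
    ∑ k ∈ Finset.range (n + 1), 1 / (2 * (k : ℝ) + 1) ≤ 1 + Real.log (2 * n + 1) / 2 := by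
  induction n with
  | zero => simp
  | succ n ih =>
    rw [Finset.sum_range_succ]
    have h : 1 / (2 * ((n + 1 : ℕ) : ℝ) + 1) ≤
        Real.log (2 * ((n + 1 : ℕ) : ℝ) + 1) / 2 - Real.log (2 * n + 1) / 2 := by
      have h1 : Real.log ((2 * (n : ℝ) + 1) / (2 * ((n + 1 : ℕ) : ℝ) + 1)) ≤
          (2 * (n : ℝ) + 1) / (2 * ((n + 1 : ℕ) : ℝ) + 1) - 1 :=
        Real.log_le_sub_one_of_pos (by positivity)
      rw [Real.log_div (by positivity) (by positivity)] at h1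
      have h2 : (2 * (n : ℝ) + 1) / (2 * ((n + 1 : ℕ) : ℝ) + 1) - 1 =
          -2 * (1 / (2 * ((n + 1 : ℕ) : ℝ) + 1)) := by
        push_cast
        field_simp
        ring
      rw [h2] at h1
      linarith
    linarith

lemma sum_inv_sq_le (n : ℕ) :
    ∑ k ∈ Finset.range (n + 1), 1 / (2 * (k : ℝ) + 1) ^ 2 ≤ 2 - 1 / (2 * (n : ℝ) + 1) := by
  induction n with
  | zero => norm_num
  | succ n ih =>
    rw [Finset.sum_range_succ]
    have h : 1 / (2 * ((n + 1 : ℕ) : ℝ) + 1) ^ 2 ≤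
        1 / (2 * (n : ℝ) + 1) - 1 / (2 * ((n + 1 : ℕ) : ℝ) + 1) := by
      push_cast
      have e : 1 / (2 * (n : ℝ) + 1) - 1 / (2 * ((n : ℝ) + 1) + 1) =
          2 / ((2 * (n : ℝ) + 1) * (2 * ((n : ℝ) + 1) + 1)) := by
        field_simp
        ring
      rw [e, div_le_div_iff₀ (by positivity) (by positivity)]
      nlinarith [Nat.cast_nonneg (α := ℝ) n]
    linarith

lemma sum_inv_sq_le' (n : ℕ) :
    ∑ k ∈ Finset.range (n + 1), 1 / (2 * (k : ℝ) + 1) ^ 2 ≤ 2 :=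
  (sum_inv_sq_le n).trans (by
    have : (0 : ℝ) ≤ 1 / (2 * (n : ℝ) + 1) := by positivity
    linarith)

/-- one column -/
lemma col_le {x : ℝ} (hx : 1 ≤ x) (n : ℕ) :
    ∑ k ∈ Finset.range (n + 1), 1 / (x ^ 2 + (2 * (k : ℝ) + 1) ^ 2) ≤
      Real.pi / (4 * x) + 1 / x ^ 2 := by
  have hx0 : 0 < x := by linarith
  have key : ∀ m : ℕ, ∑ k ∈ Finset.range m, 1 / (x ^ 2 + (2 * (k : ℝ) + 1) ^ 2) ≤
      1 / (2 * x) * Real.arctan (2 * m / x) +
        (1 / (x ^ 2 + 1) - 1 / (x ^ 2 + (2 * (m : ℝ) + 1) ^ 2)) := by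
    intro m
    induction m with
    | zero => simp
    | succ m ih =>
      rw [Finset.sum_range_succ]
      have h1 := arctan_sub_ge (u := 2 * (m : ℝ) / x) (v := 2 * ((m : ℝ) + 1) / x)
        (w := 2 * ((m : ℝ) + 1) / x) (by
          have : 0 ≤ 2 * ((m : ℝ) + 1) / x := by positivity
          have : 0 ≤ 2 * (m : ℝ) / x := by positivity
          linarith) (by gcongr; linarith) le_rfl
      have e1 : (2 * ((m : ℝ) + 1) / x - 2 * (m : ℝ) / x) / (1 + (2 * ((m : ℝ) + 1) / x) ^ 2) =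
          2 * x * (1 / (x ^ 2 + (2 * ((m : ℝ) + 1)) ^ 2)) := by
        field_simp
        ring
      rw [e1] at h1
      have h2 : 1 / (x ^ 2 + (2 * ((m : ℝ) + 1)) ^ 2) ≤ 1 / (2 * x) *
          (Real.arctan (2 * ((m : ℝ) + 1) / x) - Real.arctan (2 * (m : ℝ) / x)) := by
        rw [one_div_mul_eq_div, le_div_iff₀ (by positivity)]
        linarith
      have h3 : 1 / (x ^ 2 + (2 * ((m : ℝ) + 1) + 1) ^ 2) ≤
          1 / (x ^ 2 + (2 * ((m : ℝ) + 1)) ^ 2) := by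
        refine one_div_le_one_div_of_le (by positivity) ?_
        have : (0 : ℝ) ≤ m := Nat.cast_nonneg m
        nlinarith
      push_cast
      linarith
  refine (key (n + 1)).trans ?_
  have h1 : Real.arctan (2 * ((n + 1 : ℕ) : ℝ) / x) ≤ Real.pi / 2 := (Real.arctan_lt_pi_div_two _).le
  have h2 : 1 / (2 * x) * Real.arctan (2 * ((n + 1 : ℕ) : ℝ) / x) ≤ 1 / (2 * x) * (Real.pi / 2) :=
    mul_le_mul_of_nonneg_left h1 (by positivity)
  have e : 1 / (2 * x) * (Real.pi / 2) = Real.pi / (4 * x) := by field_simp; norm_num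
  have h3 : 1 / (x ^ 2 + 1) ≤ 1 / x ^ 2 := one_div_le_one_div_of_le (by positivity) (by linarith)
  have h4 : 0 ≤ 1 / (x ^ 2 + (2 * ((n + 1 : ℕ) : ℝ) + 1) ^ 2) := by positivity
  linarith

/-- positions of bonds -/
noncomputable def PB (n : ℕ) : Finset Z2 :=
  Finset.Icc (-(n : ℤ)) (n + 1) ×ˢ Finset.Icc (-(n : ℤ)) (n + 1)

/-- square of twice the distance -/
noncomputable def sP (P : Z2) : ℝ := xr P.1 ^ 2 + xr P.2 ^ 2

lemma sP_ge (P : Z2) : 2 ≤ sP P := by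
  unfold sP
  linarith [one_le_xr_sq P.1, one_le_xr_sq P.2]

lemma xr_pos (k : ℕ) : xr ((k : ℤ) + 1) = 2 * (k : ℝ) + 1 := by unfold xr; push_cast; ring
lemma xr_neg (k : ℕ) : xr (-(k : ℤ)) = -(2 * (k : ℝ) + 1) := by unfold xr; push_cast; ring

lemma sum_PB (F : ℝ → ℝ → ℝ) (n : ℕ) :
    ∑ P ∈ PB n, F (xr P.1 ^ 2) (xr P.2 ^ 2) =
      4 * ∑ k ∈ Finset.range (n + 1), ∑ m ∈ Finset.range (n + 1),
        F ((2 * (k : ℝ) + 1) ^ 2) ((2 * (m : ℝ) + 1) ^ 2) := by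
  unfold PB
  rw [Finset.sum_product, sum_odd]
  simp only [sum_odd, xr_pos, xr_neg, neg_sq]
  rw [Finset.mul_sum]
  refine Finset.sum_congr rfl fun k _ => ?_
  rw [Finset.sum_add_distrib, Finset.mul_sum, ← Finset.sum_add_distrib, ← Finset.sum_add_distrib]
  refine Finset.sum_congr rfl fun m _ => ?_
  ring

/-- **the energy sum** -/
theorem sum_energy (n : ℕ) :
    ∑ P ∈ PB n, 4 / sP P ≤ 2 * Real.pi * Real.log (2 * n + 1) + (4 * Real.pi + 32) := by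
  have h := sum_PB (fun u v => 4 / (u + v)) n
  have e : ∀ P : Z2, 4 / sP P = 4 / (xr P.1 ^ 2 + xr P.2 ^ 2) := fun P => rfl
  simp only [e]
  rw [h]
  have h1 : ∀ k ∈ Finset.range (n + 1), ∑ m ∈ Finset.range (n + 1),
      4 / ((2 * (k : ℝ) + 1) ^ 2 + (2 * (m : ℝ) + 1) ^ 2) ≤
      Real.pi * (1 / (2 * (k : ℝ) + 1)) + 4 * (1 / (2 * (k : ℝ) + 1) ^ 2) := by
    intro k _
    have hx : (1 : ℝ) ≤ 2 * (k : ℝ) + 1 := by
      have : (0 : ℝ) ≤ k := Nat.cast_nonneg k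
      linarith
    have h2 := col_le hx n
    have e1 : ∑ m ∈ Finset.range (n + 1), 4 / ((2 * (k : ℝ) + 1) ^ 2 + (2 * (m : ℝ) + 1) ^ 2) =
        4 * ∑ m ∈ Finset.range (n + 1), 1 / ((2 * (k : ℝ) + 1) ^ 2 + (2 * (m : ℝ) + 1) ^ 2) := by
      rw [Finset.mul_sum]
      refine Finset.sum_congr rfl fun m _ => ?_
      ring
    rw [e1]
    have e2 : Real.pi * (1 / (2 * (k : ℝ) + 1)) + 4 * (1 / (2 * (k : ℝ) + 1) ^ 2) =
        4 * (Real.pi / (4 * (2 * (k : ℝ) + 1)) + 1 / (2 * (k : ℝ) + 1) ^ 2) := by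
      field_simp
    rw [e2]
    linarith
  have h2 := Finset.sum_le_sum h1
  rw [Finset.sum_add_distrib, ← Finset.mul_sum, ← Finset.mul_sum] at h2
  have h3 := mul_le_mul_of_nonneg_left (sum_inv_le n) Real.pi_pos.le
  have h4 := sum_inv_sq_le' n
  nlinarith

/-- the sum of the inverse fourth powers -/
theorem sum_four (n : ℕ) : ∑ P ∈ PB n, 1 / sP P ^ 2 ≤ 4 := by
  have h := sum_PB (fun u v => 1 / (u + v) ^ 2) n
  have e : ∀ P : Z2, 1 / sP P ^ 2 = 1 / (xr P.1 ^ 2 + xr P.2 ^ 2) ^ 2 := fun P => rfl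
  simp only [e]
  rw [h]
  have h1 : ∑ k ∈ Finset.range (n + 1), ∑ m ∈ Finset.range (n + 1),
      1 / ((2 * (k : ℝ) + 1) ^ 2 + (2 * (m : ℝ) + 1) ^ 2) ^ 2 ≤
      ∑ k ∈ Finset.range (n + 1), ∑ m ∈ Finset.range (n + 1),
      (1 / 4) * (1 / (2 * (k : ℝ) + 1) ^ 2 * (1 / (2 * (m : ℝ) + 1) ^ 2)) := by
    refine Finset.sum_le_sum fun k _ => Finset.sum_le_sum fun m _ => ?_
    have e1 : (1 / 4) * (1 / (2 * (k : ℝ) + 1) ^ 2 * (1 / (2 * (m : ℝ) + 1) ^ 2)) =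
        1 / (4 * ((2 * (k : ℝ) + 1) ^ 2 * (2 * (m : ℝ) + 1) ^ 2)) := by field_simp
    rw [e1]
    refine one_div_le_one_div_of_le (by positivity) ?_
    nlinarith [sq_nonneg ((2 * (k : ℝ) + 1) ^ 2 - (2 * (m : ℝ) + 1) ^ 2)]
  have h2 : ∑ k ∈ Finset.range (n + 1), ∑ m ∈ Finset.range (n + 1),
      (1 / 4) * (1 / (2 * (k : ℝ) + 1) ^ 2 * (1 / (2 * (m : ℝ) + 1) ^ 2)) =
      (1 / 4) * ((∑ k ∈ Finset.range (n + 1), 1 / (2 * (k : ℝ) + 1) ^ 2) *
        (∑ m ∈ Finset.range (n + 1), 1 / (2 * (m : ℝ) + 1) ^ 2)) := by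
    rw [Finset.sum_mul_sum, Finset.mul_sum]
    refine Finset.sum_congr rfl fun k _ => ?_
    rw [Finset.mul_sum]
  have h3 := sum_inv_sq_le' n
  have h4 : 0 ≤ ∑ k ∈ Finset.range (n + 1), 1 / (2 * (k : ℝ) + 1) ^ 2 :=
    Finset.sum_nonneg fun _ _ => by positivity
  have h5 := mul_le_mul h3 h3 h4 (by norm_num : (0 : ℝ) ≤ 2)
  linarith

/-! ### the angle field on bonds -/

lemma Ba_sq_pair {P : Z2} {δ : ℝ} (hδ : 0 < δ) :
    Ba (P, true) ^ 2 + Ba (P, false) ^ 2 ≤ (1 + δ) * (4 / sP P) +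
      (1 + 1 / δ) * (288 * (1 / sP P ^ 2)) := by
  have h1 := G_sq (x := xr P.1) (y := xr P.2) (one_le_xr _) hδ
  have h2 := G_sq (x := xr P.2) (y := xr P.1) (one_le_xr _) hδ
  have hs := sP_ge P
  have e : xr P.2 ^ 2 + xr P.1 ^ 2 = sP P := by unfold sP; ring
  have e' : xr P.1 ^ 2 + xr P.2 ^ 2 = sP P := rfl
  rw [e] at h2
  rw [e'] at h1
  have hb : Ba (P, true) ^ 2 + Ba (P, false) ^ 2 =
      Gf (xr P.1) (xr P.2) ^ 2 + Gf (xr P.2) (xr P.1) ^ 2 := by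
    unfold Ba; simp
  rw [hb]
  have e2 : 4 * xr P.1 ^ 2 / sP P ^ 2 + 4 * xr P.2 ^ 2 / sP P ^ 2 = 4 / sP P := by
    rw [← add_div, ← mul_add, e']
    field_simp
  have e3 : (1 + δ) * (4 / sP P) = (1 + δ) * (4 * xr P.1 ^ 2 / sP P ^ 2) +
      (1 + δ) * (4 * xr P.2 ^ 2 / sP P ^ 2) := by rw [← mul_add, e2]
  have e4 : (1 + 1 / δ) * (288 * (1 / sP P ^ 2)) = (1 + 1 / δ) * (144 / sP P ^ 2) +
      (1 + 1 / δ) * (144 / sP P ^ 2) := by ring
  rw [e3, e4]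
  linarith

lemma Ba_sq' (e : Bnd) : Ba e ^ 2 ≤ 196 / sP e.1 := by
  obtain ⟨P, d⟩ := e
  unfold Ba sP
  cases d
  · simp only [Bool.false_eq_true, if_false, neg_sq]
    rw [add_comm]
    exact G_sq' (one_le_xr _)
  · simp only [if_true]
    exact G_sq' (one_le_xr _)

lemma Ba_shift {l : ℕ} {u : Z2} (hu : u ∈ Finset.Icc (-(l : ℤ), -(l : ℤ)) ((l : ℤ), (l : ℤ)))
    (e : Bnd) : |Ba (sh u e) - Ba e| ≤ (12 + 16 * l) * (3 + 16 * (l : ℝ) ^ 2) / sP e.1 := by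
  rw [Finset.mem_Icc, Prod.le_def, Prod.le_def] at hu
  simp only at hu
  have key : ∀ i v : ℤ, -(l : ℤ) ≤ v → v ≤ l → |xr (i + v) - xr i| ≤ 2 * (l : ℝ) := by
    intro i v h1 h2
    have h1' : -(l : ℝ) ≤ v := by exact_mod_cast h1
    have h2' : (v : ℝ) ≤ l := by exact_mod_cast h2
    unfold xr
    push_cast
    rw [abs_le]
    constructor <;> linarith
  have k1 := key e.1.1 u.1 hu.1.1 hu.2.1
  have k2 := key e.1.2 u.2 hu.1.2 hu.2.2
  obtain ⟨⟨i, j⟩, d⟩ := e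
  unfold Ba sh sP
  cases d
  · simp only [Bool.false_eq_true, if_false, Prod.fst_add, Prod.snd_add]
    rw [neg_sub_neg, abs_sub_comm, add_comm (xr i ^ 2)]
    exact G_shift (Nat.cast_nonneg l) (one_le_xr _) (one_le_xr _) k2 k1
  · simp only [if_true, Prod.fst_add, Prod.snd_add]
    exact G_shift (Nat.cast_nonneg l) (one_le_xr _) (one_le_xr _) k1 k2

end Vale.Agent.P159.T1.S.Hv
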