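import Vale.Agent.P159.T1.S.H711.Hv6
import Vale.Agent.P159.T1.S.H711.Hv8

/-!
P159: upper bound for the variance of the height at a face, and the exact logarithmic growth.
-/

open Filter Topology

namespace Vale.Agent.P159.T1.S.Hv

open Vale.Agent.P159 Vale.Agent.P159.T1.D
open Vale.Agent.P159.T1.H910 (dv mem_bd)

variable {b : ℝ}

/-- cutoff -/
noncomputable def ch0 (n : ℕ) (P : Z2) : ℝ :=
  max 0 (min 1 (2 - max |xr P.1| |xr P.2| / (2 * n + 1)))

lemma ch0_nonneg (n : ℕ) (P : Z2) : 0 ≤ ch0 n P := le_max_left _ _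

lemma ch0_le (n : ℕ) (P : Z2) : ch0 n P ≤ 1 := max_le zero_le_one (min_le_left _ _)

lemma abs_xr_le {i : ℤ} {n : ℕ} (h : i ∈ Finset.Icc (-(n : ℤ)) (n + 1)) : |xr i| ≤ 2 * n + 1 := by
  rw [Finset.mem_Icc] at h
  have h1 : -(n : ℝ) ≤ i := by exact_mod_cast h.1
  have h2 : (i : ℝ) ≤ n + 1 := by exact_mod_cast h.2
  unfold xr
  rw [abs_le]
  constructor <;> linarith

lemma abs_xr_gt {i : ℤ} {n : ℕ} (h : i ∉ Finset.Icc (-(n : ℤ)) (n + 1)) : 2 * n + 2 ≤ |xr i| := by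
  rw [Finset.mem_Icc, not_and_or, not_le, not_le] at h
  unfold xr
  rw [le_abs]
  rcases h with h | h
  · right
    have : (i : ℝ) + 1 ≤ -(n : ℝ) := by exact_mod_cast h
    linarith
  · left
    have : (n : ℝ) + 1 + 1 ≤ i := by exact_mod_cast h
    linarith

lemma ch0_one {n : ℕ} {P : Z2} (h : P ∈ PB n) : ch0 n P = 1 := by
  rw [PB, Finset.mem_product] at h
  unfold ch0
  have h1 : max |xr P.1| |xr P.2| ≤ 2 * n + 1 := max_le (abs_xr_le h.1) (abs_xr_le h.2)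
  have h2 : max |xr P.1| |xr P.2| / (2 * n + 1) ≤ 1 := by
    rw [div_le_one (by positivity)]; exact h1
  rw [min_eq_left (by linarith), max_eq_right zero_le_one]

lemma ch0_zero {n : ℕ} {P : Z2} (h : P ∉ PB (2 * n)) : ch0 n P = 0 := by
  rw [PB, Finset.mem_product, not_and_or] at h
  unfold ch0
  have h1 : 2 * (2 * (n : ℝ) + 1) ≤ max |xr P.1| |xr P.2| := by
    rcases h with h | h
    · have := abs_xr_gt h
      push_cast at this
      exact le_trans (by linarith) (le_max_left _ _)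
    · have := abs_xr_gt h
      push_cast at this
      exact le_trans (by linarith) (le_max_right _ _)
  have h2 : 2 ≤ max |xr P.1| |xr P.2| / (2 * n + 1) := by
    rw [le_div_iff₀ (by positivity)]; exact h1
  rw [max_eq_left]
  exact (min_le_right _ _).trans (by linarith)

lemma clamp_lip (x y : ℝ) : |max 0 (min 1 x) - max 0 (min 1 y)| ≤ |x - y| := by
  refine (abs_max_sub_max_le_max _ _ _ _).trans ?_
  rw [sub_self, abs_zero]
  refine max_le (abs_nonneg _) ((abs_min_sub_min_le_max _ _ _ _).trans ?_)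
  rw [sub_self, abs_zero]
  exact max_le (abs_nonneg _) le_rfl

lemma xr_shift {l : ℕ} {i v : ℤ} (h1 : -(l : ℤ) ≤ v) (h2 : v ≤ l) :
    |xr (i + v) - xr i| ≤ 2 * (l : ℝ) := by
  have h1' : -(l : ℝ) ≤ v := by exact_mod_cast h1
  have h2' : (v : ℝ) ≤ l := by exact_mod_cast h2
  unfold xr
  push_cast
  rw [abs_le]
  constructor <;> linarith

lemma ch0_shift {l : ℕ} {u : Z2} (hu : u ∈ Finset.Icc (-(l : ℤ), -(l : ℤ)) ((l : ℤ), (l : ℤ)))
    (n : ℕ) (P : Z2) : |ch0 n (P + u) - ch0 n P| ≤ 2 * l / (2 * n + 1) := by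
  rw [Finset.mem_Icc, Prod.le_def, Prod.le_def] at hu
  simp only at hu
  have k1 := xr_shift (i := P.1) hu.1.1 hu.2.1
  have k2 := xr_shift (i := P.2) hu.1.2 hu.2.2
  unfold ch0
  refine (clamp_lip _ _).trans ?_
  have e : (2 - max |xr (P + u).1| |xr (P + u).2| / (2 * (n : ℝ) + 1)) -
      (2 - max |xr P.1| |xr P.2| / (2 * n + 1)) =
      -((max |xr (P + u).1| |xr (P + u).2| - max |xr P.1| |xr P.2|) / (2 * n + 1)) := by ring
  rw [e, abs_neg, abs_div, abs_of_pos (by positivity : (0 : ℝ) < 2 * n + 1)]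
  refine div_le_div_of_nonneg_right ?_ (by positivity)
  refine (abs_max_sub_max_le_max _ _ _ _).trans (max_le ?_ ?_)
  · exact (abs_abs_sub_abs_le_abs_sub _ _).trans k1
  · exact (abs_abs_sub_abs_le_abs_sub _ _).trans k2

/-- the flow from the face `0` -/
noncomputable def Bf (n : ℕ) (e : Bnd) : ℝ := ch0 n e.1 * Ba e / (2 * Real.pi)

/-- bonds with base point in `PB n` -/
noncomputable def SP (n : ℕ) : Finset Bnd := PB n ×ˢ (Finset.univ : Finset Bool)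

lemma Bf_off {n : ℕ} {e : Bnd} (h : e ∉ SP (2 * n)) : Bf n e = 0 := by
  unfold Bf
  rw [ch0_zero fun h' => h (Finset.mem_product.2 ⟨h', Finset.mem_univ _⟩), zero_mul, zero_div]

lemma Bf_isDiv (n : ℕ) : IsDiv (bx 0 n) (Bf n) (dl 0) := by
  intro f hf
  rw [mem_bx0] at hf
  have h1 : (f.1, f.2) ∈ PB n := by
    rw [PB, Finset.mem_product, Finset.mem_Icc, Finset.mem_Icc]
    simp only
    omega
  have h2 : (f.1, f.2 + 1) ∈ PB n := by
    rw [PB, Finset.mem_product, Finset.mem_Icc, Finset.mem_Icc]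
    simp only
    omega
  have h3 : (f.1 + 1, f.2) ∈ PB n := by
    rw [PB, Finset.mem_product, Finset.mem_Icc, Finset.mem_Icc]
    simp only
    omega
  have h4 := dv_Ba f
  unfold dv at h4
  unfold Bf
  simp only
  rw [ch0_one h1, ch0_one h2, ch0_one h3]
  have hp := Real.pi_pos
  have e : 1 * Ba (f, false) / (2 * Real.pi) - 1 * Ba ((f.1, f.2 + 1), false) / (2 * Real.pi) +
      1 * Ba ((f.1 + 1, f.2), true) / (2 * Real.pi) - 1 * Ba (f, true) / (2 * Real.pi) =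
      (Ba (f, false) - Ba ((f.1, f.2 + 1), false) + Ba ((f.1 + 1, f.2), true) - Ba (f, true)) /
        (2 * Real.pi) := by ring
  rw [e, h4]
  unfold dl
  split_ifs
  · field_simp
  · simp

lemma Bf_energy {n : ℕ} {δ : ℝ} (hδ : 0 < δ) : ∑ e ∈ SP (2 * n), Bf n e ^ 2 ≤
    (1 / (4 * Real.pi ^ 2)) * ((1 + δ) * (2 * Real.pi * Real.log (4 * n + 1) +
      (4 * Real.pi + 32)) + (1 + 1 / δ) * 1152) := by
  have hp := Real.pi_pos
  have h1 : ∀ e : Bnd, Bf n e ^ 2 ≤ (1 / (4 * Real.pi ^ 2)) * Ba e ^ 2 := by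
    intro e
    unfold Bf
    have h2 : ch0 n e.1 ^ 2 ≤ 1 := pow_le_one₀ (ch0_nonneg _ _) (ch0_le _ _)
    have e2 : (ch0 n e.1 * Ba e / (2 * Real.pi)) ^ 2 =
        (1 / (4 * Real.pi ^ 2)) * (ch0 n e.1 ^ 2 * Ba e ^ 2) := by field_simp; ring
    rw [e2]
    refine mul_le_mul_of_nonneg_left ?_ (by positivity)
    nlinarith [sq_nonneg (Ba e)]
  calc ∑ e ∈ SP (2 * n), Bf n e ^ 2 ≤ ∑ e ∈ SP (2 * n), (1 / (4 * Real.pi ^ 2)) * Ba e ^ 2 :=
        Finset.sum_le_sum fun e _ => h1 e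
    _ = (1 / (4 * Real.pi ^ 2)) * ∑ P ∈ PB (2 * n), (Ba (P, true) ^ 2 + Ba (P, false) ^ 2) := by
        rw [← Finset.mul_sum]
        unfold SP
        rw [Finset.sum_product]
        simp
    _ ≤ (1 / (4 * Real.pi ^ 2)) * ∑ P ∈ PB (2 * n), ((1 + δ) * (4 / sP P) +
          (1 + 1 / δ) * (288 * (1 / sP P ^ 2))) :=
        mul_le_mul_of_nonneg_left (Finset.sum_le_sum fun P _ => Ba_sq_pair hδ) (by positivity)
    _ ≤ _ := by
        refine mul_le_mul_of_nonneg_left ?_ (by positivity)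
        rw [Finset.sum_add_distrib, ← Finset.mul_sum, ← Finset.mul_sum, ← Finset.mul_sum]
        have h2 := sum_energy (2 * n)
        have h3 := sum_four (2 * n)
        have e1 : (2 : ℝ) * ((2 * n : ℕ) : ℝ) + 1 = 4 * n + 1 := by push_cast; ring
        rw [e1] at h2
        have h4 := mul_le_mul_of_nonneg_left h2 (by positivity : 0 ≤ 1 + δ)
        have h5 : (1 + 1 / δ) * (288 * ∑ P ∈ PB (2 * n), 1 / sP P ^ 2) ≤ (1 + 1 / δ) * 1152 :=
          mul_le_mul_of_nonneg_left (by linarith) (by positivity)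
        linarith

/-- the constant in the bound of the oscillation -/
noncomputable def Dl (l : ℕ) : ℝ :=
  2 * ((12 + 16 * l) * (3 + 16 * (l : ℝ) ^ 2)) ^ 2 + 2 * (196 * (4 * (l : ℝ) ^ 2 * 8))

lemma Bf_shift {l n : ℕ} {u : Z2} (hu : u ∈ Finset.Icc (-(l : ℤ), -(l : ℤ)) ((l : ℤ), (l : ℤ)))
    {e : Bnd} (he : e ∈ SP (2 * n)) : (Bf n (sh u e) - Bf n e) ^ 2 ≤ Dl l * (1 / sP e.1 ^ 2) := by
  have hp : 1 ≤ (2 * Real.pi) ^ 2 := by
    have := Real.pi_gt_three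
    nlinarith
  have hp0 := Real.pi_pos
  have hs := sP_ge e.1
  have e1 : Bf n (sh u e) - Bf n e = (ch0 n (e.1 + u) * (Ba (sh u e) - Ba e) +
      (ch0 n (e.1 + u) - ch0 n e.1) * Ba e) / (2 * Real.pi) := by
    unfold Bf sh
    simp only
    ring
  have h1 : (ch0 n (e.1 + u) * (Ba (sh u e) - Ba e)) ^ 2 ≤
      ((12 + 16 * l) * (3 + 16 * (l : ℝ) ^ 2)) ^ 2 * (1 / sP e.1 ^ 2) := by
    have h2 := Ba_shift hu e
    have h3 : (Ba (sh u e) - Ba e) ^ 2 ≤
        ((12 + 16 * l) * (3 + 16 * (l : ℝ) ^ 2) / sP e.1) ^ 2 := by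
      rw [← sq_abs]; exact pow_le_pow_left₀ (abs_nonneg _) h2 2
    have h4 : ch0 n (e.1 + u) ^ 2 ≤ 1 := pow_le_one₀ (ch0_nonneg _ _) (ch0_le _ _)
    rw [mul_pow]
    calc ch0 n (e.1 + u) ^ 2 * (Ba (sh u e) - Ba e) ^ 2 ≤ 1 * (Ba (sh u e) - Ba e) ^ 2 :=
          mul_le_mul_of_nonneg_right h4 (sq_nonneg _)
      _ ≤ ((12 + 16 * l) * (3 + 16 * (l : ℝ) ^ 2) / sP e.1) ^ 2 := by rw [one_mul]; exact h3
      _ = _ := by ring
  have h2 : ((ch0 n (e.1 + u) - ch0 n e.1) * Ba e) ^ 2 ≤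
      196 * (4 * (l : ℝ) ^ 2 * 8) * (1 / sP e.1 ^ 2) := by
    have h3 : (ch0 n (e.1 + u) - ch0 n e.1) ^ 2 ≤ (2 * l / (2 * n + 1)) ^ 2 := by
      rw [← sq_abs]; exact pow_le_pow_left₀ (abs_nonneg _) (ch0_shift hu n e.1) 2
    have h4 : sP e.1 ≤ 8 * (2 * (n : ℝ) + 1) ^ 2 := by
      rw [SP, Finset.mem_product, PB, Finset.mem_product] at he
      have a1 := abs_xr_le he.1.1
      have a2 := abs_xr_le he.1.2
      push_cast at a1 a2
      have b1 : xr e.1.1 ^ 2 ≤ (2 * (2 * n) + 1) ^ 2 := by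
        rw [← sq_abs]; exact pow_le_pow_left₀ (abs_nonneg _) a1 2
      have b2 : xr e.1.2 ^ 2 ≤ (2 * (2 * n) + 1) ^ 2 := by
        rw [← sq_abs]; exact pow_le_pow_left₀ (abs_nonneg _) a2 2
      unfold sP
      have : (0 : ℝ) ≤ n := Nat.cast_nonneg n
      nlinarith
    have h5 : (2 * l / (2 * (n : ℝ) + 1)) ^ 2 ≤ 4 * (l : ℝ) ^ 2 * 8 * (1 / sP e.1) := by
      have e2 : (2 * l / (2 * (n : ℝ) + 1)) ^ 2 = 4 * (l : ℝ) ^ 2 * (1 / (2 * (n : ℝ) + 1) ^ 2) := by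
        field_simp; ring
      have e3 : 4 * (l : ℝ) ^ 2 * 8 * (1 / sP e.1) = 4 * (l : ℝ) ^ 2 * (8 / sP e.1) := by ring
      rw [e2, e3]
      refine mul_le_mul_of_nonneg_left ?_ (by positivity)
      rw [div_le_div_iff₀ (by positivity) (by linarith)]
      linarith
    rw [mul_pow]
    calc (ch0 n (e.1 + u) - ch0 n e.1) ^ 2 * Ba e ^ 2 ≤
          (4 * (l : ℝ) ^ 2 * 8 * (1 / sP e.1)) * (196 / sP e.1) :=
          mul_le_mul (h3.trans h5) (Ba_sq' e) (sq_nonneg _) (by positivity)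
      _ = _ := by
          have : sP e.1 ≠ 0 := by linarith
          field_simp
  rw [e1, div_pow]
  have h3 : ∀ x y : ℝ, (x + y) ^ 2 ≤ 2 * x ^ 2 + 2 * y ^ 2 := fun x y => by
    nlinarith [sq_nonneg (x - y)]
  have h4 := h3 (ch0 n (e.1 + u) * (Ba (sh u e) - Ba e)) ((ch0 n (e.1 + u) - ch0 n e.1) * Ba e)
  calc _ ≤ (ch0 n (e.1 + u) * (Ba (sh u e) - Ba e) +
        (ch0 n (e.1 + u) - ch0 n e.1) * Ba e) ^ 2 := div_le_self (sq_nonneg _) hp
    _ ≤ _ := h4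
    _ ≤ _ := by unfold Dl; linarith

lemma Bf_osc (l n : ℕ) : osc l (SP (2 * n)) (Bf n) ≤ (2 * (l : ℝ) + 1) ^ 2 * (8 * Dl l) := by
  unfold osc
  have hD : 0 ≤ Dl l := by unfold Dl; positivity
  have hc : ((Finset.Icc (-(l : ℤ), -(l : ℤ)) ((l : ℤ), (l : ℤ))).card : ℝ) =
      (2 * (l : ℝ) + 1) ^ 2 := by
    have h : Finset.Icc (-(l : ℤ), -(l : ℤ)) ((l : ℤ), (l : ℤ)) =
        Finset.Icc (-(l : ℤ)) l ×ˢ Finset.Icc (-(l : ℤ)) l := rfl
    rw [h, Finset.card_product, Int.card_Icc]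
    have e : ((l : ℤ) + 1 - -(l : ℤ)).toNat = 2 * l + 1 := by omega
    rw [e]
    push_cast
    ring
  calc ∑ e ∈ SP (2 * n), ∑ u ∈ Finset.Icc (-(l : ℤ), -(l : ℤ)) ((l : ℤ), (l : ℤ)),
        (Bf n (sh u e) - Bf n e) ^ 2
      ≤ ∑ e ∈ SP (2 * n), ∑ _u ∈ Finset.Icc (-(l : ℤ), -(l : ℤ)) ((l : ℤ), (l : ℤ)),
        Dl l * (1 / sP e.1 ^ 2) :=
        Finset.sum_le_sum fun e he => Finset.sum_le_sum fun u hu => Bf_shift hu he
    _ = (2 * (l : ℝ) + 1) ^ 2 * (Dl l * (2 * ∑ P ∈ PB (2 * n), 1 / sP P ^ 2)) := by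
        simp only [Finset.sum_const, nsmul_eq_mul, hc]
        rw [← Finset.mul_sum, ← Finset.mul_sum]
        unfold SP
        rw [Finset.sum_product]
        simp only [Finset.sum_const, Finset.card_univ, Fintype.card_bool, nsmul_eq_mul]
        rw [← Finset.mul_sum]
        push_cast
        ring
    _ ≤ (2 * (l : ℝ) + 1) ^ 2 * (Dl l * (2 * 4)) := by
        gcongr
        exact sum_four _
    _ = _ := by ring

/-- **upper bound for the variance of the height at a face** -/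
theorem upper (b : ℝ) (hb : bCrit ≤ b) (ε : ℝ) (hε : 0 < ε) : ∃ C : ℝ, ∀ n : ℕ, 1 ≤ n →
    vn b n ≤ (helicity b / (2 * Real.pi) + ε) * Real.log n + C := by
  have hY := T1.H934.pos_of_ge b hb
  have hb0 : 0 < b := hY.1
  have hp := Real.pi_pos
  have hY0 : 0 < helicity b := lt_of_lt_of_le (by positivity) hY.2
  obtain ⟨l, C, hC, H⟩ := (H469.uv_of_u stmtU) b ε hb0 hε
  set δ : ℝ := ε / (helicity b + ε) with hδdef
  have hδ : 0 < δ := by positivity
  set A : ℝ := helicity b + ε with hA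
  have hA0 : 0 < A := by positivity
  have hAδ : A * (1 + δ) = helicity b + 2 * ε := by
    rw [hδdef, mul_add, mul_one, mul_div_cancel₀ _ hA0.ne', hA]; ring
  refine ⟨A * ((1 / (4 * Real.pi ^ 2)) * ((1 + δ) * (2 * Real.pi * Real.log 5 +
      (4 * Real.pi + 32)) + (1 + 1 / δ) * 1152)) + C * ((2 * (l : ℝ) + 1) ^ 2 * (8 * Dl l)),
    fun n hn => ?_⟩
  have hn' : (1 : ℝ) ≤ n := by exact_mod_cast hn
  have h1 : vn b n = Vr b (bx 0 n) (Bf n) := by
    unfold vn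
    rw [hv_eq (by rw [mem_bx0]; simp), Vr_of_div (Bf_isDiv n)]
  have h2 := H (bx 0 n) (SP (2 * n)) (Bf n) fun e he => Bf_off he
  have h3 := mul_le_mul_of_nonneg_left (Bf_energy (n := n) hδ) hA0.le
  have h4 := mul_le_mul_of_nonneg_left (Bf_osc l n) hC.le
  have h5 : Real.log (4 * n + 1) ≤ Real.log 5 + Real.log n := by
    rw [← Real.log_mul (by norm_num) (by positivity)]
    exact Real.log_le_log (by positivity) (by linarith)
  have h6 : A * ((1 / (4 * Real.pi ^ 2)) * ((1 + δ) * (2 * Real.pi * Real.log (4 * n + 1) +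
      (4 * Real.pi + 32)) + (1 + 1 / δ) * 1152)) ≤
      A * ((1 / (4 * Real.pi ^ 2)) * ((1 + δ) * (2 * Real.pi * (Real.log 5 + Real.log n) +
      (4 * Real.pi + 32)) + (1 + 1 / δ) * 1152)) := by gcongr
  have e : A * ((1 / (4 * Real.pi ^ 2)) * ((1 + δ) * (2 * Real.pi * (Real.log 5 + Real.log n) +
      (4 * Real.pi + 32)) + (1 + 1 / δ) * 1152)) =
      A * (1 + δ) * (1 / (2 * Real.pi)) * Real.log n +
      A * ((1 / (4 * Real.pi ^ 2)) * ((1 + δ) * (2 * Real.pi * Real.log 5 +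
      (4 * Real.pi + 32)) + (1 + 1 / δ) * 1152)) := by
    field_simp
    ring
  have h7 : A * (1 + δ) * (1 / (2 * Real.pi)) * Real.log n ≤
      (helicity b / (2 * Real.pi) + ε) * Real.log n := by
    refine mul_le_mul_of_nonneg_right ?_ (Real.log_nonneg hn')
    rw [hAδ]
    have h8 : (helicity b + 2 * ε) * (1 / (2 * Real.pi)) =
        helicity b / (2 * Real.pi) + ε * (1 / Real.pi) := by field_simp
    rw [h8]
    have h9 : 1 / Real.pi ≤ 1 := by
      rw [div_le_one hp]; linarith [Real.pi_gt_three]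
    nlinarith
  rw [h1]
  linarith

end Vale.Agent.P159.T1.S.Hv
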