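import Vale.Agent.P159.T1.S.H711.HvP
import Vale.Agent.P159.H170.Final

/-!
P159: the weights of the heights are positive and summable, with the second moments, and the
constants of the logarithmic growth.
-/

open Filter Topology

namespace Vale.Agent.P159.T1.S.Hv

open Vale.Agent.P159 Vale.Agent.P159.T1.D Vale.Agent.P159.T1.H910
open Vale.Agent.P159.R2.H254 (bes bes_eq)
open Vale.Agent.P159.H353

lemma bes_pos' {b : ℝ} (hb : 0 < b) (n : ℤ) : 0 < bes b n := by
  rw [bes_eq hb.le, wI_eq]
  have h1 : 0 < aw b n.natAbs n := by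
    unfold aw cb
    have : (2 * n.natAbs).choose (n.natAbs + n.natAbs) = 1 := by
      rw [← two_mul, Nat.choose_self]
    rw [this]
    positivity
  have h2 : 0 < ∑' k : ℕ, aw b k n :=
    (summable_aw_col hb.le n).tsum_pos (fun k => aw_nonneg hb.le k n) _ h1
  positivity

/-- the weights are positive and summable, with the second moments -/
theorem well_def (b : ℝ) (hb : 0 < b) :
    (∀ n : ℤ, 0 < bes b n) ∧ ∀ U : Finset (ℤ × ℤ),
      (Summable fun h : Hts U => hWt b U h.1) ∧ 0 < ∑' h : Hts U, hWt b U h.1 ∧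
      ∀ x : ℤ × ℤ, Summable fun h : Hts U => hWt b U h.1 * (h.1 x : ℝ) ^ 2 := by
  refine ⟨bes_pos' hb, fun U => ?_⟩
  obtain ⟨c, hc, h⟩ := hWt_eq hb.le U
  have h0 : Summable fun h : Ht U => wt b U 0 h.1 * (1 : ℝ) :=
    summ_ch hb.le (fun _ => 0) (C := 1) (F := fun _ => 1) fun g => by
      rw [abs_one, one_mul]
      exact Real.one_le_exp (abs_nonneg _)
  have h0' : Summable fun h : Ht U => wt b U 0 h.1 := by simpa using h0
  refine ⟨(h0'.mul_left c).congr fun g => (h g).symm, ?_, fun x => ?_⟩
  · have e : ∑' g : Hts U, hWt b U g.1 = c * ∑' g : Ht U, wt b U 0 g.1 := by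
      rw [← tsum_mul_left]
      exact tsum_congr fun g => h g
    rw [e]
    exact mul_pos hc (Z_pos hb.le U)
  · have h2 : Summable fun g : Ht U => wt b U 0 g.1 * (g.1 x : ℝ) ^ 2 := by
      by_cases hx : x ∈ U
      · refine summ_ch hb.le (dl x) (C := 2) (F := fun g => (g x : ℝ) ^ 2) fun g => ?_
        rw [ch_dl hx, abs_of_nonneg (sq_nonneg _)]
        have h3 := Real.quadratic_le_exp_of_nonneg (abs_nonneg ((g.1 x : ℝ)))
        have h4 : |(g.1 x : ℝ)| ^ 2 = (g.1 x : ℝ) ^ 2 := sq_abs _
        nlinarith [abs_nonneg ((g.1 x : ℝ))]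
      · refine summable_zero.congr fun g => ?_
        rw [g.2 x hx]
        simp
    refine (h2.mul_left c).congr fun g => ?_
    rw [h g]
    ring

/-- the constant of the logarithmic growth at the critical point -/
theorem const_ge : 1 / Real.pi ^ 2 ≤ helicity bCrit / (2 * Real.pi) := by
  have hpi := Real.pi_pos
  have h := H170.hel_bCrit_ge
  rw [div_le_div_iff₀ (by positivity) (by positivity)]
  rw [div_le_iff₀ hpi] at h
  nlinarith

theorem const_mono : StrictMonoOn (fun b : ℝ => helicity b / (2 * Real.pi)) (Set.Ici bCrit) := by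
  intro b hb b' hb' hbb
  have h1 : helicity b < helicity b' := H170.final.2.2.1.2.2.1 hb hb' hbb
  have hpi := Real.pi_pos
  exact div_lt_div_of_pos_right h1 (by positivity)

end Vale.Agent.P159.T1.S.Hv
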