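import Vale.Agent.P159.T1.S.H711.RHa
import Vale.Agent.P159.T1.F.SharpFin

/-!
P159: the exponent of the spins times the constant of the heights.
-/

open Filter Topology

namespace Vale.Agent.P159.T1.S.Hv

open Vale.Agent.P159 Vale.Agent.P159.H950

/-- at and above the critical point the decay exponent of the two-point function times the
constant of the logarithmic growth of the heights is `1 / (4 π²)` -/
theorem prod_rel (b : ℝ) (hb : bCrit ≤ b) :
    Tendsto (fun n : ℕ => (hMean b (Finset.Icc (-(n : ℤ), -(n : ℤ)) ((n : ℤ), (n : ℤ)))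
      (fun h => (h 0 : ℝ) ^ 2) / Real.log n) *
        (-Real.log (corrInf b ((n : ℤ), 0)) / Real.log n)) atTop
      (𝓝 (1 / (4 * Real.pi ^ 2))) := by
  have hpi := Real.pi_pos
  have hY : 0 < helicity b := by
    have h1 : helicity bCrit ≤ helicity b :=
      H170.final.2.2.1.2.2.1.monotoneOn (Set.mem_Ici.2 le_rfl) (Set.mem_Ici.2 hb) hb
    have h2 := H170.hel_bCrit_ge
    have h3 : 0 < 2 / Real.pi := by positivity
    linarith
  have h1 := height_log' b hb
  have h2 := T1.F.sharpFin.1 b hb
  have h3 : Tendsto (fun n : ℕ => (((n : ℤ), (0 : ℤ)) : ℤ × ℤ)) atTop cofinite := by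
    rw [← Nat.cofinite_eq_atTop]
    refine Function.Injective.tendsto_cofinite fun m n hmn => ?_
    simpa using hmn
  have h4 : Tendsto (fun n : ℕ => -(Real.log (corrInf b ((n : ℤ), 0)) / Real.log n)) atTop
      (𝓝 (1 / (2 * Real.pi * helicity b))) := by
    have h5 := (h2.comp h3).neg
    rw [neg_neg] at h5
    refine h5.congr fun n => ?_
    simp only [Function.comp_apply, abs_zero]
    congr 3
    rw [max_eq_left (abs_nonneg _), abs_of_nonneg (Int.natCast_nonneg n)]
    simp
  have h6 := h1.mul h4
  have e : helicity b / (2 * Real.pi) * (1 / (2 * Real.pi * helicity b)) =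
      1 / (4 * Real.pi ^ 2) := by
    field_simp
    ring
  rw [e] at h6
  refine h6.congr fun n => ?_
  rw [neg_div]

end Vale.Agent.P159.T1.S.Hv
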