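import Vale.Agent.P159.T1.S.H711.RHb

/-!
P159: the covariance of the heights in a box is logarithmic, and the height differences in
smaller domains.
-/

open Filter Topology

namespace Vale.Agent.P159.T1.S.Hv

open Vale.Agent.P159 Vale.Agent.P159.T1.D Vale.Agent.P159.T1.H315

variable {b : ℝ} {U W : Finset Z2}

/-- **lower bound for the height difference**, boxes of half the distance -/
theorem lower2h (b : ℝ) (hb : bCrit ≤ b) (ε : ℝ) (hε : 0 < ε) : ∃ C : ℝ, ∀ f g : Z2, f ≠ g →
    ∀ U : Finset Z2, bx f (dd f g / 2) ⊆ U → bx g (dd f g / 2) ⊆ U →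
      (helicity b / Real.pi - ε) * Real.log (dd f g) - C ≤ v2 b U f g := by
  have hYb := T1.H934.pos_of_ge b hb
  have hb0 : 0 < b := hYb.1
  have hp := Real.pi_pos
  have hY0 : 0 < helicity b := lt_of_lt_of_le (by positivity) hYb.2
  obtain ⟨C, hC⟩ := lowerB b hb (ε / 2) (by positivity)
  obtain ⟨A, hA⟩ : ∃ A : ℝ, A = helicity b / Real.pi := ⟨_, rfl⟩
  have hA0 : 0 < A := by rw [hA]; positivity
  refine ⟨A * Real.log 8 + 2 * |C|, fun f g hfg U h1 h2 => ?_⟩
  have hd1 : 1 ≤ dd f g := by
    by_contra h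
    have h0 : dd f g = 0 := by omega
    unfold dd at h0
    apply hfg
    rw [Nat.max_eq_zero_iff] at h0
    exact Prod.ext (by omega) (by omega)
  have hff : f ∈ bx f (dd f g / 2) := by rw [mem_bx]; omega
  have hgg : g ∈ bx g (dd f g / 2) := by rw [mem_bx]; omega
  have hd1' : (1 : ℝ) ≤ dd f g := by exact_mod_cast hd1
  have hlog : 0 ≤ Real.log (dd f g) := Real.log_nonneg hd1'
  have hC0 := abs_nonneg C
  rw [← hA]
  by_cases hn : dd f g < 4
  · have h3 : Real.log (dd f g) ≤ Real.log 8 :=
      Real.log_le_log (by linarith) (by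
        have : (dd f g : ℝ) ≤ 4 := by exact_mod_cast hn.le
        linarith)
    have h4 := mul_le_mul_of_nonneg_left h3 hA0.le
    have h5 := mul_nonneg hε.le hlog
    have h6 := V_nonneg' (b := b) hb0.le (h1 hff) (h2 hgg)
    nlinarith
  · push Not at hn
    obtain ⟨r, hr⟩ : ∃ r, r = dd f g / 2 - 1 := ⟨_, rfl⟩
    have hr1 : 1 ≤ r := by omega
    have hrd : 2 * r + 2 ≤ dd f g := by omega
    have hr8 : dd f g ≤ 8 * r := by omega
    have h3 := low2 (b := b) hb0.le hrd ((bx_mono (by omega)).trans h1)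
      ((bx_mono (by omega)).trans h2)
    have h4 := hC r hr1
    have hr' : (1 : ℝ) ≤ r := by exact_mod_cast hr1
    have h5 : Real.log (dd f g) ≤ Real.log 8 + Real.log r := by
      rw [← Real.log_mul (by norm_num) (by positivity)]
      exact Real.log_le_log (by linarith) (by exact_mod_cast hr8)
    have h7 : Real.log r ≤ Real.log (dd f g) :=
      Real.log_le_log (by linarith) (by exact_mod_cast (by omega : r ≤ dd f g))
    have e1 : (helicity b / (2 * Real.pi) - ε / 2) * Real.log r =
        (A * Real.log r - ε * Real.log r) / 2 := by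
      rw [hA]; field_simp
    rw [e1] at h4
    have h8 := mul_le_mul_of_nonneg_left h5 hA0.le
    have h9 := mul_le_mul_of_nonneg_left h7 hε.le
    have h10 := le_abs_self C
    nlinarith

lemma cv_eq {f g : Z2} (hf : f ∈ U) (hg : g ∈ U) (b : ℝ) :
    E b U (fun h => (h f : ℝ) * h g) = Cv b U (dl f) (dl g) := by
  unfold Cv D.E
  congr 1
  refine tsum_congr fun h => ?_
  simp only [ch_dl hf, ch_dl hg]

lemma cov_polar (hb : 0 ≤ b) {f g : Z2} (hf : f ∈ U) (hg : g ∈ U) :
    E b U (fun h => (h f : ℝ) * h g) = (hv b U f + hv b U g - v2 b U f g) / 2 := by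
  rw [cv_eq hf hg, v2_eq hf hg, V_sub hb, ← hv_eq hf, ← hv_eq hg]
  ring

/-- the covariance of the heights in a box, up to `ε log n` -/
theorem cov_box (b : ℝ) (hb : bCrit ≤ b) (ε : ℝ) (hε : 0 < ε) : ∃ C : ℝ, ∀ n : ℕ, 1 ≤ n →
    ∀ f g : Z2, f ∈ bx 0 (n / 2) → g ∈ bx 0 (n / 2) →
      |E b (bx 0 n) (fun h => (h f : ℝ) * h g) -
        helicity b / (2 * Real.pi) * (Real.log n - Real.log (max 1 (dd f g : ℝ)))| ≤
        ε * Real.log n + C := by
  have hYb := T1.H934.pos_of_ge b hb
  have hb0 : 0 < b := hYb.1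
  have hp := Real.pi_pos
  have hY0 : 0 < helicity b := lt_of_lt_of_le (by positivity) hYb.2
  obtain ⟨C1, h1⟩ := lowerB b hb (ε / 4) (by positivity)
  obtain ⟨C2, h2⟩ := upper b hb (ε / 4) (by positivity)
  obtain ⟨C3, h3⟩ := lower2h b hb (ε / 4) (by positivity)
  obtain ⟨C4, h4⟩ := upper2 b hb (ε / 4) (by positivity)
  obtain ⟨A, hA⟩ : ∃ A : ℝ, A = helicity b / (2 * Real.pi) := ⟨_, rfl⟩
  have hA0 : 0 < A := by rw [hA]; positivity
  have e2 : helicity b / Real.pi = 2 * A := by rw [hA]; field_simp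
  rw [e2] at h3 h4
  rw [← hA] at h1 h2 ⊢
  set l4 := Real.log 4 with hl4
  have hl4p : 0 < l4 := Real.log_pos (by norm_num)
  refine ⟨vn b 2 + (A + ε) * l4 + |C1| + |C2| + |C3| + |C4|, fun n hn f g hf hg => ?_⟩
  have hvn2 := vn_nonneg (b := b) hb0.le 2
  have hn' : (1 : ℝ) ≤ n := by exact_mod_cast hn
  have hlog : 0 ≤ Real.log n := Real.log_nonneg hn'
  -- one height
  have one : ∀ f : Z2, f ∈ bx 0 (n / 2) →
      A * Real.log n - ε / 4 * Real.log n - A * l4 - |C1| ≤ hv b (bx 0 n) f ∧
      hv b (bx 0 n) f ≤ A * Real.log n + ε / 4 * Real.log n + (A + ε) * l4 + |C2| := by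
    intro f hf
    have hsub2 : bx 0 n ⊆ bx f (2 * n) := by
      intro z hz
      rw [mem_bx0] at hz hf
      rw [mem_bx]
      omega
    constructor
    · rcases Nat.lt_or_ge n 2 with h | h
      · have : n = 1 := by omega
        subst this
        have h0 := hv_nonneg hb0.le (bx 0 1) f
        simp only [Nat.cast_one, Real.log_one, mul_zero, sub_zero]
        nlinarith [abs_nonneg C1]
      · have hsub : bx f (n / 2) ⊆ bx 0 n := by
          intro z hz
          rw [mem_bx0] at hf ⊢
          rw [mem_bx] at hz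
          omega
        have a1 : vn b (n / 2) ≤ hv b (bx 0 n) f := by
          rw [← hv_bx b f (n / 2)]
          exact hv_mono hb0.le hsub f
        have a2 := h1 (n / 2) (by omega)
        have hh : (1 : ℝ) ≤ ((n / 2 : ℕ) : ℝ) := by exact_mod_cast (by omega : 1 ≤ n / 2)
        have a3 : Real.log n ≤ l4 + Real.log ((n / 2 : ℕ) : ℝ) := by
          rw [hl4, ← Real.log_mul (by norm_num) (by positivity)]
          refine Real.log_le_log (by linarith) ?_
          have : n ≤ 4 * (n / 2) := by omega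
          exact_mod_cast this
        have a4 : Real.log ((n / 2 : ℕ) : ℝ) ≤ Real.log n :=
          Real.log_le_log (by linarith) (by exact_mod_cast (by omega : n / 2 ≤ n))
        have a5 := mul_le_mul_of_nonneg_left a3 hA0.le
        have a6 := mul_le_mul_of_nonneg_left a4 (by positivity : 0 ≤ ε / 4)
        have a7 := le_abs_self C1
        nlinarith
    · have a1 : hv b (bx 0 n) f ≤ vn b (2 * n) := by
        rw [← hv_bx b f (2 * n)]
        exact hv_mono hb0.le hsub2 f
      have a2 := h2 (2 * n) (by omega)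
      have a3 : Real.log ((2 * n : ℕ) : ℝ) ≤ l4 + Real.log n := by
        rw [hl4, ← Real.log_mul (by norm_num) (by positivity)]
        refine Real.log_le_log (by positivity) ?_
        push_cast
        linarith
      have a5 := mul_le_mul_of_nonneg_left a3 (by positivity : 0 ≤ A + ε / 4)
      have a7 := le_abs_self C2
      nlinarith
  have hfn : f ∈ bx 0 n := bx_mono (by omega) hf
  have hgn : g ∈ bx 0 n := bx_mono (by omega) hg
  obtain ⟨f1, f2⟩ := one f hf
  obtain ⟨g1, g2⟩ := one g hg
  have k1 := abs_nonneg C1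
  have k2 := abs_nonneg C2
  have k3 := abs_nonneg C3
  have k4 := abs_nonneg C4
  by_cases hfg : f = g
  · subst hfg
    have e0 : E b (bx 0 n) (fun h => (h f : ℝ) * h f) = hv b (bx 0 n) f := by
      unfold hv
      congr 1
      funext h
      rw [pow_two]
    have e1 : dd f f = 0 := by unfold dd; simp
    rw [e0, e1]
    simp only [Nat.cast_zero, max_eq_left (zero_le_one' ℝ), Real.log_one, sub_zero]
    rw [abs_le]
    constructor <;> nlinarith
  · rw [cov_polar hb0.le hfn hgn]
    have hd1 : 1 ≤ dd f g := by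
      by_contra h
      have h0 : dd f g = 0 := by omega
      unfold dd at h0
      apply hfg
      rw [Nat.max_eq_zero_iff] at h0
      exact Prod.ext (by omega) (by omega)
    have hdn : dd f g ≤ n := by
      rw [mem_bx0] at hf hg
      unfold dd
      omega
    have hd1' : (1 : ℝ) ≤ dd f g := by exact_mod_cast hd1
    have hlogd : 0 ≤ Real.log (dd f g) := Real.log_nonneg hd1'
    have hlogdn : Real.log (dd f g) ≤ Real.log n :=
      Real.log_le_log (by linarith) (by exact_mod_cast hdn)
    rw [max_eq_right hd1']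
    have b1 : bx f (dd f g / 2) ⊆ bx 0 n := by
      intro z hz
      rw [mem_bx0] at hf ⊢
      rw [mem_bx] at hz
      have : dd f g / 2 ≤ n / 2 := by omega
      omega
    have b2 : bx g (dd f g / 2) ⊆ bx 0 n := by
      intro z hz
      rw [mem_bx0] at hg ⊢
      rw [mem_bx] at hz
      have : dd f g / 2 ≤ n / 2 := by omega
      omega
    have c1 := h3 f g hfg (bx 0 n) b1 b2
    have c2 := h4 f g hfg (bx 0 n) hfn hgn
    have c3 := mul_le_mul_of_nonneg_left hlogdn (by positivity : 0 ≤ ε / 4)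
    have c4 := le_abs_self C3
    have c5 := le_abs_self C4
    rw [abs_le]
    constructor <;> nlinarith

/-- **The height difference**, exact logarithmic growth, uniformly in the domain; boxes of half
the distance are enough -/
theorem height_diff2 (b : ℝ) (hb : bCrit ≤ b) (ε : ℝ) (hε : 0 < ε) : ∃ C : ℝ, ∀ f g : Z2, f ≠ g →
    ∀ U : Finset Z2, bx f (dd f g / 2) ⊆ U → bx g (dd f g / 2) ⊆ U →
      |v2 b U f g - helicity b / Real.pi * Real.log (dd f g)| ≤ ε * Real.log (dd f g) + C := by
  obtain ⟨C1, h1⟩ := lower2h b hb ε hε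
  obtain ⟨C2, h2⟩ := upper2 b hb ε hε
  refine ⟨max C1 C2, fun f g hfg U hf hg => ?_⟩
  have a1 := h1 f g hfg U hf hg
  have a2 := h2 f g hfg U (hf (by rw [mem_bx]; omega)) (hg (by rw [mem_bx]; omega))
  have m1 : C1 ≤ max C1 C2 := le_max_left _ _
  have m2 : C2 ≤ max C1 C2 := le_max_right _ _
  rw [abs_le]
  constructor <;> nlinarith

end Vale.Agent.P159.T1.S.Hv
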