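import Vale.Agent.P159.T1.S.H711.RHd

/-!
P159: the Laplace transform of the height at a face; the central limit theorem with the exact
variance.
-/

open Filter Topology

namespace Vale.Agent.P159.T1.S.Hv

open Vale.Agent.P159 Vale.Agent.P159.T1.D
open Vale.Agent.P159.T1.D.H469 (osc_smul Vr_smul)
open Vale.Agent.P159.T1.H910 (ZB_eq_Zρ exp_Vr_le_div Z_pos)

variable {b : ℝ} {U : Finset Z2} {B : Bnd → ℝ} {ρ : Z2 → ℝ}

/-- multiples of a field and of its charges -/
lemma isDiv_mulc (h : IsDiv U B ρ) (z : ℝ) :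
    IsDiv U (fun e => z * B e) (fun f => z * ρ f) := by
  intro f hf
  simp only
  rw [← h f hf]
  ring

/-- the mean of an exponential -/
lemma E_exp (b : ℝ) (U : Finset Z2) (ρ : Z2 → ℝ) :
    E b U (fun h => Real.exp (ch U ρ h)) = Zρ b U ρ / Z b U := rfl

/-- **the Laplace transform is at least that of the Gaussian law with the same variance** -/
theorem exp_lower (hb : 0 ≤ b) (hB : IsDiv U B ρ) (z : ℝ) :
    Real.exp (z ^ 2 * Vr b U B / 2) ≤ Zρ b U (fun f => z * ρ f) / Z b U := by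
  have h := exp_Vr_le_div hb (isDiv_mulc hB z)
  rwa [Vr_smul] at h

/-- the upper bound for small fields -/
theorem exp_upper {ε η C : ℝ} {l : ℕ} (hb : 0 < b)
    (H : ∀ (U : Finset Z2) (S : Finset Bnd) (m : Bnd → ℤ) (B : Bnd → ℝ),
      (∀ e, e ∉ S → B e = 0) → (∀ e, |B e| ≤ η) →
      ZB b U m B ≤ Real.exp ((helicity b + ε) / 2 * ∑ e ∈ S, B e ^ 2 + C * osc l S B) * Z b U)
    {S : Finset Bnd} (hS : ∀ e, e ∉ S → B e = 0) (hB : IsDiv U B ρ) {z : ℝ}
    (hz : ∀ e, |z * B e| ≤ η) :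
    Zρ b U (fun f => z * ρ f) / Z b U ≤
      Real.exp (z ^ 2 / 2 * ((helicity b + ε) * ∑ e ∈ S, B e ^ 2 + 2 * C * osc l S B)) := by
  have h := H U S 0 (fun e => z * B e) (fun e he => by rw [hS e he, mul_zero]) hz
  rw [ZB_eq_Zρ (isDiv_mulc hB z)] at h
  rw [div_le_iff₀ (Z_pos hb.le U)]
  refine h.trans (le_of_eq ?_)
  congr 2
  rw [osc_smul]
  have e1 : ∑ e ∈ S, (z * B e) ^ 2 = z ^ 2 * ∑ e ∈ S, B e ^ 2 := by
    rw [Finset.mul_sum]
    exact Finset.sum_congr rfl fun e _ => by ring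
  rw [e1]
  ring

/-- the energy of the field of one face -/
theorem energy1 (hb : bCrit ≤ b) {ε : ℝ} (hε : 0 < ε) (l : ℕ) {C : ℝ} (hC : 0 < C) :
    ∃ K : ℝ, ∀ n : ℕ, 1 ≤ n →
      (helicity b + ε) * ∑ e ∈ SP (2 * n), Bf n e ^ 2 + C * osc l (SP (2 * n)) (Bf n) ≤
        (helicity b / (2 * Real.pi) + ε) * Real.log n + K := by
  have hY := T1.H934.pos_of_ge b hb
  have hb0 : 0 < b := hY.1
  have hp := Real.pi_pos
  have hY0 : 0 < helicity b := lt_of_lt_of_le (by positivity) hY.2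
  set δ : ℝ := ε / (helicity b + ε) with hδdef
  have hδ : 0 < δ := by positivity
  set A : ℝ := helicity b + ε with hA
  have hA0 : 0 < A := by positivity
  have hAδ : A * (1 + δ) = helicity b + 2 * ε := by
    rw [hδdef, mul_add, mul_one, mul_div_cancel₀ _ hA0.ne', hA]; ring
  refine ⟨A * ((1 / (4 * Real.pi ^ 2)) * ((1 + δ) * (2 * Real.pi * Real.log 5 +
      (4 * Real.pi + 32)) + (1 + 1 / δ) * 1152)) + C * ((2 * (l : ℝ) + 1) ^ 2 * (8 * Dl l)),
    fun n hn => ?_⟩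
  have hn' : (1 : ℝ) ≤ n := by exact_mod_cast hn
  have h3 := mul_le_mul_of_nonneg_left (Bf_energy (n := n) hδ) hA0.le
  have h4 := mul_le_mul_of_nonneg_left (Bf_osc l n) hC.le
  have h5 : Real.log (4 * n + 1) ≤ Real.log 5 + Real.log n := by
    rw [← Real.log_mul (by norm_num) (by positivity)]
    exact Real.log_le_log (by positivity) (by linarith)
  have h6 : A * ((1 / (4 * Real.pi ^ 2)) * ((1 + δ) * (2 * Real.pi * Real.log (4 * n + 1) +
      (4 * Real.pi + 32)) + (1 + 1 / δ) * 1152)) ≤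
      A * ((1 / (4 * Real.pi ^ 2)) * ((1 + δ) * (2 * Real.pi * (Real.log 5 + Real.log n) +
      (4 * Real.pi + 32)) + (1 + 1 / δ) * 1152)) := by gcongr
  have e : A * ((1 / (4 * Real.pi ^ 2)) * ((1 + δ) * (2 * Real.pi * (Real.log 5 + Real.log n) +
      (4 * Real.pi + 32)) + (1 + 1 / δ) * 1152)) =
      A * (1 + δ) * (1 / (2 * Real.pi)) * Real.log n +
      A * ((1 / (4 * Real.pi ^ 2)) * ((1 + δ) * (2 * Real.pi * Real.log 5 +
      (4 * Real.pi + 32)) + (1 + 1 / δ) * 1152)) := by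
    field_simp
    ring
  have h7 : A * (1 + δ) * (1 / (2 * Real.pi)) * Real.log n ≤
      (helicity b / (2 * Real.pi) + ε) * Real.log n := by
    refine mul_le_mul_of_nonneg_right ?_ (Real.log_nonneg hn')
    rw [hAδ]
    have h8 : (helicity b + 2 * ε) * (1 / (2 * Real.pi)) =
        helicity b / (2 * Real.pi) + ε * (1 / Real.pi) := by field_simp
    rw [h8]
    have h9 : 1 / Real.pi ≤ 1 := by
      rw [div_le_one hp]; linarith [Real.pi_gt_three]
    nlinarith
  linarith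

/-- the field of one face is bounded -/
lemma abs_Bf_le (n : ℕ) (e : Bnd) : |Bf n e| ≤ 2 := by
  have h1 : |Ba e| ≤ 12 := by
    refine abs_le_of_sq_le_sq ?_ (by norm_num)
    refine (Ba_sq' e).trans ?_
    rw [div_le_iff₀ (lt_of_lt_of_le (by norm_num) (sP_ge e.1))]
    have := sP_ge e.1
    nlinarith
  have hp := Real.pi_gt_three
  unfold Bf
  rw [abs_div, abs_mul, abs_of_nonneg (ch0_nonneg _ _), abs_of_pos (by positivity : 0 < 2 * Real.pi),
    div_le_iff₀ (by positivity)]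
  have h2 := ch0_le n e.1
  have h3 := ch0_nonneg n e.1
  calc ch0 n e.1 * |Ba e| ≤ 1 * 12 := mul_le_mul h2 h1 (abs_nonneg _) zero_le_one
    _ ≤ 2 * (2 * Real.pi) := by linarith

/-- **the Laplace transform of the height at the centre of a box** -/
theorem mgf_log (b : ℝ) (hb : bCrit ≤ b) (ε : ℝ) (hε : 0 < ε) : ∃ η : ℝ, 0 < η ∧ ∃ C : ℝ,
    ∀ n : ℕ, 1 ≤ n → ∀ z : ℝ, |z| ≤ η →
      |Real.log (Zρ b (bx 0 n) (fun f => z * dl 0 f) / Z b (bx 0 n)) -
        helicity b / (4 * Real.pi) * z ^ 2 * Real.log n| ≤ z ^ 2 * (ε * Real.log n + C) := by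
  have hY := T1.H934.pos_of_ge b hb
  have hb0 : 0 < b := hY.1
  have hp := Real.pi_pos
  obtain ⟨l, η, C, hη, hC, H⟩ := stmtU b ε hb0 hε
  obtain ⟨K, hK⟩ := energy1 hb hε l (C := 2 * C) (by positivity)
  obtain ⟨C1, h1⟩ := lowerB b hb ε hε
  refine ⟨η / 2, by positivity, max |C1| |K|, fun n hn z hz => ?_⟩
  have hn' : (1 : ℝ) ≤ n := by exact_mod_cast hn
  have hlog := Real.log_nonneg hn'
  have lo := exp_lower (z := z) hb0.le (Bf_isDiv n)
  have e1 : vn b n = Vr b (bx 0 n) (Bf n) := by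
    unfold vn
    rw [hv_eq (by rw [mem_bx0]; simp), Vr_of_div (Bf_isDiv n)]
  rw [← e1] at lo
  have hi := exp_upper (z := z) hb0 H (S := SP (2 * n)) (fun e he => Bf_off he) (Bf_isDiv n)
    (fun e => by
      rw [abs_mul]
      calc |z| * |Bf n e| ≤ η / 2 * 2 :=
            mul_le_mul hz (abs_Bf_le n e) (abs_nonneg _) (by positivity)
        _ = η := by ring)
  set M := Zρ b (bx 0 n) (fun f => z * dl 0 f) / Z b (bx 0 n) with hM
  have hM0 : 0 < M := lt_of_lt_of_le (Real.exp_pos _) lo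
  have lo' : z ^ 2 * vn b n / 2 ≤ Real.log M := (Real.le_log_iff_exp_le hM0).2 lo
  have hi' := (Real.log_le_iff_le_exp hM0).2 hi
  have a1 := h1 n hn
  have a2 := hK n hn
  have hz2 : 0 ≤ z ^ 2 := sq_nonneg z
  have b1 := mul_le_mul_of_nonneg_left a1 hz2
  have b2 := mul_le_mul_of_nonneg_left a2 hz2
  have c1 : C1 ≤ max |C1| |K| := (le_abs_self _).trans (le_max_left _ _)
  have c2 : K ≤ max |C1| |K| := (le_abs_self _).trans (le_max_right _ _)
  have c3 : 0 ≤ max |C1| |K| := (abs_nonneg _).trans (le_max_left _ _)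
  have d1 := mul_le_mul_of_nonneg_left c1 hz2
  have d2 := mul_le_mul_of_nonneg_left c2 hz2
  have d3 : 0 ≤ z ^ 2 * max |C1| |K| := mul_nonneg hz2 c3
  have d4 : 0 ≤ z ^ 2 * (ε * Real.log n) := by positivity
  have e2 : helicity b / (4 * Real.pi) = helicity b / (2 * Real.pi) / 2 := by
    field_simp
    norm_num
  rw [e2, abs_le]
  constructor <;> nlinarith

end Vale.Agent.P159.T1.S.Hv
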