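import Vale.Agent.P159.T1.S.H711.RHe

/-!
P159: the Laplace functional of the heights in a box, for every positive measure of small mass.
-/

open Filter Topology

namespace Vale.Agent.P159.T1.S.Hv

open Vale.Agent.P159 Vale.Agent.P159.T1.D
open Vale.Agent.P159.T1.H315 (Cv)
open Vale.Agent.P159.T1.D.H469 (osc_smul Vr_smul osc_nonneg)
open Vale.Agent.P159.T1.H910 (ZB_eq_Zρ exp_Vr_le_div Z_pos)

variable {b : ℝ} {U : Finset Z2} {B : Bnd → ℝ} {ρ : Z2 → ℝ}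

/-- the constant in the bound of the oscillation on a larger set -/
noncomputable def Dl3 (l : ℕ) : ℝ :=
  2 * ((12 + 16 * l) * (3 + 16 * (l : ℝ) ^ 2)) ^ 2 + 2 * (196 * (4 * (l : ℝ) ^ 2 * 18))

lemma Bf_shift3 {l n : ℕ} {u : Z2} (hu : u ∈ Finset.Icc (-(l : ℤ), -(l : ℤ)) ((l : ℤ), (l : ℤ)))
    {e : Bnd} (he : e ∈ SP (3 * n)) : (Bf n (sh u e) - Bf n e) ^ 2 ≤ Dl3 l * (1 / sP e.1 ^ 2) := by
  have hp : 1 ≤ (2 * Real.pi) ^ 2 := by
    have := Real.pi_gt_three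
    nlinarith
  have hp0 := Real.pi_pos
  have hs := sP_ge e.1
  have e1 : Bf n (sh u e) - Bf n e = (ch0 n (e.1 + u) * (Ba (sh u e) - Ba e) +
      (ch0 n (e.1 + u) - ch0 n e.1) * Ba e) / (2 * Real.pi) := by
    unfold Bf sh
    simp only
    ring
  have h1 : (ch0 n (e.1 + u) * (Ba (sh u e) - Ba e)) ^ 2 ≤
      ((12 + 16 * l) * (3 + 16 * (l : ℝ) ^ 2)) ^ 2 * (1 / sP e.1 ^ 2) := by
    have h2 := Ba_shift hu e
    have h3 : (Ba (sh u e) - Ba e) ^ 2 ≤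
        ((12 + 16 * l) * (3 + 16 * (l : ℝ) ^ 2) / sP e.1) ^ 2 := by
      rw [← sq_abs]; exact pow_le_pow_left₀ (abs_nonneg _) h2 2
    have h4 : ch0 n (e.1 + u) ^ 2 ≤ 1 := pow_le_one₀ (ch0_nonneg _ _) (ch0_le _ _)
    rw [mul_pow]
    calc ch0 n (e.1 + u) ^ 2 * (Ba (sh u e) - Ba e) ^ 2 ≤ 1 * (Ba (sh u e) - Ba e) ^ 2 :=
          mul_le_mul_of_nonneg_right h4 (sq_nonneg _)
      _ ≤ ((12 + 16 * l) * (3 + 16 * (l : ℝ) ^ 2) / sP e.1) ^ 2 := by rw [one_mul]; exact h3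
      _ = _ := by ring
  have h2 : ((ch0 n (e.1 + u) - ch0 n e.1) * Ba e) ^ 2 ≤
      196 * (4 * (l : ℝ) ^ 2 * 18) * (1 / sP e.1 ^ 2) := by
    have h3 : (ch0 n (e.1 + u) - ch0 n e.1) ^ 2 ≤ (2 * l / (2 * n + 1)) ^ 2 := by
      rw [← sq_abs]; exact pow_le_pow_left₀ (abs_nonneg _) (ch0_shift hu n e.1) 2
    have h4 : sP e.1 ≤ 18 * (2 * (n : ℝ) + 1) ^ 2 := by
      rw [SP, Finset.mem_product, PB, Finset.mem_product] at he
      have a1 := abs_xr_le he.1.1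
      have a2 := abs_xr_le he.1.2
      push_cast at a1 a2
      have b1 : xr e.1.1 ^ 2 ≤ (2 * (3 * n) + 1) ^ 2 := by
        rw [← sq_abs]; exact pow_le_pow_left₀ (abs_nonneg _) a1 2
      have b2 : xr e.1.2 ^ 2 ≤ (2 * (3 * n) + 1) ^ 2 := by
        rw [← sq_abs]; exact pow_le_pow_left₀ (abs_nonneg _) a2 2
      unfold sP
      have : (0 : ℝ) ≤ n := Nat.cast_nonneg n
      nlinarith
    have h5 : (2 * l / (2 * (n : ℝ) + 1)) ^ 2 ≤ 4 * (l : ℝ) ^ 2 * 18 * (1 / sP e.1) := by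
      have e2 : (2 * l / (2 * (n : ℝ) + 1)) ^ 2 = 4 * (l : ℝ) ^ 2 * (1 / (2 * (n : ℝ) + 1) ^ 2) := by
        field_simp; ring
      have e3 : 4 * (l : ℝ) ^ 2 * 18 * (1 / sP e.1) = 4 * (l : ℝ) ^ 2 * (18 / sP e.1) := by ring
      rw [e2, e3]
      refine mul_le_mul_of_nonneg_left ?_ (by positivity)
      rw [div_le_div_iff₀ (by positivity) (by linarith)]
      linarith
    rw [mul_pow]
    calc (ch0 n (e.1 + u) - ch0 n e.1) ^ 2 * Ba e ^ 2 ≤
          (4 * (l : ℝ) ^ 2 * 18 * (1 / sP e.1)) * (196 / sP e.1) :=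
          mul_le_mul (h3.trans h5) (Ba_sq' e) (sq_nonneg _) (by positivity)
      _ = _ := by
          have : sP e.1 ≠ 0 := by linarith
          field_simp
  rw [e1, div_pow]
  have h3 : ∀ x y : ℝ, (x + y) ^ 2 ≤ 2 * x ^ 2 + 2 * y ^ 2 := fun x y => by
    nlinarith [sq_nonneg (x - y)]
  have h4 := h3 (ch0 n (e.1 + u) * (Ba (sh u e) - Ba e)) ((ch0 n (e.1 + u) - ch0 n e.1) * Ba e)
  calc _ ≤ (ch0 n (e.1 + u) * (Ba (sh u e) - Ba e) +
        (ch0 n (e.1 + u) - ch0 n e.1) * Ba e) ^ 2 := div_le_self (sq_nonneg _) hp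
    _ ≤ _ := h4
    _ ≤ _ := by unfold Dl3; linarith

lemma Bf_osc3 (l n : ℕ) : osc l (SP (3 * n)) (Bf n) ≤ (2 * (l : ℝ) + 1) ^ 2 * (8 * Dl3 l) := by
  unfold osc
  have hD : 0 ≤ Dl3 l := by unfold Dl3; positivity
  have hc : ((Finset.Icc (-(l : ℤ), -(l : ℤ)) ((l : ℤ), (l : ℤ))).card : ℝ) =
      (2 * (l : ℝ) + 1) ^ 2 := by
    have h : Finset.Icc (-(l : ℤ), -(l : ℤ)) ((l : ℤ), (l : ℤ)) =
        Finset.Icc (-(l : ℤ)) l ×ˢ Finset.Icc (-(l : ℤ)) l := rfl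
    rw [h, Finset.card_product, Int.card_Icc]
    have e : ((l : ℤ) + 1 - -(l : ℤ)).toNat = 2 * l + 1 := by omega
    rw [e]
    push_cast
    ring
  calc ∑ e ∈ SP (3 * n), ∑ u ∈ Finset.Icc (-(l : ℤ), -(l : ℤ)) ((l : ℤ), (l : ℤ)),
        (Bf n (sh u e) - Bf n e) ^ 2
      ≤ ∑ e ∈ SP (3 * n), ∑ _u ∈ Finset.Icc (-(l : ℤ), -(l : ℤ)) ((l : ℤ), (l : ℤ)),
        Dl3 l * (1 / sP e.1 ^ 2) :=
        Finset.sum_le_sum fun e he => Finset.sum_le_sum fun u hu => Bf_shift3 hu he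
    _ = (2 * (l : ℝ) + 1) ^ 2 * (Dl3 l * (2 * ∑ P ∈ PB (3 * n), 1 / sP P ^ 2)) := by
        simp only [Finset.sum_const, nsmul_eq_mul, hc]
        rw [← Finset.mul_sum, ← Finset.mul_sum]
        unfold SP
        rw [Finset.sum_product]
        simp only [Finset.sum_const, Finset.card_univ, Fintype.card_bool, nsmul_eq_mul]
        rw [← Finset.mul_sum]
        push_cast
        ring
    _ ≤ (2 * (l : ℝ) + 1) ^ 2 * (Dl3 l * (2 * 4)) := by
        gcongr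
        exact sum_four _
    _ = _ := by ring

/-- the field of the face `x`, with cut-off at the scale `m` -/
noncomputable def Bx (m : ℕ) (x : Z2) (e : Bnd) : ℝ := Bf m (sh (-x) e)

lemma sh_inj (u : Z2) : Function.Injective (sh u) := by
  intro e e' h
  unfold sh at h
  rw [Prod.mk.injEq] at h
  exact Prod.ext (add_right_cancel h.1) h.2

lemma sum_sh_le {S T : Finset Bnd} {x : Z2} {F : Bnd → ℝ} (hF : ∀ e, 0 ≤ F e)
    (h : ∀ e ∈ S, sh x e ∈ T) : ∑ e ∈ S, F (sh x e) ≤ ∑ e ∈ T, F e := by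
  classical
  calc ∑ e ∈ S, F (sh x e) = ∑ e ∈ S.image (sh x), F e :=
        (Finset.sum_image fun _ _ _ _ h => sh_inj x h).symm
    _ ≤ _ := Finset.sum_le_sum_of_subset_of_nonneg (fun e he => by
        obtain ⟨e', he', rfl⟩ := Finset.mem_image.1 he
        exact h e' he') fun e _ _ => hF e

lemma mem_SP {n : ℕ} {e : Bnd} : e ∈ SP n ↔
    (-(n : ℤ) ≤ e.1.1 ∧ e.1.1 ≤ n + 1) ∧ (-(n : ℤ) ≤ e.1.2 ∧ e.1.2 ≤ n + 1) := by
  rw [SP, Finset.mem_product, PB, Finset.mem_product, Finset.mem_Icc, Finset.mem_Icc]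
  simp

lemma SP_shift {n : ℕ} {x : Z2} (hx : x ∈ bx 0 (n / 2)) {e : Bnd} (he : e ∈ SP (5 * n)) :
    sh (-x) e ∈ SP (3 * (2 * n)) := by
  rw [mem_bx0] at hx
  rw [mem_SP] at he ⊢
  unfold sh
  simp only [Prod.fst_add, Prod.snd_add, Prod.fst_neg, Prod.snd_neg]
  push_cast at *
  omega

lemma Bx_off {n : ℕ} {x : Z2} (hx : x ∈ bx 0 (n / 2)) {e : Bnd} (he : e ∉ SP (5 * n)) :
    Bx (2 * n) x e = 0 := by
  refine Bf_off fun h => he ?_
  rw [mem_bx0] at hx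
  rw [mem_SP] at h ⊢
  unfold sh at h
  simp only [Prod.fst_add, Prod.snd_add, Prod.fst_neg, Prod.snd_neg] at h
  push_cast at *
  omega

lemma Bx_isDiv {n : ℕ} {x : Z2} (hx : x ∈ bx 0 (n / 2)) :
    IsDiv (bx 0 n) (Bx (2 * n) x) (dl x) := by
  intro f hf
  have h1 : f - x ∈ bx 0 (2 * n) := by
    rw [mem_bx0] at hx hf ⊢
    simp only [Prod.fst_sub, Prod.snd_sub]
    push_cast
    omega
  have h2 := Bf_isDiv (2 * n) (f - x) h1
  have e1 : dl 0 (f - x) = dl x f := by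
    unfold dl
    simp only [sub_eq_zero]
  rw [e1] at h2
  rw [← h2]
  unfold Bx sh
  simp only [Prod.fst_sub, Prod.snd_sub]
  have a1 : f + -x = f - x := (sub_eq_add_neg f x).symm
  have a2 : (f.1, f.2 + 1) + -x = (f.1 - x.1, f.2 - x.2 + 1) :=
    Prod.ext (by simp [sub_eq_add_neg]) (by simp; ring)
  have a3 : (f.1 + 1, f.2) + -x = (f.1 - x.1 + 1, f.2 - x.2) :=
    Prod.ext (by simp; ring) (by simp [sub_eq_add_neg])
  rw [a1, a2, a3]

/-- the quadratic form in the upper bound -/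
noncomputable def Qf (A C : ℝ) (l : ℕ) (S : Finset Bnd) (B : Bnd → ℝ) : ℝ :=
  A * ∑ e ∈ S, B e ^ 2 + C * osc l S B

lemma Qf_Bx (hb : bCrit ≤ b) {ε : ℝ} (hε : 0 < ε) (l : ℕ) {C : ℝ} (hC : 0 < C) :
    ∃ K : ℝ, ∀ n : ℕ, 1 ≤ n → ∀ x : Z2, x ∈ bx 0 (n / 2) →
      Qf (helicity b + ε) C l (SP (5 * n)) (Bx (2 * n) x) ≤
        (helicity b / (2 * Real.pi) + ε) * Real.log n + K := by
  have hY := T1.H934.pos_of_ge b hb
  have hp := Real.pi_pos
  have hY0 : 0 < helicity b := lt_of_lt_of_le (by positivity) hY.2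
  obtain ⟨K, hK⟩ := energy1 hb hε l hC
  refine ⟨(helicity b / (2 * Real.pi) + ε) * Real.log 2 + K +
    C * ((2 * (l : ℝ) + 1) ^ 2 * (8 * Dl3 l)), fun n hn x hx => ?_⟩
  have h1 := hK (2 * n) (by omega)
  have h2 : ∑ e ∈ SP (5 * n), Bx (2 * n) x e ^ 2 ≤ ∑ e ∈ SP (2 * (2 * n)), Bf (2 * n) e ^ 2 := by
    refine (sum_sh_le (F := fun e => Bf (2 * n) e ^ 2) (fun e => sq_nonneg _)
      fun e he => SP_shift hx he).trans (le_of_eq ?_)
    refine (Finset.sum_subset (fun e he => ?_) fun e _ he => ?_).symm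
    · rw [mem_SP] at he ⊢
      push_cast at *
      omega
    · rw [Bf_off he]
      ring
  have h3 : osc l (SP (5 * n)) (Bx (2 * n) x) ≤ (2 * (l : ℝ) + 1) ^ 2 * (8 * Dl3 l) := by
    refine le_trans (le_trans (le_of_eq ?_) (sum_sh_le (S := SP (5 * n)) (x := -x)
      (F := fun e => ∑ u ∈ Finset.Icc (-(l : ℤ), -(l : ℤ)) ((l : ℤ), (l : ℤ)),
        (Bf (2 * n) (sh u e) - Bf (2 * n) e) ^ 2) (fun e => Finset.sum_nonneg fun _ _ => sq_nonneg _)
      fun e he => SP_shift hx he)) (Bf_osc3 l (2 * n))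
    unfold osc Bx
    refine Finset.sum_congr rfl fun e _ => Finset.sum_congr rfl fun u _ => ?_
    rw [sh_comm]
  have h4 := osc_nonneg l (SP (2 * (2 * n))) (Bf (2 * n))
  have h5 := mul_nonneg hC.le h4
  have h6 := mul_le_mul_of_nonneg_left h2 (by positivity : 0 ≤ helicity b + ε)
  have h7 := mul_le_mul_of_nonneg_left h3 hC.le
  have h8 : Real.log ((2 * n : ℕ) : ℝ) = Real.log 2 + Real.log n := by
    push_cast
    rw [Real.log_mul (by norm_num) (by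
      have : (0 : ℝ) < n := by exact_mod_cast hn
      exact this.ne')]
  rw [h8] at h1
  unfold Qf
  nlinarith

/-- the identity of the mean square -/
lemma sq_mix {ι : Type*} (T : Finset ι) (z a : ι → ℝ) :
    (∑ i ∈ T, z i * a i) ^ 2 = (∑ i ∈ T, z i) * ∑ i ∈ T, z i * a i ^ 2 -
      (∑ i ∈ T, ∑ j ∈ T, z i * z j * (a i - a j) ^ 2) / 2 := by
  have e1 : ∑ i ∈ T, ∑ j ∈ T, z i * z j * (a i - a j) ^ 2 =
      2 * ((∑ i ∈ T, z i) * ∑ i ∈ T, z i * a i ^ 2) - 2 * (∑ i ∈ T, z i * a i) ^ 2 := by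
    have h1 : ∀ i ∈ T, ∑ j ∈ T, z i * z j * (a i - a j) ^ 2 =
        (z i * a i ^ 2) * ∑ j ∈ T, z j + z i * ∑ j ∈ T, z j * a j ^ 2 -
          2 * (z i * a i) * ∑ j ∈ T, z j * a j := by
      intro i _
      rw [Finset.mul_sum, Finset.mul_sum, Finset.mul_sum, ← Finset.sum_add_distrib,
        ← Finset.sum_sub_distrib]
      exact Finset.sum_congr rfl fun j _ => by ring
    rw [Finset.sum_congr rfl h1, Finset.sum_sub_distrib, Finset.sum_add_distrib,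
      ← Finset.sum_mul, ← Finset.sum_mul, ← Finset.sum_mul, ← Finset.mul_sum]
    ring
  rw [e1]
  ring

lemma Qf_mix {ι : Type*} (T : Finset ι) (z : ι → ℝ) (F : ι → Bnd → ℝ) (A C : ℝ) (l : ℕ)
    (S : Finset Bnd) : Qf A C l S (fun e => ∑ i ∈ T, z i * F i e) =
      (∑ i ∈ T, z i) * ∑ i ∈ T, z i * Qf A C l S (F i) -
        (∑ i ∈ T, ∑ j ∈ T, z i * z j * Qf A C l S (fun e => F i e - F j e)) / 2 := by
  have key : ∀ (κ : Type) (R : Finset κ) (L : κ → (Bnd → ℝ) → ℝ)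
      (_ : ∀ k, L k (fun e => ∑ i ∈ T, z i * F i e) = ∑ i ∈ T, z i * L k (F i))
      (_ : ∀ k i j, L k (fun e => F i e - F j e) = L k (F i) - L k (F j)),
      ∑ k ∈ R, L k (fun e => ∑ i ∈ T, z i * F i e) ^ 2 =
        (∑ i ∈ T, z i) * ∑ i ∈ T, z i * ∑ k ∈ R, L k (F i) ^ 2 -
        (∑ i ∈ T, ∑ j ∈ T, z i * z j * ∑ k ∈ R, L k (fun e => F i e - F j e) ^ 2) / 2 := by
    intro κ R L h1 h2
    have e1 : ∀ k ∈ R, L k (fun e => ∑ i ∈ T, z i * F i e) ^ 2 =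
        (∑ i ∈ T, z i) * ∑ i ∈ T, z i * L k (F i) ^ 2 -
        (∑ i ∈ T, ∑ j ∈ T, z i * z j * L k (fun e => F i e - F j e) ^ 2) / 2 := by
      intro k _
      rw [h1, sq_mix]
      simp only [h2]
    rw [Finset.sum_congr rfl e1, Finset.sum_sub_distrib, ← Finset.mul_sum, ← Finset.sum_div]
    congr 2
    · rw [Finset.sum_comm]
      exact Finset.sum_congr rfl fun i _ => by rw [Finset.mul_sum]
    · rw [Finset.sum_comm]
      refine Finset.sum_congr rfl fun i _ => ?_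
      rw [Finset.sum_comm]
      exact Finset.sum_congr rfl fun j _ => by rw [Finset.mul_sum]
  have h1 := key Bnd S (fun e B => B e) (fun _ => rfl) fun _ _ _ => rfl
  have h2 := key (Bnd × Z2) (S ×ˢ Finset.Icc (-(l : ℤ), -(l : ℤ)) ((l : ℤ), (l : ℤ)))
    (fun k B => B (sh k.2 k.1) - B k.1) (fun k => by
      simp only
      rw [← Finset.sum_sub_distrib]
      exact Finset.sum_congr rfl fun i _ => by ring) fun k i j => by
      simp only
      ring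
  simp only [Finset.sum_product] at h2
  unfold Qf osc
  simp only at h1 h2 ⊢
  rw [h1, h2]
  simp only [mul_add, Finset.sum_add_distrib]
  have r1 : ∀ X : ι → ℝ, ∀ c : ℝ, ∑ i ∈ T, z i * (c * X i) = c * ∑ i ∈ T, z i * X i := by
    intro X c
    rw [Finset.mul_sum]
    exact Finset.sum_congr rfl fun i _ => by ring
  have r2 : ∀ X : ι → ι → ℝ, ∀ c : ℝ, ∑ i ∈ T, ∑ j ∈ T, z i * z j * (c * X i j) =
      c * ∑ i ∈ T, ∑ j ∈ T, z i * z j * X i j := by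
    intro X c
    rw [Finset.mul_sum]
    refine Finset.sum_congr rfl fun i _ => ?_
    rw [Finset.mul_sum]
    exact Finset.sum_congr rfl fun j _ => by ring
  rw [r1, r1, r2, r2]
  ring

end Vale.Agent.P159.T1.S.Hv
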