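import Vale.Agent.P159.T1.S.H711.RHg

/-!
P159: the Laplace functional of the heights in a box, joint version.
-/

open Filter Topology

namespace Vale.Agent.P159.T1.S.Hv

open Vale.Agent.P159 Vale.Agent.P159.T1.D
open Vale.Agent.P159.T1.H315 (Cv)
open Vale.Agent.P159.T1.D.H469 (osc_smul Vr_smul osc_nonneg)
open Vale.Agent.P159.T1.H910 (ZB_eq_Zρ exp_Vr_le_div Z_pos)

variable {b : ℝ} {U : Finset Z2} {B : Bnd → ℝ} {ρ : Z2 → ℝ}

/-- the upper bound for small fields, as a property of the constants -/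
def UB (b ε η C : ℝ) (l : ℕ) : Prop :=
  ∀ (U : Finset Z2) (S : Finset Bnd) (m : Bnd → ℤ) (B : Bnd → ℝ),
    (∀ e, e ∉ S → B e = 0) → (∀ e, |B e| ≤ η) →
    ZB b U m B ≤ Real.exp ((helicity b + ε) / 2 * ∑ e ∈ S, B e ^ 2 + C * osc l S B) * Z b U

/-- the variance is at most the quadratic form -/
lemma V_le_Qf {ε η C : ℝ} {l : ℕ} (hb : 0 < b) (hη : 0 < η) (H : UB b ε η C l)
    {S : Finset Bnd} (hS : ∀ e, e ∉ S → B e = 0) (hB : IsDiv U B ρ) {κ : ℝ} (hκ : 0 ≤ κ)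
    (hBκ : ∀ e, |B e| ≤ κ) : V b U ρ ≤ Qf (helicity b + ε) (2 * C) l S B := by
  set z : ℝ := η / (κ + 1) with hz
  have hz0 : 0 < z := by positivity
  have h1 := exp_lower (z := z) hb.le hB
  have h2 := exp_upper (z := z) hb H hS hB (fun e => by
    rw [abs_mul, abs_of_pos hz0]
    calc z * |B e| ≤ z * (κ + 1) :=
          mul_le_mul_of_nonneg_left ((hBκ e).trans (by linarith)) hz0.le
      _ = η := by rw [hz]; field_simp)
  have h3 := Real.exp_le_exp.1 (h1.trans h2)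
  have h4 : 0 < z ^ 2 := by positivity
  rw [← Vr_of_div hB]
  unfold Qf
  have h5 : z ^ 2 * Vr b U B / 2 = z ^ 2 / 2 * Vr b U B := by ring
  rw [h5] at h3
  exact le_of_mul_le_mul_left h3 (by positivity)

/-- bilinearity -/
lemma Cv_sum_l (hb : 0 ≤ b) (T : Finset Z2) (z : Z2 → ℝ) (g : Z2 → ℝ) :
    Cv b U (fun f => ∑ x ∈ T, z x * dl x f) g = ∑ x ∈ T, z x * Cv b U (dl x) g := by
  classical
  induction T using Finset.induction_on with
  | empty =>
    simp only [Finset.sum_empty]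
    have := Cv_smul_l (U := U) b 0 g g
    simp only [zero_mul] at this
    exact this
  | insert a T ha ih =>
    rw [Finset.sum_insert ha, ← ih]
    have e : (fun f => ∑ x ∈ insert a T, z x * dl x f) =
        fun f => z a * dl a f + ∑ x ∈ T, z x * dl x f := by
      funext f
      rw [Finset.sum_insert ha]
    rw [e, Cv_add_l hb, Cv_smul_l]

lemma Cv_comm' (b : ℝ) (U : Finset Z2) (f g : Z2 → ℝ) : Cv b U f g = Cv b U g f := by
  unfold Cv D.E
  congr 1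
  exact tsum_congr fun h => by ring

lemma V_sum (hb : 0 ≤ b) {T : Finset Z2} (hT : T ⊆ U) (z : Z2 → ℝ) :
    V b U (fun f => ∑ x ∈ T, z x * dl x f) =
      ∑ x ∈ T, ∑ y ∈ T, z x * z y * E b U (fun h => (h x : ℝ) * h y) := by
  unfold V
  rw [Cv_sum_l hb]
  refine Finset.sum_congr rfl fun x hx => ?_
  rw [Cv_comm', Cv_sum_l hb, Finset.mul_sum]
  refine Finset.sum_congr rfl fun y hy => ?_
  rw [cv_eq (hT hx) (hT hy), Cv_comm']
  ring

lemma isDiv_sum {T : Finset Z2} {z : Z2 → ℝ} {F : Z2 → Bnd → ℝ}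
    (hF : ∀ x ∈ T, IsDiv U (F x) (dl x)) :
    IsDiv U (fun e => ∑ x ∈ T, z x * F x e) (fun f => ∑ x ∈ T, z x * dl x f) := by
  intro f hf
  simp only
  rw [← Finset.sum_sub_distrib, ← Finset.sum_add_distrib, ← Finset.sum_sub_distrib]
  refine Finset.sum_congr rfl fun x hx => ?_
  rw [← hF x hx f hf]
  ring

lemma isDiv_sub {B' : Bnd → ℝ} {ρ' : Z2 → ℝ} (h : IsDiv U B ρ) (h' : IsDiv U B' ρ') :
    IsDiv U (fun e => B e - B' e) (fun f => ρ f - ρ' f) := by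
  intro f hf
  simp only
  rw [← h f hf, ← h' f hf]
  ring

lemma abs_Bx_le (m : ℕ) (x : Z2) (e : Bnd) : |Bx m x e| ≤ 2 := abs_Bf_le m _

/-- the quadratic form of the difference of two fields -/
lemma v2_le_Qf {ε η C : ℝ} {l : ℕ} (hb : 0 < b) (hη : 0 < η) (H : UB b ε η C l) {n : ℕ}
    {x y : Z2} (hx : x ∈ bx 0 (n / 2)) (hy : y ∈ bx 0 (n / 2)) :
    v2 b (bx 0 n) x y ≤ Qf (helicity b + ε) (2 * C) l (SP (5 * n))
      (fun e => Bx (2 * n) x e - Bx (2 * n) y e) := by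
  rw [v2_eq (bx_mono (by omega) hx) (bx_mono (by omega) hy)]
  refine V_le_Qf hb hη H (fun e he => ?_) (isDiv_sub (Bx_isDiv hx) (Bx_isDiv hy)) (κ := 4)
    (by norm_num) fun e => ?_
  · rw [Bx_off hx he, Bx_off hy he, sub_zero]
  · have h1 := abs_Bx_le (2 * n) x e
    have h2 := abs_Bx_le (2 * n) y e
    have h3 := abs_sub (Bx (2 * n) x e) (Bx (2 * n) y e)
    linarith

lemma dd_le {n : ℕ} {x y : Z2} (hx : x ∈ bx 0 (n / 2)) (hy : y ∈ bx 0 (n / 2)) : dd x y ≤ n := by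
  rw [mem_bx0] at hx hy
  unfold dd
  omega

lemma log_mx {n : ℕ} (hn : 1 ≤ n) {x y : Z2} (hx : x ∈ bx 0 (n / 2)) (hy : y ∈ bx 0 (n / 2)) :
    0 ≤ Real.log (max 1 (dd x y : ℝ)) ∧ Real.log (max 1 (dd x y : ℝ)) ≤ Real.log n := by
  have hn' : (1 : ℝ) ≤ n := by exact_mod_cast hn
  have h : (dd x y : ℝ) ≤ n := by exact_mod_cast dd_le hx hy
  exact ⟨Real.log_nonneg (le_max_left _ _), Real.log_le_log (by positivity) (max_le hn' h)⟩

/-- the height difference in a box, from below -/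
lemma v2_low (b : ℝ) (hb : bCrit ≤ b) (ε : ℝ) (hε : 0 < ε) : ∃ C : ℝ, 0 ≤ C ∧ ∀ n : ℕ, 1 ≤ n →
    ∀ x y : Z2, x ∈ bx 0 (n / 2) → y ∈ bx 0 (n / 2) →
      (helicity b / Real.pi - ε) * Real.log (max 1 (dd x y : ℝ)) - C ≤ v2 b (bx 0 n) x y := by
  have hb0 : 0 < b := (T1.H934.pos_of_ge b hb).1
  obtain ⟨C, hC⟩ := lower2h b hb ε hε
  refine ⟨|C|, abs_nonneg _, fun n hn x y hx hy => ?_⟩
  have hxn : x ∈ bx 0 n := bx_mono (by omega) hx
  have hyn : y ∈ bx 0 n := bx_mono (by omega) hy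
  by_cases hxy : x = y
  · subst hxy
    have e1 : dd x x = 0 := by unfold dd; simp
    rw [e1]
    simp only [Nat.cast_zero, max_eq_left (zero_le_one' ℝ), Real.log_one, mul_zero, zero_sub]
    linarith [V_nonneg' (b := b) hb0.le hxn hxn, abs_nonneg C]
  · have hd1 : 1 ≤ dd x y := by
      by_contra h
      have h0 : dd x y = 0 := by omega
      unfold dd at h0
      apply hxy
      rw [Nat.max_eq_zero_iff] at h0
      exact Prod.ext (by omega) (by omega)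
    have hdn := dd_le hx hy
    have b1 : ∀ w : Z2, w ∈ bx 0 (n / 2) → bx w (dd x y / 2) ⊆ bx 0 n := by
      intro w hw z hz
      rw [mem_bx0] at hw ⊢
      rw [mem_bx] at hz
      have : dd x y / 2 ≤ n / 2 := by omega
      omega
    have h := hC x y hxy (bx 0 n) (b1 x hx) (b1 y hy)
    rw [max_eq_right (by exact_mod_cast hd1 : (1 : ℝ) ≤ dd x y)]
    linarith [le_abs_self C]

/-- **the Laplace functional of the heights in a box** -/
theorem mgf_joint (b : ℝ) (hb : bCrit ≤ b) (ε : ℝ) (hε : 0 < ε) : ∃ η : ℝ, 0 < η ∧ ∃ C : ℝ,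
    ∀ n : ℕ, 1 ≤ n → ∀ T : Finset Z2, T ⊆ bx 0 (n / 2) → ∀ z : Z2 → ℝ, (∀ x ∈ T, 0 ≤ z x) →
      ∑ x ∈ T, z x ≤ η →
      |Real.log (Zρ b (bx 0 n) (fun f => ∑ x ∈ T, z x * dl x f) / Z b (bx 0 n)) -
        helicity b / (4 * Real.pi) * ∑ x ∈ T, ∑ y ∈ T, z x * z y *
          (Real.log n - Real.log (max 1 (dd x y : ℝ)))| ≤
        (∑ x ∈ T, z x) ^ 2 * (ε * Real.log n + C) := by
  have hY := T1.H934.pos_of_ge b hb
  have hb0 : 0 < b := hY.1
  have hp := Real.pi_pos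
  have hY0 : 0 < helicity b := lt_of_lt_of_le (by positivity) hY.2
  obtain ⟨l, η, C, hη, hC, H⟩ := stmtU b (ε / 2) hb0 (by positivity)
  obtain ⟨K, hK⟩ := Qf_Bx hb (ε := ε / 2) (by positivity) l (C := 2 * C) (by positivity)
  obtain ⟨C3, hC3, h3⟩ := v2_low b hb (ε / 2) (by positivity)
  obtain ⟨C4, h4⟩ := cov_box b hb (ε / 2) (by positivity)
  obtain ⟨A, hA⟩ : ∃ A : ℝ, A = helicity b / (2 * Real.pi) := ⟨_, rfl⟩
  have e2 : helicity b / Real.pi = 2 * A := by rw [hA]; field_simp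
  have e3 : helicity b / (4 * Real.pi) = A / 2 := by rw [hA]; field_simp; norm_num
  rw [e2] at h3
  rw [← hA] at h4 hK
  rw [e3]
  refine ⟨η / 2, by positivity, |K| + C3 + |C4|, fun n hn T hT z hz hzs => ?_⟩
  have hn' : (1 : ℝ) ≤ n := by exact_mod_cast hn
  have hlog := Real.log_nonneg hn'
  have hTn : T ⊆ bx 0 n := hT.trans (bx_mono (by omega))
  set s := ∑ x ∈ T, z x with hs
  have hs0 : 0 ≤ s := Finset.sum_nonneg hz
  set B : Bnd → ℝ := fun e => ∑ x ∈ T, z x * Bx (2 * n) x e with hB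
  set M := Zρ b (bx 0 n) (fun f => ∑ x ∈ T, z x * dl x f) / Z b (bx 0 n) with hM
  have hdiv : IsDiv (bx 0 n) B (fun f => ∑ x ∈ T, z x * dl x f) :=
    isDiv_sum fun x hx => Bx_isDiv (hT hx)
  have hoff : ∀ e, e ∉ SP (5 * n) → B e = 0 := fun e he =>
    Finset.sum_eq_zero fun x hx => by rw [Bx_off (hT hx) he, mul_zero]
  have hbd : ∀ e, |B e| ≤ η := fun e => by
    calc |B e| ≤ ∑ x ∈ T, |z x * Bx (2 * n) x e| := Finset.abs_sum_le_sum_abs _ _
      _ ≤ ∑ x ∈ T, z x * 2 := Finset.sum_le_sum fun x hx => by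
          rw [abs_mul, abs_of_nonneg (hz x hx)]
          exact mul_le_mul_of_nonneg_left (abs_Bx_le _ _ _) (hz x hx)
      _ = s * 2 := by rw [← Finset.sum_mul]
      _ ≤ η := by linarith
  -- the double sums
  have dsum : ∀ X : Z2 → Z2 → ℝ, ∀ Y : Z2 → Z2 → ℝ, (∀ x ∈ T, ∀ y ∈ T, X x y ≤ Y x y) →
      ∑ x ∈ T, ∑ y ∈ T, z x * z y * X x y ≤ ∑ x ∈ T, ∑ y ∈ T, z x * z y * Y x y := by
    intro X Y h
    exact Finset.sum_le_sum fun x hx => Finset.sum_le_sum fun y hy =>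
      mul_le_mul_of_nonneg_left (h x hx y hy) (mul_nonneg (hz x hx) (hz y hy))
  have dconst : ∀ c : ℝ, ∑ x ∈ T, ∑ y ∈ T, z x * z y * c = s ^ 2 * c := by
    intro c
    rw [pow_two, hs, Finset.sum_mul_sum, Finset.sum_mul]
    exact Finset.sum_congr rfl fun x _ => by rw [Finset.sum_mul]
  -- lower bound
  have lo := exp_Vr_le_div hb0.le hdiv
  rw [Vr_of_div hdiv, V_sum hb0.le hTn] at lo
  have hM0 : 0 < M := lt_of_lt_of_le (Real.exp_pos _) lo
  have lo' := (Real.le_log_iff_exp_le hM0).2 lo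
  have l1 := dsum (fun x y => A * (Real.log n - Real.log (max 1 (dd x y : ℝ))) -
      (ε / 2 * Real.log n + |C4|)) (fun x y => E b (bx 0 n) (fun h => (h x : ℝ) * h y))
    fun x hx y hy => by
      have := (abs_le.1 (h4 n hn x y (hT hx) (hT hy))).1
      have := le_abs_self C4
      linarith
  simp only [mul_sub, Finset.sum_sub_distrib] at l1
  rw [dconst, dconst] at l1
  -- upper bound
  have hi := H (bx 0 n) (SP (5 * n)) 0 B hoff hbd
  rw [ZB_eq_Zρ hdiv] at hi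
  have hi1 : M ≤ Real.exp (Qf (helicity b + ε / 2) (2 * C) l (SP (5 * n)) B / 2) := by
    rw [hM, div_le_iff₀ (Z_pos hb0.le _)]
    refine hi.trans (le_of_eq ?_)
    congr 2
    unfold Qf
    ring
  have hi2 := (Real.log_le_iff_le_exp hM0).2 hi1
  rw [hB, Qf_mix] at hi2
  have u1 : ∑ x ∈ T, z x * Qf (helicity b + ε / 2) (2 * C) l (SP (5 * n)) (Bx (2 * n) x) ≤
      s * ((A + ε / 2) * Real.log n + |K|) := by
    rw [hs, Finset.sum_mul]
    refine Finset.sum_le_sum fun x hx => mul_le_mul_of_nonneg_left ?_ (hz x hx)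
    linarith [hK n hn x (hT hx), le_abs_self K]
  have u2 := dsum (fun x y => 2 * (A * Real.log (max 1 (dd x y : ℝ))) -
      (ε / 2 * Real.log n + C3)) (fun x y => Qf (helicity b + ε / 2) (2 * C) l (SP (5 * n))
        (fun e => Bx (2 * n) x e - Bx (2 * n) y e)) fun x hx y hy => by
      have a1 := h3 n hn x y (hT hx) (hT hy)
      have a2 := v2_le_Qf hb0 hη H (hT hx) (hT hy)
      obtain ⟨a3, a4⟩ := log_mx hn (hT hx) (hT hy)
      nlinarith
  simp only [mul_sub, Finset.sum_sub_distrib] at u2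
  rw [dconst] at u2
  have u3 := mul_le_mul_of_nonneg_left u1 hs0
  -- the main term
  have m1 : ∑ x ∈ T, ∑ y ∈ T, z x * z y * (Real.log n - Real.log (max 1 (dd x y : ℝ))) =
      s ^ 2 * Real.log n - ∑ x ∈ T, ∑ y ∈ T, z x * z y * Real.log (max 1 (dd x y : ℝ)) := by
    simp only [mul_sub, Finset.sum_sub_distrib]
    rw [dconst]
  obtain ⟨L, hL⟩ : ∃ L : ℝ, L = ∑ x ∈ T, ∑ y ∈ T, z x * z y * Real.log (max 1 (dd x y : ℝ)) :=
    ⟨_, rfl⟩
  have m2 : ∑ x ∈ T, ∑ y ∈ T, z x * z y * (2 * (A * Real.log (max 1 (dd x y : ℝ)))) =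
      2 * A * L := by
    rw [hL, Finset.mul_sum]
    refine Finset.sum_congr rfl fun x _ => ?_
    rw [Finset.mul_sum]
    exact Finset.sum_congr rfl fun y _ => by ring
  have m4 : ∑ x ∈ T, ∑ y ∈ T, z x * z y * (A * Real.log (max 1 (dd x y : ℝ))) = A * L := by
    rw [hL, Finset.mul_sum]
    refine Finset.sum_congr rfl fun x _ => ?_
    rw [Finset.mul_sum]
    exact Finset.sum_congr rfl fun y _ => by ring
  rw [m4] at l1
  rw [m2] at u2
  rw [m1, ← hL]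
  have hK0 := abs_nonneg K
  have hC40 := abs_nonneg C4
  have s2 : 0 ≤ s ^ 2 := sq_nonneg s
  have p1 := mul_nonneg s2 (mul_nonneg hε.le hlog)
  have p2 := mul_nonneg s2 hK0
  have p3 := mul_nonneg s2 hC3
  have p4 := mul_nonneg s2 hC40
  rw [abs_le]
  constructor
  · linarith
  · linarith

end Vale.Agent.P159.T1.S.Hv
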