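import Vale.Agent.P159.T1.S.H711.RHh

/-!
P159: the Laplace functional of the heights and the central limit theorem, elementary terms.
-/

open Filter Topology

namespace Vale.Agent.P159.T1.S.Hv

open Vale.Agent.P159 Vale.Agent.P159.T1.D

variable {b : ℝ} {U : Finset Z2}

lemma ch_sum_dl {T : Finset Z2} (hT : T ⊆ U) (z : Z2 → ℝ) (h : Z2 → ℤ) :
    ch U (fun f => ∑ x ∈ T, z x * dl x f) h = ∑ x ∈ T, z x * (h x : ℝ) := by
  unfold ch
  simp only [Finset.sum_mul]
  rw [Finset.sum_comm]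
  refine Finset.sum_congr rfl fun x hx => ?_
  have h1 := ch_dl (hT hx) h
  unfold ch at h1
  rw [← h1, Finset.mul_sum]
  exact Finset.sum_congr rfl fun f _ => by ring

lemma hMean_exp_sum (hb : 0 ≤ b) {T : Finset Z2} (hT : T ⊆ U) (z : Z2 → ℝ) :
    hMean b U (fun h => Real.exp (∑ x ∈ T, z x * (h x : ℝ))) =
      Zρ b U (fun f => ∑ x ∈ T, z x * dl x f) / Z b U := by
  rw [hMean_eq hb]
  unfold D.E Zρ
  congr 1
  refine tsum_congr fun h => ?_
  rw [ch_sum_dl hT]

lemma bx_icc (n : ℕ) :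
    bx 0 n = Finset.Icc (-(n : ℤ), -(n : ℤ)) ((n : ℤ), (n : ℤ)) := by
  unfold bx
  rw [zero_add, zero_sub]
  rfl

lemma mem_half {n : ℕ} {x : ℤ × ℤ} (hx : 2 * max |x.1| |x.2| ≤ (n : ℤ)) : x ∈ bx 0 (n / 2) := by
  rw [mem_bx0]
  have h1 : |x.1| ≤ max |x.1| |x.2| := le_max_left _ _
  have h2 : |x.2| ≤ max |x.1| |x.2| := le_max_right _ _
  have h3 := abs_le.1 (le_refl |x.1|)
  have h4 := abs_le.1 (le_refl |x.2|)
  omega

/-- **The Laplace functional of the heights in a box**: the heights are Gaussian to leading order,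
with logarithmic covariance. -/
theorem laplace' (b : ℝ) (hb : bCrit ≤ b) (ε : ℝ) (hε : 0 < ε) : ∃ η : ℝ, 0 < η ∧ ∃ C : ℝ,
    ∀ n : ℕ, 1 ≤ n → ∀ T : Finset (ℤ × ℤ), (∀ x ∈ T, 2 * max |x.1| |x.2| ≤ n) →
      ∀ z : ℤ × ℤ → ℝ, (∀ x ∈ T, 0 ≤ z x) → ∑ x ∈ T, z x ≤ η →
        |Real.log (hMean b (Finset.Icc (-(n : ℤ), -(n : ℤ)) ((n : ℤ), (n : ℤ)))
            (fun h => Real.exp (∑ x ∈ T, z x * (h x : ℝ)))) -
          helicity b / (4 * Real.pi) * ∑ x ∈ T, ∑ y ∈ T, z x * z y *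
            Real.log (n / (max 1 ((max |(x - y).1| |(x - y).2| : ℤ) : ℝ)))| ≤
          (∑ x ∈ T, z x) ^ 2 * (ε * Real.log n + C) := by
  have hb0 : 0 < b := (T1.H934.pos_of_ge b hb).1
  obtain ⟨η, hη, C, H⟩ := mgf_joint b hb ε hε
  refine ⟨η, hη, C, fun n hn T hT z hz hzs => ?_⟩
  have hT' : T ⊆ bx 0 (n / 2) := fun x hx => mem_half (hT x hx)
  have h := H n hn T hT' z hz hzs
  rw [← bx_icc, hMean_exp_sum hb0.le (hT'.trans (bx_mono (by omega)))]
  have hn' : (1 : ℝ) ≤ n := by exact_mod_cast hn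
  have e : ∀ x y : ℤ × ℤ, Real.log (n / (max 1 ((max |(x - y).1| |(x - y).2| : ℤ) : ℝ))) =
      Real.log n - Real.log (max 1 (dd x y : ℝ)) := by
    intro x y
    rw [dd_cast, Int.cast_natCast, Real.log_div (by positivity) (by positivity)]
  simp only [e]
  exact h

/-- **The central limit theorem for the height at a face**, with the exact variance -/
theorem clt' (b : ℝ) (hb : bCrit ≤ b) (t : ℝ) :
    Tendsto (fun n : ℕ => hMean b (Finset.Icc (-(n : ℤ), -(n : ℤ)) ((n : ℤ), (n : ℤ)))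
      (fun h => Real.exp (t * (h 0 : ℝ) / Real.sqrt (Real.log n)))) atTop
      (𝓝 (Real.exp (t ^ 2 * (helicity b / (4 * Real.pi))))) := by
  have hb0 : 0 < b := (T1.H934.pos_of_ge b hb).1
  have hlog : Tendsto (fun n : ℕ => Real.log n) atTop atTop :=
    Real.tendsto_log_atTop.comp tendsto_natCast_atTop_atTop
  have hsq : Tendsto (fun n : ℕ => Real.sqrt (Real.log n)) atTop atTop :=
    Real.tendsto_sqrt_atTop.comp hlog
  obtain ⟨M, hM⟩ : ∃ M : ℕ → ℝ → ℝ, M = fun n z =>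
      Zρ b (bx 0 n) (fun f => z * dl 0 f) / Z b (bx 0 n) := ⟨_, rfl⟩
  have e1 : ∀ n : ℕ, hMean b (Finset.Icc (-(n : ℤ), -(n : ℤ)) ((n : ℤ), (n : ℤ)))
      (fun h => Real.exp (t * (h 0 : ℝ) / Real.sqrt (Real.log n))) =
      M n (t / Real.sqrt (Real.log n)) := by
    intro n
    have h := hMean_exp_sum (U := bx 0 n) hb0.le (T := {0}) (by
      rw [Finset.singleton_subset_iff, mem_bx0]
      simp) fun _ => t / Real.sqrt (Real.log n)
    simp only [Finset.sum_singleton] at h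
    rw [← bx_icc, hM]
    simp only
    rw [← h]
    congr 1
    funext h
    congr 1
    ring
  simp only [e1]
  have hpos : ∀ n : ℕ, ∀ z : ℝ, 0 < M n z := by
    intro n z
    rw [hM]
    exact lt_of_lt_of_le (Real.exp_pos _) (exp_lower (z := z) hb0.le (Bf_isDiv n))
  have key : Tendsto (fun n : ℕ => Real.log (M n (t / Real.sqrt (Real.log n)))) atTop
      (𝓝 (t ^ 2 * (helicity b / (4 * Real.pi)))) := by
    rw [Metric.tendsto_atTop]
    intro r hr
    obtain ⟨ε, hεdef⟩ : ∃ ε : ℝ, ε = r / (2 * (t ^ 2 + 1)) := ⟨_, rfl⟩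
    have hε : 0 < ε := by rw [hεdef]; positivity
    obtain ⟨η, hη, C, H⟩ := mgf_log b hb ε hε
    have h1 : ∀ᶠ n : ℕ in atTop, |t| / η ≤ Real.sqrt (Real.log n) :=
      hsq.eventually_ge_atTop _
    have h2 : ∀ᶠ n : ℕ in atTop, 2 * (t ^ 2 * |C| + 1) / r < Real.log n :=
      hlog.eventually_gt_atTop _
    have h3 : ∀ᶠ n : ℕ in atTop, 0 < Real.log n := hlog.eventually_gt_atTop _
    obtain ⟨n0, hn0⟩ := eventually_atTop.1 (((h1.and h2).and h3).and (eventually_ge_atTop 1))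
    refine ⟨n0, fun n hn => ?_⟩
    obtain ⟨⟨⟨a1, a2⟩, a3⟩, a4⟩ := hn0 n hn
    have hs0 : 0 < Real.sqrt (Real.log n) := Real.sqrt_pos.2 a3
    have hs2 : Real.sqrt (Real.log n) ^ 2 = Real.log n := Real.sq_sqrt a3.le
    have hz : |t / Real.sqrt (Real.log n)| ≤ η := by
      rw [abs_div, abs_of_pos hs0, div_le_iff₀ hs0]
      rw [div_le_iff₀ hη] at a1
      linarith
    have h := H n a4 _ hz
    have e2 : (t / Real.sqrt (Real.log n)) ^ 2 = t ^ 2 / Real.log n := by rw [div_pow, hs2]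
    have hMn : Zρ b (bx 0 n) (fun f => t / Real.sqrt (Real.log n) * dl 0 f) / Z b (bx 0 n) =
        M n (t / Real.sqrt (Real.log n)) := by rw [hM]
    rw [hMn, e2] at h
    have e3 : helicity b / (4 * Real.pi) * (t ^ 2 / Real.log n) * Real.log n =
        t ^ 2 * (helicity b / (4 * Real.pi)) := by
      field_simp
    have e4 : t ^ 2 / Real.log n * (ε * Real.log n + C) = t ^ 2 * ε + t ^ 2 * C / Real.log n := by
      field_simp
    rw [e3, e4] at h
    rw [Real.dist_eq]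
    have b1 : t ^ 2 * ε ≤ r / 2 := by
      rw [hεdef]
      have : t ^ 2 * (r / (2 * (t ^ 2 + 1))) = r / 2 * (t ^ 2 / (t ^ 2 + 1)) := by
        field_simp
      rw [this]
      have h5 : t ^ 2 / (t ^ 2 + 1) ≤ 1 := by
        rw [div_le_one (by positivity)]
        linarith
      nlinarith
    have b2 : t ^ 2 * C / Real.log n < r / 2 := by
      rw [div_lt_iff₀ a3]
      rw [div_lt_iff₀ hr] at a2
      have h6 : t ^ 2 * C ≤ t ^ 2 * |C| := mul_le_mul_of_nonneg_left (le_abs_self C) (sq_nonneg t)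
      linarith
    linarith
  have := (Real.continuous_exp.tendsto _).comp key
  refine this.congr fun n => ?_
  simp only [Function.comp]
  exact Real.exp_log (hpos _ _)

end Vale.Agent.P159.T1.S.Hv
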