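import Vale.Agent.P159.T1.S.H711.RHi
import Vale.Agent.P159.T1.S.H530.RHh

/-!
P159: the joint Laplace transform of the heights in a box, real coefficients, elementary terms.
-/

open Filter Topology

namespace Vale.Agent.P159.T1.S.Hv

open Vale.Agent.P159 Vale.Agent.P159.T1.D

/-- **The joint Laplace transform of the heights in a box** is that of the Gaussian field with
logarithmic covariance, up to `ε log n`. -/
theorem laplaceS (b : ℝ) (hb : bCrit ≤ b) (ε : ℝ) (hε : 0 < ε) : ∃ η C : ℝ, 0 < η ∧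
    ∀ n : ℕ, 1 ≤ n → ∀ (T : Finset (ℤ × ℤ)) (z : ℤ × ℤ → ℝ),
      (∀ x ∈ T, 2 * max |x.1| |x.2| ≤ n) → ∑ x ∈ T, |z x| ≤ η →
        |Real.log (hMean b (Finset.Icc (-(n : ℤ), -(n : ℤ)) ((n : ℤ), (n : ℤ)))
            (fun h => Real.exp (∑ x ∈ T, z x * (h x : ℝ)))) -
          helicity b / (4 * Real.pi) * ∑ x ∈ T, ∑ y ∈ T, z x * z y *
            Real.log (n / (max 1 ((max |(x - y).1| |(x - y).2| : ℤ) : ℝ)))| ≤
          (∑ x ∈ T, |z x|) ^ 2 * (ε * Real.log n + C) := by
  have hb0 : 0 < b := (T1.H934.pos_of_ge b hb).1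
  obtain ⟨η, C, hη, H⟩ := H530.joint_box b hb ε hε
  refine ⟨η, C, hη, fun n hn T z hT hz => ?_⟩
  have h := H n hn T z (fun x hx => mem_half (hT x hx)) hz
  rw [← bx_icc, hMean_eq hb0.le]
  have hn' : (1 : ℝ) ≤ n := by exact_mod_cast hn
  have e : ∀ x y : ℤ × ℤ, Real.log (n / (max 1 ((max |(x - y).1| |(x - y).2| : ℤ) : ℝ))) =
      Real.log n - Real.log (max 1 (dd x y : ℝ)) := by
    intro x y
    rw [dd_cast, Int.cast_natCast, Real.log_div (by positivity) (by positivity)]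
  simp only [e]
  have e2 : 1 / 2 * ∑ x ∈ T, ∑ y ∈ T, z x * z y *
      (helicity b / (2 * Real.pi) * (Real.log n - Real.log (max 1 (dd x y : ℝ)))) =
      helicity b / (4 * Real.pi) * ∑ x ∈ T, ∑ y ∈ T, z x * z y *
        (Real.log n - Real.log (max 1 (dd x y : ℝ))) := by
    rw [Finset.mul_sum, Finset.mul_sum]
    refine Finset.sum_congr rfl fun x _ => ?_
    rw [Finset.mul_sum, Finset.mul_sum]
    refine Finset.sum_congr rfl fun y _ => ?_
    have hp := Real.pi_ne_zero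
    field_simp
    ring
  rw [e2] at h
  exact h

end Vale.Agent.P159.T1.S.Hv
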