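import Vale.Agent.P159.T1.D.Stmts

/-!
P159 stage 2, row S.V: the statements between the free square, one scale and the K-adic rings.
-/

open Filter Topology MeasureTheory

namespace Vale.Agent.P159.T1.S.H711

open Vale.Agent.P159 Vale.Agent.P159.T1.D

/-- sample of `ψ` in the square `u + [0,n)²` -/
noncomputable def sq (ψ : ℝ × ℝ → ℝ) (n : ℕ) (u f : Z2) : ℝ :=
  ψ (((f.1 : ℝ) - u.1) / n, ((f.2 : ℝ) - u.2) / n)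

/-- admissible test functions: `C²`, compact support in the open unit square -/
def TestSq (ψ : ℝ × ℝ → ℝ) : Prop :=
  ContDiff ℝ 2 ψ ∧ HasCompactSupport ψ ∧ ∀ z ∈ tsupport ψ, 0 < z.1 ∧ z.1 < 1 ∧ 0 < z.2 ∧ z.2 < 1

/-- `U` contains the square `u + [0,n)²` -/
def SqIn (n : ℕ) (u : Z2) (U : Finset Z2) : Prop :=
  ∀ f : Z2, u.1 ≤ f.1 → f.1 < u.1 + n → u.2 ≤ f.2 → f.2 < u.2 + n → f ∈ U

/-- S.SQ: the free square -/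
def FreeSq (b : ℝ) : Prop :=
  ∀ ψ : ℝ × ℝ → ℝ, TestSq ψ → ∀ ε : ℝ, 0 < ε → ∃ n0 : ℕ, ∀ n ≥ n0, ∀ (u : Z2) (U : Finset Z2),
    SqIn n u U → helicity b * Dir ψ - ε ≤ Vr b U (dr (sq ψ n u))

/-- S.V, P1: finitely many squares and finitely many test functions -/
def SqCombo (b : ℝ) : Prop :=
  ∀ (p : ℕ) (ψ : Fin p → ℝ × ℝ → ℝ), (∀ k, TestSq (ψ k)) → ∀ (N : ℕ) (M δ : ℝ), 0 < δ →
    ∃ n0 : ℕ, ∀ n ≥ n0, ∀ (U I : Finset Z2), I.card ≤ N → (∀ u ∈ I, SqIn n u U) →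
      ∀ c : Z2 → Fin p → ℝ, (∀ u ∈ I, ∀ k, |c u k| ≤ M) → ∀ S : Finset Bnd,
        (∀ e, e ∉ S → dr (fun f => ∑ u ∈ I, ∑ k, c u k * sq (ψ k) n u f) e = 0) →
        helicity b * ∑ e ∈ S, dr (fun f => ∑ u ∈ I, ∑ k, c u k * sq (ψ k) n u f) e ^ 2 - δ ≤
          Vr b U (dr fun f => ∑ u ∈ I, ∑ k, c u k * sq (ψ k) n u f)

/-- the two unit steps -/
def stp : Finset Z2 := {(1, 0), (0, 1)}

/-- `φ` lives at scale `m`: `|φ| ≤ M`, first differences `≤ C₁ / m`, second differences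
`≤ C₂ / m²`, `φ = 0` off the box of radius `K m` around `w` -/
structure Scl (K M C₁ C₂ : ℝ) (m : ℕ) (w : Z2) (φ : Z2 → ℝ) : Prop where
  bd : ∀ f, |φ f| ≤ M
  d1 : ∀ f, ∀ e ∈ stp, |φ (f + e) - φ f| ≤ C₁ / m
  d2 : ∀ f, ∀ e ∈ stp, ∀ e' ∈ stp, |φ (f + e + e') - φ (f + e) - (φ (f + e') - φ f)| ≤
    C₂ / (m : ℝ) ^ 2
  supp : ∀ f, φ f ≠ 0 → |(f.1 : ℝ) - w.1| ≤ K * m ∧ |(f.2 : ℝ) - w.2| ≤ K * m

/-- S.V, P2: one scale. `θ m` is a lower bound for the distance of the support to the complement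
of `U`. -/
def OneScale (b : ℝ) : Prop :=
  ∀ K M C₁ C₂ θ δ : ℝ, 0 < θ → 0 < δ → ∃ m0 : ℕ, ∀ m ≥ m0, ∀ (w : Z2) (φ : Z2 → ℝ)
    (U : Finset Z2), Scl K M C₁ C₂ m w φ →
    (∀ f, φ f ≠ 0 → ∀ f' : Z2, |(f'.1 : ℝ) - f.1| ≤ θ * m → |(f'.2 : ℝ) - f.2| ≤ θ * m → f' ∈ U) →
    ∀ S : Finset Bnd, (∀ e, e ∉ S → dr φ e = 0) →
      helicity b * ∑ e ∈ S, dr φ e ^ 2 - δ ≤ Vr b U (dr φ)

end Vale.Agent.P159.T1.S.H711
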